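import Vale.Agent.P048.Spec

namespace Vale.Agent.P048

namespace ABm

variable {V : Type} {G : SimpleGraph V} {H : Finset V} {n y : ℕ} {f : ℤ → V} {col : V → Bool}

/-- an infinite walk that runs along the cycle after `m` steps -/
structure Wlk (G : SimpleGraph V) (H : Finset V) (f : ℤ → V) (m : ℕ) (h : ℕ → V) (p : ℤ) :
    Prop where
  on : ∀ s : ℕ, h (m + s) = f (p + s)
  off : ∀ t, t < m → ∀ i, h t ≠ f i
  inj : ∀ t, t < m → ∀ t', t' < m → h t = h t' → t = t'
  mem : ∀ t, h t ∈ H
  adj : ∀ t, G.Adj (h t) (h (t + 1))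

theorem cyc_inj (hc : Cyc G n f) {i j : ℤ} (e : f i = f j) (h1 : i - j < n) (h2 : j - i < n) :
    i = j := by
  have hd := (hc.2 i j).1 e
  have := Int.eq_zero_of_abs_lt_dvd hd (by rw [abs_lt]; constructor <;> omega)
  omega

theorem Wlk.pth {m : ℕ} {h : ℕ → V} {p : ℤ} (hc : Cyc G n f) (hy : y < n)
    (w : Wlk G H f m h p) : Pth G H y h := by
  refine ⟨fun i _ => w.adj i, fun i _ => w.mem i, ?_⟩
  intro i hi j hj e
  by_cases h1 : i < m <;> by_cases h2 : j < m
  · exact w.inj i h1 j h2 e
  · obtain ⟨s, rfl⟩ := Nat.exists_eq_add_of_le (not_lt.1 h2)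
    rw [w.on] at e
    exact absurd e (w.off i h1 _)
  · obtain ⟨s, rfl⟩ := Nat.exists_eq_add_of_le (not_lt.1 h1)
    rw [w.on] at e
    exact absurd e.symm (w.off j h2 _)
  · obtain ⟨s, rfl⟩ := Nat.exists_eq_add_of_le (not_lt.1 h1)
    obtain ⟨s', rfl⟩ := Nat.exists_eq_add_of_le (not_lt.1 h2)
    rw [w.on, w.on] at e
    have := cyc_inj hc e (by omega) (by omega)
    omega

theorem wlk0 (hc : Cyc G n f) (hH : ∀ i, f i ∈ H) (p : ℤ) :
    Wlk G H f 0 (fun s => f (p + s)) p := by
  refine ⟨by simp, by simp, by simp, fun t => hH _, fun t => ?_⟩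
  have := hc.1 (p + t)
  simpa [add_assoc] using this

theorem Wlk.suf {m : ℕ} {h : ℕ → V} {p : ℤ} (w : Wlk G H f m h p) {t : ℕ} (ht : t ≤ m) :
    Wlk G H f (m - t) (fun s => h (t + s)) p := by
  refine ⟨fun s => ?_, fun s hs => w.off _ (by omega), fun a ha b hb e => ?_, fun s => w.mem _,
    fun s => w.adj _⟩
  · have : t + (m - t + s) = m + s := by omega
    simp only [this, w.on]
  · have := w.inj _ (by omega) _ (by omega) e
    omega

def pre (u : V) (h : ℕ → V) : ℕ → V
  | 0 => u
  | s + 1 => h s

theorem Wlk.cons {m : ℕ} {h : ℕ → V} {p : ℤ} (w : Wlk G H f m h p) {u : V} (hu : u ∈ H)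
    (h1 : ∀ i, u ≠ f i) (h2 : ∀ t, t < m → u ≠ h t) (h3 : G.Adj u (h 0)) :
    Wlk G H f (m + 1) (pre u h) p := by
  refine ⟨fun s => ?_, fun s hs => ?_, fun a ha b hb e => ?_, fun s => ?_, fun s => ?_⟩
  · have : m + 1 + s = (m + s) + 1 := by omega
    rw [this]
    exact w.on s
  · cases s with
    | zero => exact h1
    | succ s => exact w.off s (by omega)
  · cases a with
    | zero =>
      cases b with
      | zero => rfl
      | succ b => exact absurd e (h2 b (by omega))
    | succ a =>
      cases b with
      | zero => exact absurd e.symm (h2 a (by omega))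
      | succ b => rw [w.inj a (by omega) b (by omega) e]
  · cases s with
    | zero => exact hu
    | succ s => exact w.mem s
  · cases s with
    | zero => exact h3
    | succ s => exact w.adj s

/-- the parity bit -/
def par (b : Bool) (t : ℕ) : Bool := b && decide (t % 2 = 1)

theorem par_succ (b : Bool) (t : ℕ) : par b (t + 1) = xor (par b t) b := by
  unfold par
  rcases Nat.mod_two_eq_zero_or_one t with h | h
  · have : (t + 1) % 2 = 1 := by omega
    cases b <;> simp [h, this]
  · have : (t + 1) % 2 = 0 := by omega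
    cases b <;> simp [h, this]

/-- along good edges the corrected colour is constant -/
theorem run {b : Bool} {g : ℕ → V} {a : ℕ} (c : ℕ)
    (hg : ∀ t, a ≤ t → t < a + c → xor (col (g t)) (col (g (t + 1))) = b) :
    xor (col (g a)) (par b a) = xor (col (g (a + c))) (par b (a + c)) := by
  induction c with
  | zero => rfl
  | succ c ih =>
    rw [ih (fun t h1 h2 => hg t h1 (by omega)), ← add_assoc, par_succ]
    have := hg (a + c) (by omega) (by omega)
    revert this
    cases col (g (a + c)) <;> cases col (g (a + c + 1)) <;> cases par b (a + c) <;> cases b <;> simp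

theorem key {b : Bool} {g : ℕ → V} (hm : Mono G H y col) (hp : par b y = false)
    (hg : Pth G H y g) {j : ℕ} (hj : j < y)
    (h : ∀ t, t < y → t ≠ j → xor (col (g t)) (col (g (t + 1))) = b) :
    xor (col (g j)) (col (g (j + 1))) = b := by
  have h0 := hm g hg
  have h1 := run (col := col) (b := b) (g := g) (a := 0) j
    (fun t _ h2 => h t (by omega) (by omega))
  have h2 := run (col := col) (b := b) (g := g) (a := j + 1) (y - (j + 1))
    (fun t _ h2 => h t (by omega) (by omega))
  have e : j + 1 + (y - (j + 1)) = y := by omega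
  rw [e, hp, par_succ, ← h0] at h2
  have p0 : par b 0 = false := by simp [par]
  rw [p0, zero_add] at h1
  revert h1 h2
  cases col (g j) <;> cases col (g (j + 1)) <;> cases par b j <;> cases b <;> cases col (g 0) <;>
    simp

theorem xor_sym {a b c : Bool} (h : xor a b = c) : xor b a = c := by
  rw [Bool.xor_comm]; exact h

/-- chords and cycle edges are good -/
theorem chord {b : Bool} (hc : Cyc G n f) (hH : ∀ i, f i ∈ H) (hy1 : 1 ≤ y) (hy : y < n)
    (hm : Mono G H y col) (hp : par b y = false)
    (he : ∀ i, xor (col (f i)) (col (f (i + 1))) = b) (p q : ℤ) (hpq : G.Adj (f p) (f q)) :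
    xor (col (f p)) (col (f q)) = b := by
  have hn : (0 : ℤ) < n := by omega
  obtain ⟨d, hd0, hdn, hq⟩ : ∃ d : ℕ, 1 ≤ d ∧ d < n ∧ f q = f (p + d) := by
    have a1 := Int.emod_nonneg (q - p) hn.ne'
    have a2 := Int.emod_lt_of_pos (q - p) hn
    have a3 : f q = f (p + (q - p) % n) := by
      rw [hc.2]
      have := Int.emod_add_mul_ediv (q - p) n
      exact ⟨(q - p) / n, by linarith⟩
    refine ⟨((q - p) % n).toNat, ?_, by omega, ?_⟩
    · by_contra h0
      have : (q - p) % n = 0 := by omega
      rw [this, add_zero] at a3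
      exact hpq.ne a3.symm
    · rw [a3]; congr 2; omega
  rw [hq] at hpq ⊢
  set i := d + y - n with hi
  let g : ℕ → V := fun t => if t ≤ i then f (p + i - t) else f (p + d + t - i - 1)
  have hg : Pth G H y g := by
    refine ⟨fun t ht => ?_, fun t _ => ?_, fun a ha c hc' e => ?_⟩
    · simp only [g]
      by_cases h1 : t + 1 ≤ i
      · rw [if_pos (by omega), if_pos h1]
        have := (hc.1 (p + i - (t + 1 : ℕ))).symm
        convert this using 2
        push_cast; ring
      · by_cases h2 : t ≤ i
        · rw [if_pos h2, if_neg h1]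
          have : t = i := by omega
          subst this
          convert hpq using 2
          · ring
          · push_cast; ring
        · rw [if_neg h2, if_neg h1]
          have := hc.1 (p + d + t - i - 1)
          convert this using 2
          push_cast; ring
    · simp only [g]
      split_ifs <;> exact hH _
    · simp only [g] at e
      split_ifs at e <;> have := cyc_inj hc e (by omega) (by omega) <;> omega
  have := key (b := b) hm hp hg (j := i) (by omega) (by
    intro t ht hti
    simp only [g]
    by_cases h1 : t + 1 ≤ i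
    · rw [if_pos (by omega), if_pos h1]
      have := xor_sym (he (p + i - (t + 1 : ℕ)))
      convert this using 4
      push_cast; ring
    · rw [if_neg (by omega), if_neg h1]
      have := he (p + d + t - i - 1)
      convert this using 4
      push_cast; ring)
  simp only [g] at this
  rw [if_pos le_rfl, if_neg (by omega)] at this
  convert this using 4
  · ring
  · push_cast; ring

/-- vertices with a good tail -/
def Tl (G : SimpleGraph V) (H : Finset V) (f : ℤ → V) (col : V → Bool) (b : Bool) (m : ℕ)
    (v : V) : Prop :=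
  ∃ (h : ℕ → V) (p : ℤ), h 0 = v ∧ Wlk G H f m h p ∧ ∀ t, xor (col (h t)) (col (h (t + 1))) = b

theorem tl0 {b : Bool} (hc : Cyc G n f) (hH : ∀ i, f i ∈ H)
    (he : ∀ i, xor (col (f i)) (col (f (i + 1))) = b) (p : ℤ) : Tl G H f col b 0 (f p) := by
  refine ⟨fun s => f (p + s), p, by simp, wlk0 hc hH p, fun t => ?_⟩
  have := he (p + t)
  simpa [add_assoc] using this

theorem good {b : Bool} (hc : Cyc G n f) (hH : ∀ i, f i ∈ H) (hy1 : 1 ≤ y) (hy : y < n)
    (hm : Mono G H y col) (hp : par b y = false)
    (he : ∀ i, xor (col (f i)) (col (f (i + 1))) = b) (m : ℕ) :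
    ∀ v, Tl G H f col b m v → ∀ u ∈ H, G.Adj u v → xor (col u) (col v) = b := by
  induction m using Nat.strong_induction_on with
  | _ m ih =>
    rintro v ⟨h, p, rfl, w, hg⟩ u hu hadj
    by_cases h1 : ∃ i, u = f i
    · obtain ⟨i, rfl⟩ := h1
      rcases Nat.eq_zero_or_pos m with rfl | hm0
      · have := w.on 0
        rw [this] at hadj ⊢
        exact chord hc hH hy1 hy hm hp he _ _ hadj
      · exact xor_sym (ih 0 hm0 _ (tl0 hc hH he i) _ (w.mem 0) hadj.symm)
    · push Not at h1
      by_cases h2 : ∃ t, t < m ∧ u = h t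
      · obtain ⟨t, ht, rfl⟩ := h2
        have ht0 : t ≠ 0 := by
          rintro rfl
          exact hadj.ne rfl
        exact xor_sym (ih (m - t) (by omega) (h t)
          ⟨fun s => h (t + s), p, rfl, w.suf ht.le, fun s => hg _⟩ _ (w.mem 0) hadj.symm)
      · push Not at h2
        have w' := w.cons hu h1 h2 hadj
        exact key (b := b) hm hp (w'.pth hc hy) (j := 0) (by omega) (by
          intro t _ ht
          cases t with
          | zero => exact absurd rfl ht
          | succ t => exact hg t)

theorem close {b : Bool} (hc : Cyc G n f) (hH : ∀ i, f i ∈ H) (hy1 : 1 ≤ y) (hy : y < n)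
    (hm : Mono G H y col) (hp : par b y = false)
    (he : ∀ i, xor (col (f i)) (col (f (i + 1))) = b) {m : ℕ} {v : V} (hv : Tl G H f col b m v)
    {u : V} (hu : u ∈ H) (hadj : G.Adj u v) : ∃ m', Tl G H f col b m' u := by
  have hgd := good hc hH hy1 hy hm hp he m v hv u hu hadj
  obtain ⟨h, p, rfl, w, hg⟩ := hv
  by_cases h1 : ∃ i, u = f i
  · obtain ⟨i, rfl⟩ := h1
    exact ⟨0, tl0 hc hH he i⟩
  · push Not at h1
    by_cases h2 : ∃ t, t < m ∧ u = h t
    · obtain ⟨t, ht, rfl⟩ := h2
      exact ⟨m - t, fun s => h (t + s), p, rfl, w.suf ht.le, fun s => hg _⟩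
    · push Not at h2
      refine ⟨m + 1, pre u h, p, rfl, w.cons hu h1 h2 hadj, fun t => ?_⟩
      cases t with
      | zero => exact hgd
      | succ t => exact hg t

end ABm

open ABm in
theorem stmtAB : StmtAB := by
  intro V _ G H ρ n y f col hT hρ hn hc hH hy1 hy hm h2
  classical
  set b := xor (col (f 0)) (col (f 1)) with hb
  have he : ∀ i, xor (col (f i)) (col (f (i + 1))) = b := by
    intro i
    induction i using Int.induction_on with
    | zero => simp [hb]
    | succ i ih =>
      rw [← ih, add_assoc (i : ℤ) 1 1, one_add_one_eq_two, h2, Bool.xor_comm]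
    | pred i ih =>
      have e1 := h2 (-(i : ℤ) - 1)
      have e2 : -(i : ℤ) - 1 + 2 = -(i : ℤ) + 1 := by ring
      rw [e2] at e1
      rw [← ih, e1, sub_add_cancel, Bool.xor_comm]
  have hp : par b y = false := by
    have h0 := hm _ ((wlk0 hc hH 0).pth hc hy)
    have h1 := run (col := col) (b := b) (g := fun s : ℕ => f (0 + s)) (a := 0) y (by
      intro t _ _
      have := he (0 + t)
      simpa [add_assoc] using this)
    have p0 : par b 0 = false := by simp [par]
    simp only [zero_add] at h0 h1
    rw [p0, ← h0] at h1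
    revert h1
    cases col (f ((0 : ℕ) : ℤ)) <;> cases par b y <;> simp
  have hall : ∀ v ∈ H, ∃ m, Tl G H f col b m v := by
    have := hT.conn (H.filter fun v => ∃ m, Tl G H f col b m v) (Finset.filter_subset _ _)
      ⟨f 0, Finset.mem_filter.2 ⟨hH 0, 0, tl0 hc hH he 0⟩⟩ (by
        intro a ha u hu hadj
        obtain ⟨-, m, hm'⟩ := Finset.mem_filter.1 ha
        exact Finset.mem_filter.2 ⟨hu, close hc hH hy1 hy hm hp he hm' hu hadj.symm⟩)
    intro v hv
    exact (Finset.mem_filter.1 (this hv)).2
  have hgood : ∀ u ∈ H, ∀ v ∈ H, G.Adj u v → xor (col u) (col v) = b := by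
    intro u hu v hv hadj
    obtain ⟨m, hm'⟩ := hall v hv
    exact good hc hH hy1 hy hm hp he m v hm' u hu hadj
  cases hbb : b with
  | false =>
    have := hT.conn (H.filter fun v => col v = col (f 0)) (Finset.filter_subset _ _)
      ⟨f 0, Finset.mem_filter.2 ⟨hH 0, rfl⟩⟩ (by
        intro a ha u hu hadj
        obtain ⟨ha1, ha2⟩ := Finset.mem_filter.1 ha
        refine Finset.mem_filter.2 ⟨hu, ?_⟩
        have := hgood a ha1 u hu hadj
        rw [hbb] at this
        rw [← ha2]
        revert this
        cases col a <;> cases col u <;> simp)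
    intro u hu v hv
    rw [(Finset.mem_filter.1 (this hu)).2, (Finset.mem_filter.1 (this hv)).2]
  | true =>
    exfalso
    have r1 := hT.rat (H.filter fun v => col v = true) (Finset.filter_subset _ _) (by
      intro u hu v hv hadj
      obtain ⟨a1, a2⟩ := Finset.mem_filter.1 hu
      obtain ⟨b1, b2⟩ := Finset.mem_filter.1 hv
      have := hgood u a1 v b1 hadj
      rw [hbb, a2, b2] at this
      simp at this)
    have r2 := hT.rat (H.filter fun v => ¬ col v = true) (Finset.filter_subset _ _) (by
      intro u hu v hv hadj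
      obtain ⟨a1, a2⟩ := Finset.mem_filter.1 hu
      obtain ⟨b1, b2⟩ := Finset.mem_filter.1 hv
      have := hgood u a1 v b1 hadj
      rw [Bool.not_eq_true] at a2 b2
      rw [hbb, a2, b2] at this
      simp at this)
    have r3 := Finset.card_filter_add_card_filter_not (s := H) (fun v => col v = true)
    have r4 := Nat.mul_le_mul_right (H.filter fun v => col v = true).card hρ
    have r5 := Nat.mul_le_mul_right (H.filter fun v => ¬ col v = true).card hρ
    omega

end Vale.Agent.P048
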