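import Vale.Agent.P048.Spec

namespace Vale.Agent.P048

namespace BFSm
variable {V : Type} [DecidableEq V]

/-- union of the chosen sets with index at most `i` and the parity of `i` -/
def J (I : ℕ → Finset V) : ℕ → Finset V
  | 0 => I 0
  | 1 => I 1
  | (i + 2) => J I i ∪ I (i + 2)

theorem memJ (I : ℕ → Finset V) : ∀ i, ∀ u ∈ J I i, ∃ t, t ≤ i ∧ t % 2 = i % 2 ∧ u ∈ I t
  | 0 => fun u hu => ⟨0, le_rfl, rfl, hu⟩
  | 1 => fun u hu => ⟨1, le_rfl, rfl, hu⟩
  | (i + 2) => fun u hu => by
    rcases Finset.mem_union.1 hu with h | h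
    · obtain ⟨t, h1, h2, h3⟩ := memJ I i u h
      exact ⟨t, by omega, by omega, h3⟩
    · exact ⟨i + 2, le_rfl, rfl, h⟩

/-- the vertex and the layers `1..n` -/
noncomputable def U [Fintype V] (G : SimpleGraph V) (v : V) : ℕ → Finset V
  | 0 => {v}
  | (n + 1) => U G v n ∪ layer G v (n + 1)

theorem memU [Fintype V] (G : SimpleGraph V) (v : V) :
    ∀ n u, G.Reachable v u → G.dist v u ≤ n → u ∈ U G v n
  | 0 => fun u h1 h2 => by
    have : v = u := h1.dist_eq_zero_iff.1 (by omega)
    simp [U, this]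
  | (n + 1) => fun u h1 h2 => by
    rcases Nat.lt_or_ge (G.dist v u) (n + 1) with h | h
    · exact Finset.mem_union_left _ (memU G v n u h1 (by omega))
    · exact Finset.mem_union_right _ (by simp [layer]; omega)

theorem main [Fintype V] (G : SimpleGraph V) (k : ℕ) (v : V) (hk : 4 ≤ k) (hP : P2 G k)
    (I : ℕ → Finset V) (c : ℕ) (hc : k % 2 = 0 → c = 1)
    (h0 : (I 0).card = 1)
    (hd : ∀ t, t ≤ k / 2 → ∀ u ∈ I t, G.Reachable v u ∧ G.dist v u = t)
    (hI : ∀ t, t ≤ k / 2 → Ind G (I t))
    (hL : ∀ t, 1 ≤ t → t ≤ k / 2 → (layer G v t).card ≤ k / 2 * (I t).card)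
    (hL1 : (layer G v 1).card + c ≤ k / 2 * (I 1).card) : Big G k := by
  set ρ := k / 2 with hρ
  have step : ∀ {u w : V}, G.Reachable v u → G.Adj u w → G.dist v w ≤ G.dist v u + 1 := by
    intro u w h1 h2
    have := h1.dist_triangle_left w
    rwa [SimpleGraph.dist_eq_one_iff_adj.2 h2] at this
  have hJ : ∀ i, i ≤ ρ → Ind G (J I i) := by
    intro i hi u hu w hw huw
    obtain ⟨t, t1, t2, t3⟩ := memJ I i u hu
    obtain ⟨s, s1, s2, s3⟩ := memJ I i w hw
    obtain ⟨r1, d1⟩ := hd t (by omega) u t3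
    obtain ⟨r2, d2⟩ := hd s (by omega) w s3
    have a1 := step r1 huw
    have a2 := step r2 huw.symm
    have : t = s := by omega
    subst this
    exact hI t (by omega) u t3 w s3 huw
  have hcard : ∀ i, i + 2 ≤ ρ → (J I (i + 2)).card = (J I i).card + (I (i + 2)).card := by
    intro i hi
    apply Finset.card_union_of_disjoint
    rw [Finset.disjoint_left]
    intro u hu hu'
    obtain ⟨t, t1, -, t3⟩ := memJ I i u hu
    have d1 := (hd t (by omega) u t3).2
    have d2 := (hd (i + 2) hi u hu').2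
    omega
  have hU : ∀ i, i + 1 ≤ ρ →
      (U G v (i + 1)).card + c + ρ ≤ 1 + ρ * ((J I i).card + (J I (i + 1)).card) := by
    intro i
    induction i with
    | zero =>
      intro _
      have : (U G v 1).card ≤ (U G v 0).card + (layer G v 1).card := Finset.card_union_le _ _
      have e0 : (U G v 0).card = 1 := by simp [U]
      have e1 : (J I 0).card = 1 := h0
      have e2 : J I (0 + 1) = I 1 := rfl
      rw [e1, e2, Nat.mul_add]
      simp only [zero_add] at *
      omega
    | succ i ih =>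
      intro hi
      have h1 := ih (by omega)
      have h2 : (U G v (i + 2)).card ≤ (U G v (i + 1)).card + (layer G v (i + 2)).card :=
        Finset.card_union_le _ _
      have h3 := hL (i + 2) (by omega) hi
      have h4 := hcard i hi
      have e : i + 1 + 1 = i + 2 := rfl
      rw [e, h4]
      simp only [Nat.mul_add] at h1 ⊢
      omega
  have hexp : ∀ i, i + 1 ≤ ρ → 1 ≤ (J I i).card →
      k * (J I i).card + c + ρ ≤ ρ * (J I i).card + ρ * (J I (i + 1)).card := by
    intro i hi hne
    have h1 := hP (J I i) (U G v (i + 1)) (Finset.card_pos.1 hne) (hJ i (by omega))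
      (fun u hu => by
        obtain ⟨t, t1, -, t3⟩ := memJ I i u hu
        obtain ⟨r1, d1⟩ := hd t (by omega) u t3
        exact memU G v _ u r1 (by omega))
      (fun u hu w hw => by
        obtain ⟨t, t1, -, t3⟩ := memJ I i u hu
        obtain ⟨r1, d1⟩ := hd t (by omega) u t3
        have := step r1 hw
        exact memU G v _ w (r1.trans hw.reachable) (by omega))
    have h2 := hU i hi
    rw [Nat.mul_add] at h2
    omega
  have hρ2 : 2 ≤ ρ := by omega
  have hgrow : ∀ i, i + 1 ≤ ρ → 1 ≤ (J I i).card → (J I i).card + 2 ≤ (J I (i + 1)).card := by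
    intro i hi hne
    have h1 := hexp i hi hne
    by_contra hlt
    have h2 : (J I (i + 1)).card ≤ (J I i).card + 1 := by omega
    have h3 := Nat.mul_le_mul_left ρ h2
    rcases Nat.mod_two_eq_zero_or_one k with e | e
    · have hk2 : k = 2 * ρ := by omega
      have hc1 := hc e
      rw [hk2] at h1
      nlinarith
    · have hk2 : k = 2 * ρ + 1 := by omega
      rw [hk2] at h1
      nlinarith
  have hlow : ∀ i, i ≤ ρ → 2 * i + 1 ≤ (J I i).card := by
    intro i
    induction i with
    | zero => intro _; exact le_of_eq h0.symm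
    | succ i ih =>
      intro hi
      have h1 := ih (by omega)
      have h2 := hgrow i hi (by omega)
      omega
  refine ⟨J I ρ, hJ ρ le_rfl, ?_⟩
  rcases Nat.mod_two_eq_zero_or_one k with e | e
  · have := hlow ρ le_rfl
    omega
  · obtain ⟨i, hi⟩ : ∃ i, ρ = i + 1 := ⟨ρ - 1, by omega⟩
    have h1 := hlow i (by omega)
    have h2 := hexp i (by omega) (by omega)
    have hk2 : k = 2 * ρ + 1 := by omega
    rw [← hi] at h2
    by_contra hlt
    have h3 : (J I ρ).card ≤ (J I i).card + 2 := by omega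
    have h4 := Nat.mul_le_mul_left ρ h3
    have h5 : ρ + 1 ≤ (J I i).card := by omega
    rw [hk2] at h2
    nlinarith

end BFSm

theorem stmtBFS : StmtBFS := by
  intro V _ _ G k v hk hP h
  have h' : ∀ t, ∃ I : Finset V, (t = 0 → I = {v}) ∧ (1 ≤ t → t ≤ k / 2 → I ⊆ layer G v t ∧
      Ind G I ∧ (layer G v t).card ≤ k / 2 * I.card ∧
      (t = 1 → k % 2 = 0 → (layer G v t).card + 1 ≤ k / 2 * I.card)) := by
    intro t
    by_cases ht : 1 ≤ t ∧ t ≤ k / 2
    · obtain ⟨I, hI⟩ := h t ht.1 ht.2
      exact ⟨I, fun e => by omega, fun _ _ => hI⟩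
    · exact ⟨{v}, fun _ => rfl, fun a b => absurd ⟨a, b⟩ ht⟩
  choose I hI0 hI using h'
  refine BFSm.main G k v hk hP I (if k % 2 = 0 then 1 else 0) (fun e => by simp [e])
    (by simp [hI0 0 rfl]) ?_ ?_ (fun t h1 h2 => (hI t h1 h2).2.2.1) ?_
  · intro t ht u hu
    rcases Nat.eq_zero_or_pos t with rfl | hpos
    · rw [hI0 0 rfl, Finset.mem_singleton] at hu
      subst hu
      exact ⟨SimpleGraph.Reachable.refl _, SimpleGraph.dist_self⟩
    · have := (hI t hpos ht).1 hu
      simp only [layer, Finset.mem_filter, Finset.mem_univ, true_and] at this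
      exact ⟨SimpleGraph.Reachable.of_dist_ne_zero (by omega), this⟩
  · intro t ht
    rcases Nat.eq_zero_or_pos t with rfl | hpos
    · rw [hI0 0 rfl]
      intro a ha b hb
      rw [Finset.mem_singleton] at ha hb
      subst ha hb
      exact G.irrefl
    · exact (hI t hpos ht).2.1
  · have h1 := hI 1 le_rfl (by omega)
    split_ifs with e
    · exact h1.2.2.2 rfl e
    · exact h1.2.2.1

end Vale.Agent.P048
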