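import Vale.Agent.P048.Spec

namespace Vale.Agent.P048

namespace C34m

theorem last_split {α : Type} (P : α → Prop) : ∀ (E : List α), (∃ a ∈ E, P a) →
    ∃ pre e T, E = pre ++ e :: T ∧ P e ∧ ∀ x ∈ T, ¬ P x
  | [], h => by simp at h
  | a :: l, h => by
    by_cases hl : ∃ b ∈ l, P b
    · obtain ⟨pre, e, T, rfl, h1, h2⟩ := last_split P l hl
      exact ⟨a :: pre, e, T, rfl, h1, h2⟩
    · push Not at hl
      obtain ⟨b, hb, hP⟩ := h
      rcases List.mem_cons.1 hb with rfl | hb
      · exact ⟨[], b, l, rfl, hP, hl⟩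
      · exact absurd hP (hl b hb)

variable {V : Type} [DecidableEq V] {G : SimpleGraph V}

theorem ear_cons {W : List V} {r r' b e : V} {T : List V} (h : Ear G W r r' (e :: T))
    (hb : M1 G W r b) (hbe : G.Adj b e) (hbT : b ∉ T) : Ear G W r r' (b :: e :: T) := by
  obtain ⟨h1, h2, h3, -, c, hc, hc'⟩ := h
  refine ⟨List.nodup_cons.2 ⟨?_, h1⟩, List.isChain_cons_cons.2 ⟨hbe, h2⟩, ?_,
    ⟨b, by simp, hb.2⟩, c, by simpa using hc, hc'⟩
  · simp only [List.mem_cons, not_or]
    exact ⟨hbe.ne, hbT⟩
  · intro x hx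
    rcases List.mem_cons.1 hx with rfl | hx
    · exact hb.1
    · exact h3 x hx

theorem ear_false (hEar : StmtEar) {k : ℕ} {Q : Finset V} {W : List V} {R : List ℕ}
    (h : Ctx G k Q W R) {r r' : V} (hr : r ∈ Q) (hr' : r' ∈ Q) (hne : r ≠ r') {E : List V}
    (hE : Ear G W r r' E) (hl : E.length + Q.card = k + 1) : False := by
  obtain ⟨h1, h2, h3, ⟨a, ha, hra⟩, c, hc, hc'⟩ := hE
  have hQ : ∀ x ∈ E, x ∉ Q := fun x hx hq => h3 x hx (h.sub x hq)
  have h4 := h.base.four
  have hlt := h.base.lt
  refine hEar V G k Q (r :: (E ++ [r'])) (by omega) h.base.nocyc h.base.clq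
    ⟨?_, ?_, ⟨r, by simp, hr⟩, r', by simp [List.getLast?_cons], hr'⟩ (by simp; omega) ?_
  · rw [List.nodup_cons, List.nodup_append]
    refine ⟨?_, h1, by simp, ?_⟩
    · simp only [List.mem_append, List.mem_singleton, not_or]
      exact ⟨fun x => hQ r x hr, hne⟩
    · intro x hx y hy e
      simp only [List.mem_singleton] at hy
      subst hy e
      exact hQ x hx hr'
  · rw [List.isChain_cons]
    refine ⟨?_, List.IsChain.append h2 (by simp) ?_⟩
    · intro y hy
      cases E with
      | nil => simp at ha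
      | cons x xs =>
        simp at ha hy
        subst ha hy
        exact hra
    · intro x hx y hy
      simp at hy
      subst hy
      rw [Option.mem_def, hc] at hx
      cases hx
      exact hc'
  · have : E.countP (fun v => decide (v ∉ Q)) = E.length := by
      rw [List.countP_eq_length]
      intro x hx
      simpa using hQ x hx
    unfold outer
    rw [List.countP_cons, List.countP_append, this]
    omega

end C34m

open C34m in
theorem stmtC34 (hEar : StmtEar) (hM1 : StmtMiss1) (hM2 : StmtMiss2) : StmtC34 := by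
  classical
  intro V _ _ G k Q W R r r' E0 h hno hr hr' hne hE0 hl0 he0
  by_contra hnc
  have hcl : ∀ u u', M1 G W r u → M1 G W r u' → u ≠ u' → G.Adj u u' := by
    intro u u' a b c
    by_contra d
    exact hnc ⟨u, u', a, b, c, d⟩
  obtain ⟨n1, n2, n3, ⟨a, ha, hra⟩, c, hc, hc'⟩ := hE0
  obtain ⟨pre, e, T, rfl, hre, hT⟩ := last_split (fun x => G.Adj r x) E0
    ⟨a, List.mem_of_mem_head? ha, hra⟩
  have hE : Ear G W r r' (e :: T) :=
    ⟨(List.nodup_append.1 n1).2.1, (List.isChain_append.1 n2).2.1,
      fun x hx => n3 x (List.mem_append_right _ hx), ⟨e, by simp, hre⟩, c,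
      by simpa [List.getLast?_append] using hc, hc'⟩
  have hlen : (e :: T).length ≤ (pre ++ e :: T).length := by simp
  have h3 : 3 ≤ (e :: T).length := by
    by_contra hh
    exact hno r r' hr hr' hne ⟨_, hE.2, by omega⟩
  have he : Exc k Q W R r r' (e :: T).length := by
    by_cases hq : (e :: T).length = (pre ++ e :: T).length
    · rw [hq]; exact he0
    · rcases h.main r r' _ hr hr' hne hE (by omega) with x | x
      · exact x
      · have := x.2.1
        omega
  have hb := h.base.big
  have he' := he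
  obtain ⟨hrQ, hr'Q, hWk, -, -, ht1, ht2, ht3⟩ := he'
  set F : Finset V := Finset.univ.filter (M1 G W r) with hF
  have memF : ∀ u, u ∈ F ↔ M1 G W r u := by simp [hF]
  have heF : e ∈ F := (memF e).2 ⟨hE.2.2.1 e (by simp), hre⟩
  have hWc : W.toFinset.card = k := by rw [List.toFinset_card_of_nodup h.qp.1, hWk]
  have big : ∀ X : Finset V, X ⊆ W.toFinset → r ∉ X → (∀ x ∈ X, ¬ G.Adj r x) →
      X.card + 1 ≤ F.card := by
    intro X hX hrX hadj
    have h1 := h.base.p2.deg r (F ∪ (W.toFinset \ X)) (by simp [hr.mem, hrX]) (by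
      intro w hw
      by_cases hwW : w ∈ W
      · simp only [Finset.mem_union, Finset.mem_sdiff, List.mem_toFinset]
        exact Or.inr ⟨hwW, fun hx => hadj w hx hw⟩
      · exact Finset.mem_union_left _ ((memF w).2 ⟨hwW, hw⟩))
    have h2 := Finset.card_union_le F (W.toFinset \ X)
    have h3 := Finset.card_sdiff_add_card_eq_card hX
    omega
  have notT : ∀ b, M1 G W r b → b ∉ T := fun b hb hbT => hT b hbT hb.2
  by_cases t1 : tc R = 1
  · obtain ⟨a, haW, a', ha'W, haQ, ha'Q, haa, h1, h2⟩ :=
      hM1 V G k Q W R r r' _ h hr hr' hne hE h3 he t1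
    have hc3 : 3 ≤ F.card := by
      have := big {a, a'} (by
        intro x hx
        simp only [Finset.mem_insert, Finset.mem_singleton] at hx
        rcases hx with rfl | rfl <;> simpa) (by
        simp only [Finset.mem_insert, Finset.mem_singleton, not_or]
        exact ⟨fun e => haQ (e ▸ hrQ), fun e => ha'Q (e ▸ hrQ)⟩) (by
        intro x hx
        simp only [Finset.mem_insert, Finset.mem_singleton] at hx
        rcases hx with rfl | rfl <;> assumption)
      rw [Finset.card_pair haa] at this
      omega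
    have hc2 : 1 < (F.erase e).card := by
      rw [Finset.card_erase_of_mem heF]
      omega
    obtain ⟨b, hb1, b', hb2, hbb⟩ := Finset.one_lt_card.1 hc2
    have m1 := (memF b).1 (Finset.mem_of_mem_erase hb1)
    have m2 := (memF b').1 (Finset.mem_of_mem_erase hb2)
    have me := (memF e).1 heF
    have E1 := ear_cons hE m1 (hcl b e m1 me (Finset.ne_of_mem_erase hb1)) (notT b m1)
    have E2 := ear_cons E1 m2 (hcl b' b m2 m1 hbb.symm) (by
      simp only [List.mem_cons, not_or]
      exact ⟨Finset.ne_of_mem_erase hb2, notT b' m2⟩)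
    rw [t1] at ht2 ht3
    by_cases hj : (e :: T).length + Q.card = k
    · exact ear_false hEar h hrQ hr'Q hne E1 (by simp at hj ⊢; omega)
    · exact ear_false hEar h hrQ hr'Q hne E2 (by simp at hj ht2 ht3 ⊢; omega)
  · have hx : (e :: T).length = 3 ∨ (e :: T).length = 4 := by omega
    have hall : (e :: T).length = 3 ∧ tc R = 2 ∧ Q.card = 7 ∧ k = 13 := by
      rcases hx with hx | hx <;> rw [hx] at ht2 ht3 <;> omega
    obtain ⟨x3, t2, s7, rfl⟩ := hall
    obtain ⟨a, haW, haQ, h1⟩ := hM2 V G Q W R r r' _ h hr hr' hne hE x3 (x3 ▸ he) t2 s7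
    have hc2 : 2 ≤ F.card := by
      have := big {a} (by simpa) (by
        simp only [Finset.mem_singleton]
        exact fun e => haQ (e ▸ hrQ)) (by simpa)
      simpa using this
    have hc1 : 0 < (F.erase e).card := by
      rw [Finset.card_erase_of_mem heF]
      omega
    obtain ⟨b, hb1⟩ := Finset.card_pos.1 hc1
    have m1 := (memF b).1 (Finset.mem_of_mem_erase hb1)
    have me := (memF e).1 heF
    have E1 := ear_cons hE m1 (hcl b e m1 me (Finset.ne_of_mem_erase hb1)) (notT b m1)
    have l4 : (b :: e :: T).length = 4 := by simp at x3 ⊢; omega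
    rcases h.main r r' _ hr hr' hne E1 (by omega) with x | x
    · have := x.2.2.2.2.2.2.2
      rw [l4, t2, s7] at this
      omega
    · have := x.1
      omega

end Vale.Agent.P048
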