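import Vale.Agent.P048.Spec

namespace Vale.Agent.P048

namespace C7m

theorem first {V : Type} (f : V → Prop) : ∀ (W : List V), (∃ p ∈ W, f p) →
    ∃ A p C, W = A ++ p :: C ∧ f p ∧ ∀ q ∈ A, ¬ f q
  | [], h => by simp at h
  | v :: l, h => by
    by_cases c : f v
    · exact ⟨[], v, l, rfl, c, by simp⟩
    · obtain ⟨A, p, C, rfl, h1, h2⟩ := first f l (by simpa [c] using h)
      exact ⟨v :: A, p, C, rfl, h1, by simpa [c] using h2⟩

theorem allQ {V : Type} {Q : Finset V} {W X Y Z : List V} {p : V}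
    (h : ∀ p', Root Q W p' → p' ∉ Q → p' = p) (e : W = X ++ (Y ++ Z))
    (hX : ∀ q ∈ X.getLast?, q ∈ Q) (hp : p ∉ Y) : ∀ y ∈ Y, y ∈ Q := fun y hy => by
  by_contra c
  obtain ⟨A, p', C, rfl, h1, h2⟩ := first (· ∉ Q) Y ⟨y, hy, c⟩
  refine hp (h p' ⟨X ++ A, C ++ Z, by simp [e], fun q hq => ?_⟩ h1 ▸ by simp)
  cases A with
  | nil => exact hX q (by simpa using hq)
  | cons a A =>
    rw [List.getLast?_append_of_ne_nil _ (by simp)] at hq
    exact not_not.1 (h2 q (List.mem_of_getLast? hq))

theorem uniq {V : Type} {A C A' C' : List V} {z : V} (hn : (A ++ z :: C).Nodup)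
    (e : A ++ z :: C = A' ++ z :: C') : C = C' := by
  have h2 := (List.nodup_cons.1 (List.nodup_middle.1 hn)).1
  exact ((List.append_cons_inj_of_notMem (fun c => h2 (by simp [c]))
    (fun c => h2 (by simp [c]))).1 e).2.2

end C7m

open C7m in
theorem stmtC7 (hEar : StmtEar) (_hS : StmtStr) (hRoot : StmtRoot) : StmtC7 := by
  classical
  intro V _ _ G Q W R p r E C hp hpQ hr hpr ⟨hE, cE, oE, ⟨e1', he1, a1⟩, e4', he4, a4⟩ hl
    ⟨hQ, _, hW, hx⟩
  have A := hRoot V G Q W C.qp C.sub
  obtain ⟨e1, e2, e3, e4, rfl⟩ := List.length_eq_four.1 hl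
  obtain rfl : e1 = e1' := by simpa using he1
  obtain rfl : e4 = e4' := by simpa using he4
  have oQ : ∀ e ∈ [e1, e2, e3, e4], e ∉ Q := fun e he c => oE e he (C.sub e c)
  have oW : ∀ v ∈ W, v ∉ [e1, e2, e3, e4] := fun v hv c => oE v c hv
  have ear : ∀ W' : List V, QP G Q W' → W'.length ≤ 8 → 4 ≤ outer Q W' → False :=
    fun W' h1 h2 h3 => hEar V G 7 Q W' (by norm_num) C.base.nocyc C.base.clq h1 h2 (by omega)
  obtain ⟨B, q, D, e, hq⟩ := A.pred p hp hpQ
  have aq : G.Adj q p := (List.isChain_append_cons_cons.1 (e ▸ C.qp.2.1)).2.1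
  have o4 : ∀ X Y : List V, 4 ≤ outer Q (X ++ ([e1, e2, e3, e4] ++ Y)) := fun X Y => by
    have : List.countP (fun v => decide (v ∉ Q)) [e1, e2, e3, e4] = 4 :=
      List.countP_eq_length.2 (by simpa using oQ)
    simp only [outer, List.countP_append, this]
    omega
  have path : ∀ X Y : List V, (X ++ Y).Nodup → (∀ v ∈ X ++ Y, v ∈ W) → (X ++ [p]).IsChain G.Adj →
      (r :: Y).IsChain G.Adj → p ∉ X ++ r :: Y → r ∉ X ++ Y → (∃ a ∈ X.head?, a ∈ Q) →
      (∃ b ∈ (r :: Y).getLast?, b ∈ Q) → (X ++ Y).length ≤ 2 → False := by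
    intro X Y n1 m1 c1 c2 n2 n3 ⟨a, ha, haQ⟩ ⟨b, hb, hbQ⟩ hlen
    refine ear ((X ++ [p]) ++ ([e1, e2, e3, e4] ++ r :: Y)) ⟨?_, ?_, ⟨a, ?_, haQ⟩, b, ?_, hbQ⟩
      (by simp at hlen ⊢; omega) (o4 _ _)
    · have pm : ((X ++ [p]) ++ ([e1, e2, e3, e4] ++ r :: Y)).Perm
          ([e1, e2, e3, e4] ++ p :: r :: (X ++ Y)) := by
        rw [List.perm_iff_count]
        intro v
        simp only [List.count_append, List.count_cons, List.count_nil]
        omega
      rw [pm.nodup_iff, List.nodup_append]
      refine ⟨hE, List.nodup_cons.2 ⟨by simpa [or_left_comm] using n2,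
        List.nodup_cons.2 ⟨n3, n1⟩⟩, fun x hx y hy c => oW y ?_ (c ▸ hx)⟩
      rcases List.mem_cons.1 hy with rfl | hy
      · exact hp.mem
      rcases List.mem_cons.1 hy with rfl | hy
      · exact hr.mem
      · exact m1 y hy
    · have : (X ++ [p]) ++ ([e1, e2, e3, e4] ++ r :: Y) = X ++ p :: e1 :: ([e2, e3] ++ e4 :: r :: Y) := by
        simp
      rw [this, List.isChain_append_cons_cons]
      refine ⟨c1, a1, ?_⟩
      rw [← List.cons_append, List.isChain_append_cons_cons]
      exact ⟨cE, a4, c2⟩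
    · cases X with
      | nil => simp at ha
      | cons x X => simpa using ha
    · simpa [List.getLast?_append] using hb
  have ne : ∀ {a b : V}, a ∈ Q → b ∉ Q → b ≠ a := fun ha hb c => hb (c ▸ ha)
  by_cases hrQ : r ∈ Q
  swap
  · obtain ⟨B', q', D', e', hq'⟩ := A.pred r hr hrQ
    have aq' : G.Adj q' r := (List.isChain_append_cons_cons.1 (e' ▸ C.qp.2.1)).2.1
    have : q ≠ q' := by
      rintro rfl
      have := uniq (e ▸ C.qp.1) (e.symm.trans e')
      exact hpr (List.cons.inj this).1
    exact (path [q] [q'] (by simpa) (by simp [C.sub, hq, hq']) (by simpa) (by simpa using aq'.symm)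
      (by simp [hpr, ne hq hpQ, ne hq' hpQ]) (by simp [ne hq hrQ, ne hq' hrQ]) (by simpa)
      (by simpa) (by simp)).elim
  have one : ∀ v ∈ Q, G.Adj v p → v = r := fun v hv av => by
    by_contra c
    exact path [v] [] (by simp) (by simp [C.sub, hv]) (by simpa) (by simp)
      (by simp [hpr, ne hv hpQ]) (by simpa using fun c' => c c'.symm) (by simpa)
      (by simpa) (by simp)
  obtain rfl := one q hq aq
  have hx' : ∀ p', Root Q W p' → p' ∉ Q → p' = p := fun p' h1 h2 =>
    (hx p' h1 h2).resolve_right (ne hq h2)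
  have nd := C.qp.1
  obtain ⟨P, q', D', rfl, hq', hP⟩ := first (· ∈ Q) D (by
    obtain ⟨b, hb, hbQ⟩ := C.qp.2.2.2
    refine ⟨b, ?_, hbQ⟩
    cases D with
    | nil => exact absurd hbQ (by obtain rfl : p = b := by simpa [e] using hb
                                  exact hpQ)
    | cons d D => exact List.mem_of_getLast? (l := d :: D) (by simpa [e, List.getLast?_append] using hb))
  have pB : p ∉ B ∧ p ∉ D' := by
    have : W = (B ++ [q]) ++ p :: (P ++ q' :: D') := by simp [e]
    have h2 := (List.nodup_cons.1 (List.nodup_middle.1 (this ▸ nd))).1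
    exact ⟨fun c => h2 (by simp [c]), fun c => h2 (by simp [c])⟩
  have qB := allQ (X := []) (Y := B) hx' e (by simp) pB.1
  have qD := allQ (X := (B ++ q :: p :: P) ++ [q']) (Y := D') (Z := []) hx' (by simp [e])
    (by rw [List.getLast?_concat]; simpa using hq') pB.2
  have lP : P.length = 2 := by
    have h1 := A.len
    have z1 : List.countP (fun v => decide (v ∉ Q)) B = 0 := List.countP_eq_zero.2 (by simpa using qB)
    have z2 : List.countP (fun v => decide (v ∉ Q)) D' = 0 :=
      List.countP_eq_zero.2 (by simpa using qD)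
    have z3 : List.countP (fun v => decide (v ∉ Q)) P = P.length :=
      List.countP_eq_length.2 (by simpa using hP)
    rw [hW, hQ, e, outer] at h1
    simp only [List.countP_append, List.countP_cons, z1, z2, z3, hq, hq', hpQ] at h1
    simp at h1
    omega
  obtain ⟨a2, a3, rfl⟩ := List.length_eq_two.1 lP
  have e3' : W = (B ++ [q, p, a2]) ++ a3 :: q' :: D' := by simp [e]
  have na : ¬ G.Adj p a3 := fun c => by
    have aa : G.Adj a3 q' := (List.isChain_append_cons_cons.1 (e3' ▸ C.qp.2.1)).2.1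
    have n5 : [q, p, a2, a3, q'].Nodup := nd.sublist (by
      rw [show W = B ++ ([q, p, a2, a3, q'] ++ D') by simp [e]]
      exact (List.sublist_append_left _ _).trans (List.sublist_append_right _ _))
    simp only [List.nodup_cons, List.mem_cons, not_or] at n5
    exact path [q', a3] [] (by simpa using aa.ne') (by simp [e]) (by simp [aa.symm, c.symm])
      (by simp) (by simp; tauto) (by simp; tauto) (by simpa) (by simpa) (by simp)
  by_contra hn
  let M := Finset.univ.filter (M1 G W p)
  have mM : ∀ v, v ∈ M ↔ M1 G W p v := fun v => by simp [M]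
  have hpM : p ∉ M := fun c => ((mM p).1 c).1 hp.mem
  have c1 := C.base.om (insert p M) fun a ha b hb hne => by
    rcases Finset.mem_insert.1 ha with ha | ha <;> rcases Finset.mem_insert.1 hb with hb | hb
    · exact absurd (ha.trans hb.symm) hne
    · exact ha ▸ ((mM b).1 hb).2
    · exact hb ▸ ((mM a).1 ha).2.symm
    · by_contra c
      exact hn ⟨a, b, (mM a).1 ha, (mM b).1 hb, hne, c⟩
  have c2 := C.base.p2.deg p (insert q (insert a2 (insert p M))) (by simp) fun v hv => by
    by_cases c : v ∈ W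
    · by_cases c' : v ∈ Q
      · simp [one v c' hv.symm]
      · rw [e] at c
        simp only [List.mem_append, List.mem_cons, List.not_mem_nil, or_false] at c
        rcases c with c | rfl | rfl | (rfl | rfl) | rfl | c
        · exact absurd (qB v c) c'
        · simp
        · simp
        · simp
        · exact absurd hv na
        · exact absurd hq' c'
        · exact absurd (qD v c) c'
    · simp [(mM v).2 ⟨c, hv⟩]
  have := Finset.card_insert_le q (insert a2 (insert p M))
  have := Finset.card_insert_le a2 (insert p M)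
  omega

end Vale.Agent.P048
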