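import Vale.Agent.P048.Spec

namespace Vale.Agent.P048

namespace Cfg6m

variable {V : Type} [DecidableEq V] {G : SimpleGraph V} {Q : Finset V}

structure Cf (G : SimpleGraph V) (Q : Finset V) (e q φ φ' a1 a2 w w' : V) : Prop where
  hQ : ∀ x, x ∈ Q ↔ x = e ∨ x = q ∨ x = φ ∨ x = φ'
  n1 : e ≠ q ∧ e ≠ φ ∧ e ≠ φ' ∧ q ≠ φ ∧ q ≠ φ' ∧ φ ≠ φ'
  n2 : a1 ≠ w ∧ a1 ≠ w' ∧ a2 ≠ w ∧ a2 ≠ w'
  out : a1 ∉ Q ∧ a2 ∉ Q ∧ w ∉ Q ∧ w' ∉ Q
  p1 : G.Adj e a1 ∧ G.Adj a1 a2 ∧ G.Adj a2 q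
  p2 : G.Adj φ w ∧ G.Adj w w' ∧ G.Adj w' φ'

variable {e q φ φ' a1 a2 w w' : V}

omit [DecidableEq V] in
theorem Cf.rev (h : Cf G Q e q φ φ' a1 a2 w w') : Cf G Q q e φ φ' a2 a1 w w' := by
  obtain ⟨h1, h2, h3, h4, h5, h6⟩ := h
  exact ⟨fun x => by rw [h1]; tauto, by tauto, by tauto, by tauto,
    ⟨h5.2.2.symm, h5.2.1.symm, h5.1.symm⟩, h6⟩

omit [DecidableEq V] in
theorem Cf.swap (h : Cf G Q e q φ φ' a1 a2 w w') : Cf G Q φ φ' e q w w' a1 a2 := by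
  obtain ⟨h1, h2, h3, h4, h5, h6⟩ := h
  exact ⟨fun x => by rw [h1]; tauto, by tauto, by tauto, by tauto, h6, h5⟩

theorem no (hEar : StmtEar) (hB : Base G 6 Q) (W : List V) (h : QP G Q W) (hl : W.length ≤ 7)
    (ho : 3 ≤ outer Q W) : False :=
  hEar V G 6 Q W (by norm_num) hB.nocyc hB.clq h hl (by have := hB.four; omega)

theorem pair [Fintype V] (hEar : StmtEar) (hB : Base G 6 Q) (h4 : Q.card = 4)
    (h : Cf G Q e q φ φ' a1 a2 w w') : ∃ z z', (z ∉ Q ∧ z ≠ a2 ∧ z ≠ w ∧ z ≠ w' ∧ G.Adj a1 z) ∧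
      (z' ∉ Q ∧ z' ≠ a2 ∧ z' ≠ w ∧ z' ≠ w' ∧ G.Adj a1 z') ∧ z ≠ z' ∧ ¬ G.Adj z z' := by
  classical
  obtain ⟨hQ, ⟨n1, n2, n3, n4, n5, n6⟩, ⟨m1, m2, m3, m4⟩, ⟨o1, o2, o3, o4⟩, ⟨p1, p2, p3⟩,
    ⟨r1, r2, r3⟩⟩ := h
  have he : e ∈ Q := by simp [hQ]
  have hq : q ∈ Q := by simp [hQ]
  have hf : φ ∈ Q := by simp [hQ]
  have hf' : φ' ∈ Q := by simp [hQ]
  have c1 := hB.clq q hq φ hf n4
  have d1 := p2.ne
  have d2 := r2.ne
  have k1 : ¬ G.Adj a1 q := fun k => no hEar hB [e, a1, q, φ, w, w', φ']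
    ⟨by simp; grind, by simp [*], by simp [he], by simp [hf']⟩ (by simp)
    (by simp [outer, he, hq, hf, hf', o1, o2, o3, o4])
  have k2 : ¬ G.Adj a1 φ := fun k => no hEar hB [q, a2, a1, φ, w, w', φ']
    ⟨by simp; grind, by simp [*, p3.symm, p2.symm], by simp [hq], by simp [hf']⟩ (by simp)
    (by simp [outer, he, hq, hf, hf', o1, o2, o3, o4])
  have k3 : ¬ G.Adj a1 φ' := fun k => no hEar hB [q, a2, a1, φ', w', w, φ]
    ⟨by simp; grind, by simp [*, p3.symm, p2.symm, r1.symm, r2.symm, r3.symm], by simp [hq],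
      by simp [hf]⟩ (by simp) (by simp [outer, he, hq, hf, hf', o1, o2, o3, o4])
  have k4 : ¬ G.Adj a1 w := fun k => no hEar hB [q, a2, a1, w, φ]
    ⟨by simp; grind, by simp [*, p3.symm, p2.symm, r1.symm], by simp [hq], by simp [hf]⟩ (by simp)
    (by simp [outer, he, hq, hf, hf', o1, o2, o3, o4])
  have k5 : ¬ G.Adj a1 w' := fun k => no hEar hB [q, a2, a1, w', φ']
    ⟨by simp; grind, by simp [*, p3.symm, p2.symm], by simp [hq], by simp [hf']⟩ (by simp)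
    (by simp [outer, he, hq, hf, hf', o1, o2, o3, o4])
  let O : Finset V := Finset.univ.filter fun z => z ∉ Q ∧ z ≠ a2 ∧ z ≠ w ∧ z ≠ w' ∧ G.Adj a1 z
  have hO : ∀ z, z ∈ O ↔ z ∉ Q ∧ z ≠ a2 ∧ z ≠ w ∧ z ≠ w' ∧ G.Adj a1 z := fun z => by simp [O]
  have hd := hB.p2.deg a1 (insert e (insert a2 (insert a1 O))) (by simp) fun z hz => by
    simp only [Finset.mem_insert, hO, hQ]
    grind
  have t1 := Finset.card_insert_le e (insert a2 (insert a1 O))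
  have t2 := Finset.card_insert_le a2 (insert a1 O)
  by_contra hc
  have := hB.om (insert a1 O) fun u hu v hv huv => by
    rw [Finset.mem_insert, hO] at hu hv
    rcases hu with rfl | hu <;> rcases hv with rfl | hv
    · exact absurd rfl huv
    · exact hv.2.2.2.2
    · exact hu.2.2.2.2.symm
    · by_contra hn
      exact hc ⟨u, v, hu, hv, huv, hn⟩
  omega

theorem sep (hEar : StmtEar) (hB : Base G 6 Q) {c c' u u' x y : V} (hc : c ∈ Q) (hc' : c' ∈ Q)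
    (hcc : c ≠ c') (hu : u ∉ Q) (hu' : u' ∉ Q) (huu : u ≠ u') (h1 : G.Adj c u) (h2 : G.Adj u' c')
    (hx : x ∉ Q) (hy : y ∉ Q) (h3 : G.Adj u x) (h4 : G.Adj u' y) (h5 : x ≠ u') (h6 : y ≠ u) :
    x ≠ y ∧ ¬ G.Adj x y := by
  have d1 := h3.ne
  have d2 := h4.ne
  have k : x ≠ y := fun k => by
    subst k
    exact no hEar hB [c, u, x, u', c'] ⟨by simp; grind, by simp [*, h4.symm], by simp [hc],
      by simp [hc']⟩ (by simp) (by simp [outer, *])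
  exact ⟨k, fun k' => no hEar hB [c, u, x, y, u', c'] ⟨by simp; grind, by simp [*, h4.symm],
    by simp [hc], by simp [hc']⟩ (by simp) (by simp [outer, *])⟩

omit [DecidableEq V] in
theorem four {a1 a2 w w' z1 z2 z3 z4 : V}
    (X1 : z1 ∉ Q ∧ z1 ≠ a2 ∧ z1 ≠ w ∧ z1 ≠ w' ∧ G.Adj a1 z1)
    (X2 : z2 ∉ Q ∧ z2 ≠ a1 ∧ z2 ≠ w ∧ z2 ≠ w' ∧ G.Adj a2 z2)
    (X3 : z3 ∉ Q ∧ z3 ≠ w' ∧ z3 ≠ a1 ∧ z3 ≠ a2 ∧ G.Adj w z3)
    (X4 : z4 ∉ Q ∧ z4 ≠ w ∧ z4 ≠ a1 ∧ z4 ≠ a2 ∧ G.Adj w' z4) (i : Fin 4) :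
    ![z1, z2, z3, z4] i ∉ Q ∧ G.Adj (![a1, a2, w, w'] i) (![z1, z2, z3, z4] i) ∧
      ∀ j, j ≠ i → ![z1, z2, z3, z4] i ≠ ![a1, a2, w, w'] j := by
  obtain ⟨_, _, _, _, _⟩ := X1
  obtain ⟨_, _, _, _, _⟩ := X2
  obtain ⟨_, _, _, _, _⟩ := X3
  obtain ⟨_, _, _, _, _⟩ := X4
  refine ⟨by fin_cases i <;> simpa, by fin_cases i <;> simpa, fun j hj => ?_⟩
  fin_cases i <;> fin_cases j <;> first | exact absurd rfl hj | simpa

omit [DecidableEq V] in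
theorem Cf.ends (h : Cf G Q e q φ φ' a1 a2 w w') (i : Fin 4) :
    ![e, q, φ, φ'] i ∈ Q ∧ ![a1, a2, w, w'] i ∉ Q ∧
      G.Adj (![e, q, φ, φ'] i) (![a1, a2, w, w'] i) ∧ ∀ j, i ≠ j →
      ![e, q, φ, φ'] i ≠ ![e, q, φ, φ'] j ∧ ![a1, a2, w, w'] i ≠ ![a1, a2, w, w'] j := by
  obtain ⟨hQ, ⟨n1, n2, n3, n4, n5, n6⟩, ⟨m1, m2, m3, m4⟩, ⟨o1, o2, o3, o4⟩, ⟨p1, p2, p3⟩,
    ⟨r1, r2, r3⟩⟩ := h
  have d1 := p2.ne
  have d2 := r2.ne
  refine ⟨by fin_cases i <;> simp [hQ], by fin_cases i <;> simpa,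
    by fin_cases i <;> simp [p1, r1, p3.symm, r3.symm], fun j hj => ?_⟩
  clear hQ
  fin_cases i <;> fin_cases j <;> first | exact absurd rfl hj | (simp; grind)

theorem big [Fintype V] (hEar : StmtEar) (hB : Base G 6 Q) (h4 : Q.card = 4)
    (h : Cf G Q e q φ φ' a1 a2 w w') : Big G 6 := by
  obtain ⟨x1, y1, X1, Y1, N1, A1⟩ := pair hEar hB h4 h
  obtain ⟨x2, y2, X2, Y2, N2, A2⟩ := pair hEar hB h4 h.rev
  obtain ⟨x3, y3, X3, Y3, N3, A3⟩ := pair hEar hB h4 h.swap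
  obtain ⟨x4, y4, X4, Y4, N4, A4⟩ := pair hEar hB h4 h.swap.rev
  have hz : ∀ i, ∀ z ∈ ({![x1, x2, x3, x4] i, ![y1, y2, y3, y4] i} : Finset V),
      z ∉ Q ∧ G.Adj (![a1, a2, w, w'] i) z ∧ ∀ j, j ≠ i → z ≠ ![a1, a2, w, w'] j :=
    fun i z hz => by
      rcases Finset.mem_insert.1 hz with rfl | hz
      · exact four X1 X2 X3 X4 i
      · rw [Finset.mem_singleton.1 hz]
        exact four Y1 Y2 Y3 Y4 i
  obtain ⟨I, hI, hcard⟩ := asm (G := G) (Finset.univ : Finset (Fin 4))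
    (fun i => {![x1, x2, x3, x4] i, ![y1, y2, y3, y4] i})
    (fun i _ => ind_pair (by fin_cases i <;> simpa))
    fun i _ j _ hij z hz1 z' hz2 => sep hEar hB (h.ends i).1 (h.ends j).1
      ((h.ends i).2.2.2 j hij).1 (h.ends i).2.1 (h.ends j).2.1 ((h.ends i).2.2.2 j hij).2
      (h.ends i).2.2.1 (h.ends j).2.2.1.symm (hz i z hz1).1 (hz j z' hz2).1 (hz i z hz1).2.1
      (hz j z' hz2).2.1 ((hz i z hz1).2.2 j hij.symm) ((hz j z' hz2).2.2 i hij)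
  refine ⟨I, hI, ?_⟩
  rw [hcard, Fin.sum_univ_four]
  simp [Finset.card_pair, N1, N2, N3, N4]

end Cfg6m

open Cfg6m

theorem stmtCfg6 (hEar : StmtEar) : StmtCfg6 := by
  intro V _ _ G e q φ φ' a1 a2 w w' hB nd ch
  simp only [List.nodup_cons, List.mem_cons, List.not_mem_nil, or_false, not_or] at nd
  simp only [List.isChain_cons_cons] at ch
  obtain ⟨c1, c2, c3, -, c4, c5, c6, -⟩ := ch
  refine big hEar hB ?_ (⟨by simp, by grind, by grind, by simp; grind, ⟨c1, c2, c3⟩,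
    ⟨c4, c5, c6⟩⟩ : Cf G {e, q, φ, φ'} e q φ φ' a1 a2 w w')
  rw [Finset.card_insert_of_notMem (by simp; grind), Finset.card_insert_of_notMem (by simp; grind),
    Finset.card_pair (by grind)]

end Vale.Agent.P048
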