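import Vale.Agent.P048.Spec

namespace Vale.Agent.P048

namespace Cfg7m
variable {V : Type} [DecidableEq V] {G : SimpleGraph V} {Q F : Finset V}
  {e a1 a2 a3 q f w v g : V}

structure C7 (G : SimpleGraph V) (Q F : Finset V) (e a1 a2 a3 q f w v g : V) : Prop where
  forb : ∀ W, QP G Q W → W.length ≤ 8 → 4 ≤ outer Q W → False
  deg : ∀ (x : V) (U : Finset V), x ∈ U → (∀ y, G.Adj x y → y ∈ U) → 8 ≤ U.card
  om : Om G 4
  mQ : ∀ x, x ∈ Q ↔ x = e ∨ x = q ∨ x = f ∨ x = g
  mF : ∀ x, x ∈ F ↔ x = e ∨ x = a1 ∨ x = a2 ∨ x = a3 ∨ x = q ∨ x = f ∨ x = w ∨ x = v ∨ x = g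
  nd : [e, a1, a2, a3, q, f, w, v, g].Nodup
  ea : G.Adj e a1
  a12 : G.Adj a1 a2
  a23 : G.Adj a2 a3
  aq : G.Adj a3 q
  fw : G.Adj f w
  wv : G.Adj w v
  vg : G.Adj v g
  eq : G.Adj e q
  ef : G.Adj e f
  eg : G.Adj e g
  qf : G.Adj q f
  qg : G.Adj q g
  fg : G.Adj f g

theorem C7.ne (h : C7 G Q F e a1 a2 a3 q f w v g) :
    (e ≠ a1 ∧ e ≠ a2 ∧ e ≠ a3 ∧ e ≠ q ∧ e ≠ f ∧ e ≠ w ∧ e ≠ v ∧ e ≠ g) ∧
    (a1 ≠ a2 ∧ a1 ≠ a3 ∧ a1 ≠ q ∧ a1 ≠ f ∧ a1 ≠ w ∧ a1 ≠ v ∧ a1 ≠ g) ∧
    (a2 ≠ a3 ∧ a2 ≠ q ∧ a2 ≠ f ∧ a2 ≠ w ∧ a2 ≠ v ∧ a2 ≠ g) ∧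
    (a3 ≠ q ∧ a3 ≠ f ∧ a3 ≠ w ∧ a3 ≠ v ∧ a3 ≠ g) ∧
    (q ≠ f ∧ q ≠ w ∧ q ≠ v ∧ q ≠ g) ∧ (f ≠ w ∧ f ≠ v ∧ f ≠ g) ∧ (w ≠ v ∧ w ≠ g) ∧ v ≠ g := by
  have := h.nd
  simp only [List.nodup_cons, List.mem_cons, List.not_mem_nil, List.nodup_nil, not_or,
    not_false_eq_true, and_true] at this
  exact this

theorem C7.out (h : C7 G Q F e a1 a2 a3 q f w v g) {x : V} (hx : x ∉ F) :
    x ≠ e ∧ x ≠ a1 ∧ x ≠ a2 ∧ x ≠ a3 ∧ x ≠ q ∧ x ≠ f ∧ x ≠ w ∧ x ≠ v ∧ x ≠ g := by
  rw [h.mF] at hx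
  simpa only [not_or] using hx

theorem C7.nq (h : C7 G Q F e a1 a2 a3 q f w v g) {x : V} (hx : x ∉ F) : x ∉ Q := by
  have := h.out hx
  rw [h.mQ]
  grind

theorem C7.na1 (h : C7 G Q F e a1 a2 a3 q f w v g) : a1 ∉ Q := by
  have := h.ne; rw [h.mQ]; grind
theorem C7.na2 (h : C7 G Q F e a1 a2 a3 q f w v g) : a2 ∉ Q := by
  have := h.ne; rw [h.mQ]; grind
theorem C7.na3 (h : C7 G Q F e a1 a2 a3 q f w v g) : a3 ∉ Q := by
  have := h.ne; rw [h.mQ]; grind
theorem C7.nw (h : C7 G Q F e a1 a2 a3 q f w v g) : w ∉ Q := by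
  have := h.ne; rw [h.mQ]; grind
theorem C7.nv (h : C7 G Q F e a1 a2 a3 q f w v g) : v ∉ Q := by
  have := h.ne; rw [h.mQ]; grind
theorem C7.me (h : C7 G Q F e a1 a2 a3 q f w v g) : e ∈ Q := by rw [h.mQ]; simp
theorem C7.mq (h : C7 G Q F e a1 a2 a3 q f w v g) : q ∈ Q := by rw [h.mQ]; simp
theorem C7.mf (h : C7 G Q F e a1 a2 a3 q f w v g) : f ∈ Q := by rw [h.mQ]; simp
theorem C7.mg (h : C7 G Q F e a1 a2 a3 q f w v g) : g ∈ Q := by rw [h.mQ]; simp

theorem C7.swap (h : C7 G Q F e a1 a2 a3 q f w v g) : C7 G Q F e a1 a2 a3 q g v w f where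
  forb := h.forb
  deg := h.deg
  om := h.om
  mQ := fun x => by rw [h.mQ]; tauto
  mF := fun x => by rw [h.mF]; tauto
  nd := by
    have := h.ne
    simp only [List.nodup_cons, List.mem_cons, List.not_mem_nil, List.nodup_nil]
    grind
  ea := h.ea
  a12 := h.a12
  a23 := h.a23
  aq := h.aq
  fw := h.vg.symm
  wv := h.wv.symm
  vg := h.fw.symm
  eq := h.eq
  ef := h.eg
  eg := h.ef
  qf := h.qg
  qg := h.qf
  fg := h.fg.symm

theorem C7.no (h : C7 G Q F e a1 a2 a3 q f w v g) (W O : List V) (a b : V) (h1 : W.Nodup)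
    (h2 : W.IsChain G.Adj) (ha : W.head? = some a) (haQ : a ∈ Q) (hb : W.getLast? = some b)
    (hbQ : b ∈ Q) (hl : W.length ≤ 8) (hs : O.Sublist W) (hO : ∀ x ∈ O, x ∉ Q)
    (h4 : O.length = 4) : False := by
  refine h.forb W ⟨h1, h2, ⟨a, by simp [ha], haQ⟩, b, by simp [hb], hbQ⟩ hl ?_
  have h5 : O.countP (fun v => decide (v ∉ Q)) = O.length :=
    List.countP_eq_length.2 (by simpa using hO)
  have h6 := hs.countP_le (p := fun v => decide (v ∉ Q))
  unfold outer
  omega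

theorem C7.x1 (h : C7 G Q F e a1 a2 a3 q f w v g) (k : G.Adj a1 a3) : False :=
  h.no [e, a1, a3, q, f, w, v, g] [a1, a3, w, v] e g
    (by have := h.ne; simp only [List.nodup_cons, List.mem_cons, List.not_mem_nil, List.nodup_nil]; grind)
    (by simp only [List.isChain_cons_cons, List.isChain_singleton, and_true]; exact ⟨h.ea, k, h.aq, h.qf, h.fw, h.wv, h.vg⟩)
    rfl h.me rfl h.mg (by simp) (.cons _ (.cons_cons _ (.cons_cons _ (.cons _ (.cons _ (.cons_cons _ (.cons_cons _ (.cons _ .slnil))))))))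
    (by simp only [List.forall_mem_cons]; exact ⟨h.na1, h.na3, h.nw, h.nv, by simp⟩) rfl

theorem C7.x2 (h : C7 G Q F e a1 a2 a3 q f w v g) (k : G.Adj a1 f) : False :=
  h.no [q, a3, a2, a1, f, w, v, g] [a3, a2, a1, w] q g
    (by have := h.ne; simp only [List.nodup_cons, List.mem_cons, List.not_mem_nil, List.nodup_nil]; grind)
    (by simp only [List.isChain_cons_cons, List.isChain_singleton, and_true]; exact ⟨h.aq.symm, h.a23.symm, h.a12.symm, k, h.fw, h.wv, h.vg⟩)
    rfl h.mq rfl h.mg (by simp) (.cons _ (.cons_cons _ (.cons_cons _ (.cons_cons _ (.cons _ (.cons_cons _ (.cons _ (.cons _ .slnil))))))))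
    (by simp only [List.forall_mem_cons]; exact ⟨h.na3, h.na2, h.na1, h.nw, by simp⟩) rfl

theorem C7.x3 (h : C7 G Q F e a1 a2 a3 q f w v g) (k : G.Adj a1 w) : False :=
  h.no [q, a3, a2, a1, w, f] [a3, a2, a1, w] q f
    (by have := h.ne; simp only [List.nodup_cons, List.mem_cons, List.not_mem_nil, List.nodup_nil]; grind)
    (by simp only [List.isChain_cons_cons, List.isChain_singleton, and_true]; exact ⟨h.aq.symm, h.a23.symm, h.a12.symm, k, h.fw.symm⟩)
    rfl h.mq rfl h.mf (by simp) (.cons _ (.cons_cons _ (.cons_cons _ (.cons_cons _ (.cons_cons _ (.cons _ .slnil))))))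
    (by simp only [List.forall_mem_cons]; exact ⟨h.na3, h.na2, h.na1, h.nw, by simp⟩) rfl

theorem C7.y1 (h : C7 G Q F e a1 a2 a3 q f w v g) (k : G.Adj a2 q) : False :=
  h.no [e, a1, a2, q, f, w, v, g] [a1, a2, w, v] e g
    (by have := h.ne; simp only [List.nodup_cons, List.mem_cons, List.not_mem_nil, List.nodup_nil]; grind)
    (by simp only [List.isChain_cons_cons, List.isChain_singleton, and_true]; exact ⟨h.ea, h.a12, k, h.qf, h.fw, h.wv, h.vg⟩)
    rfl h.me rfl h.mg (by simp) (.cons _ (.cons_cons _ (.cons_cons _ (.cons _ (.cons _ (.cons_cons _ (.cons_cons _ (.cons _ .slnil))))))))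
    (by simp only [List.forall_mem_cons]; exact ⟨h.na1, h.na2, h.nw, h.nv, by simp⟩) rfl

theorem C7.y2 (h : C7 G Q F e a1 a2 a3 q f w v g) (k : G.Adj a2 e) : False :=
  h.no [e, a2, a3, q, f, w, v, g] [a2, a3, w, v] e g
    (by have := h.ne; simp only [List.nodup_cons, List.mem_cons, List.not_mem_nil, List.nodup_nil]; grind)
    (by simp only [List.isChain_cons_cons, List.isChain_singleton, and_true]; exact ⟨k.symm, h.a23, h.aq, h.qf, h.fw, h.wv, h.vg⟩)
    rfl h.me rfl h.mg (by simp) (.cons _ (.cons_cons _ (.cons_cons _ (.cons _ (.cons _ (.cons_cons _ (.cons_cons _ (.cons _ .slnil))))))))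
    (by simp only [List.forall_mem_cons]; exact ⟨h.na2, h.na3, h.nw, h.nv, by simp⟩) rfl

theorem C7.y3 (h : C7 G Q F e a1 a2 a3 q f w v g) (k : G.Adj a2 f) : False :=
  h.no [q, a3, a2, f, w, v, g] [a3, a2, w, v] q g
    (by have := h.ne; simp only [List.nodup_cons, List.mem_cons, List.not_mem_nil, List.nodup_nil]; grind)
    (by simp only [List.isChain_cons_cons, List.isChain_singleton, and_true]; exact ⟨h.aq.symm, h.a23.symm, k, h.fw, h.wv, h.vg⟩)
    rfl h.mq rfl h.mg (by simp) (.cons _ (.cons_cons _ (.cons_cons _ (.cons _ (.cons_cons _ (.cons_cons _ (.cons _ .slnil)))))))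
    (by simp only [List.forall_mem_cons]; exact ⟨h.na3, h.na2, h.nw, h.nv, by simp⟩) rfl

theorem C7.y4 (h : C7 G Q F e a1 a2 a3 q f w v g) (k : G.Adj a2 w) : False :=
  h.no [e, a1, a2, w, v, g] [a1, a2, w, v] e g
    (by have := h.ne; simp only [List.nodup_cons, List.mem_cons, List.not_mem_nil, List.nodup_nil]; grind)
    (by simp only [List.isChain_cons_cons, List.isChain_singleton, and_true]; exact ⟨h.ea, h.a12, k, h.wv, h.vg⟩)
    rfl h.me rfl h.mg (by simp) (.cons _ (.cons_cons _ (.cons_cons _ (.cons_cons _ (.cons_cons _ (.cons _ .slnil))))))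
    (by simp only [List.forall_mem_cons]; exact ⟨h.na1, h.na2, h.nw, h.nv, by simp⟩) rfl

theorem C7.z1 (h : C7 G Q F e a1 a2 a3 q f w v g) (k : G.Adj w g) : False :=
  h.no [e, a1, a2, a3, q, f, w, g] [a1, a2, a3, w] e g
    (by have := h.ne; simp only [List.nodup_cons, List.mem_cons, List.not_mem_nil, List.nodup_nil]; grind)
    (by simp only [List.isChain_cons_cons, List.isChain_singleton, and_true]; exact ⟨h.ea, h.a12, h.a23, h.aq, h.qf, h.fw, k⟩)
    rfl h.me rfl h.mg (by simp) (.cons _ (.cons_cons _ (.cons_cons _ (.cons_cons _ (.cons _ (.cons _ (.cons_cons _ (.cons _ .slnil))))))))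
    (by simp only [List.forall_mem_cons]; exact ⟨h.na1, h.na2, h.na3, h.nw, by simp⟩) rfl

theorem C7.z2 (h : C7 G Q F e a1 a2 a3 q f w v g) (k : G.Adj w e) : False :=
  h.no [q, a3, a2, a1, e, w, f] [a3, a2, a1, w] q f
    (by have := h.ne; simp only [List.nodup_cons, List.mem_cons, List.not_mem_nil, List.nodup_nil]; grind)
    (by simp only [List.isChain_cons_cons, List.isChain_singleton, and_true]; exact ⟨h.aq.symm, h.a23.symm, h.a12.symm, h.ea.symm, k.symm, h.fw.symm⟩)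
    rfl h.mq rfl h.mf (by simp) (.cons _ (.cons_cons _ (.cons_cons _ (.cons_cons _ (.cons _ (.cons_cons _ (.cons _ .slnil)))))))
    (by simp only [List.forall_mem_cons]; exact ⟨h.na3, h.na2, h.na1, h.nw, by simp⟩) rfl

theorem C7.z3 (h : C7 G Q F e a1 a2 a3 q f w v g) (k : G.Adj w q) : False :=
  h.no [e, a1, a2, a3, q, w, f] [a1, a2, a3, w] e f
    (by have := h.ne; simp only [List.nodup_cons, List.mem_cons, List.not_mem_nil, List.nodup_nil]; grind)
    (by simp only [List.isChain_cons_cons, List.isChain_singleton, and_true]; exact ⟨h.ea, h.a12, h.a23, h.aq, k.symm, h.fw.symm⟩)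
    rfl h.me rfl h.mf (by simp) (.cons _ (.cons_cons _ (.cons_cons _ (.cons_cons _ (.cons _ (.cons_cons _ (.cons _ .slnil)))))))
    (by simp only [List.forall_mem_cons]; exact ⟨h.na1, h.na2, h.na3, h.nw, by simp⟩) rfl

theorem C7.z4 (h : C7 G Q F e a1 a2 a3 q f w v g) (k : G.Adj w a3) : False :=
  h.no [e, a1, a2, a3, w, f] [a1, a2, a3, w] e f
    (by have := h.ne; simp only [List.nodup_cons, List.mem_cons, List.not_mem_nil, List.nodup_nil]; grind)
    (by simp only [List.isChain_cons_cons, List.isChain_singleton, and_true]; exact ⟨h.ea, h.a12, h.a23, k.symm, h.fw.symm⟩)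
    rfl h.me rfl h.mf (by simp) (.cons _ (.cons_cons _ (.cons_cons _ (.cons_cons _ (.cons_cons _ (.cons _ .slnil))))))
    (by simp only [List.forall_mem_cons]; exact ⟨h.na1, h.na2, h.na3, h.nw, by simp⟩) rfl

theorem C7.s1 (h : C7 G Q F e a1 a2 a3 q f w v g) {x : V} (hx : x ∉ F) (k : G.Adj a1 x)
    (k' : G.Adj a2 x) : False :=
  h.no [e, a1, x, a2, a3, q] [a1, x, a2, a3] e q
    (by have := h.ne; have := h.out hx; simp only [List.nodup_cons, List.mem_cons, List.not_mem_nil, List.nodup_nil]; grind)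
    (by simp only [List.isChain_cons_cons, List.isChain_singleton, and_true]; exact ⟨h.ea, k, k'.symm, h.a23, h.aq⟩)
    rfl h.me rfl h.mq (by simp) (.cons _ (.cons_cons _ (.cons_cons _ (.cons_cons _ (.cons_cons _ (.cons _ .slnil))))))
    (by simp only [List.forall_mem_cons]; exact ⟨h.na1, h.nq hx, h.na2, h.na3, by simp⟩) rfl

theorem C7.s2 (h : C7 G Q F e a1 a2 a3 q f w v g) {x y : V} (hx : x ∉ F) (hy : y ∉ F)
    (k : G.Adj a1 x) (k' : G.Adj a2 y) (kk : G.Adj x y) : False :=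
  h.no [e, a1, x, y, a2, a3, q] [a1, x, y, a2] e q
    (by have := h.ne; have := kk.ne; have := h.out hx; have := h.out hy; simp only [List.nodup_cons, List.mem_cons, List.not_mem_nil, List.nodup_nil]; grind)
    (by simp only [List.isChain_cons_cons, List.isChain_singleton, and_true]; exact ⟨h.ea, k, kk, k'.symm, h.a23, h.aq⟩)
    rfl h.me rfl h.mq (by simp) (.cons _ (.cons_cons _ (.cons_cons _ (.cons_cons _ (.cons_cons _ (.cons _ (.cons _ .slnil)))))))
    (by simp only [List.forall_mem_cons]; exact ⟨h.na1, h.nq hx, h.nq hy, h.na2, by simp⟩) rfl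

theorem C7.s3 (h : C7 G Q F e a1 a2 a3 q f w v g) {x : V} (hx : x ∉ F) (k : G.Adj a1 x)
    (k' : G.Adj w x) : False :=
  h.no [q, a3, a2, a1, x, w, f] [a3, a2, a1, x] q f
    (by have := h.ne; have := h.out hx; simp only [List.nodup_cons, List.mem_cons, List.not_mem_nil, List.nodup_nil]; grind)
    (by simp only [List.isChain_cons_cons, List.isChain_singleton, and_true]; exact ⟨h.aq.symm, h.a23.symm, h.a12.symm, k, k'.symm, h.fw.symm⟩)
    rfl h.mq rfl h.mf (by simp) (.cons _ (.cons_cons _ (.cons_cons _ (.cons_cons _ (.cons_cons _ (.cons _ (.cons _ .slnil)))))))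
    (by simp only [List.forall_mem_cons]; exact ⟨h.na3, h.na2, h.na1, h.nq hx, by simp⟩) rfl

theorem C7.s4 (h : C7 G Q F e a1 a2 a3 q f w v g) {x y : V} (hx : x ∉ F) (hy : y ∉ F)
    (k : G.Adj a1 x) (k' : G.Adj w y) (kk : G.Adj x y) : False :=
  h.no [q, a3, a2, a1, x, y, w, f] [a3, a2, a1, x] q f
    (by have := h.ne; have := kk.ne; have := h.out hx; have := h.out hy; simp only [List.nodup_cons, List.mem_cons, List.not_mem_nil, List.nodup_nil]; grind)
    (by simp only [List.isChain_cons_cons, List.isChain_singleton, and_true]; exact ⟨h.aq.symm, h.a23.symm, h.a12.symm, k, kk, k'.symm, h.fw.symm⟩)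
    rfl h.mq rfl h.mf (by simp) (.cons _ (.cons_cons _ (.cons_cons _ (.cons_cons _ (.cons_cons _ (.cons _ (.cons _ (.cons _ .slnil))))))))
    (by simp only [List.forall_mem_cons]; exact ⟨h.na3, h.na2, h.na1, h.nq hx, by simp⟩) rfl

theorem C7.s5 (h : C7 G Q F e a1 a2 a3 q f w v g) {x : V} (hx : x ∉ F) (k : G.Adj a2 x)
    (k' : G.Adj w x) : False :=
  h.no [e, a1, a2, x, w, f] [a1, a2, x, w] e f
    (by have := h.ne; have := h.out hx; simp only [List.nodup_cons, List.mem_cons, List.not_mem_nil, List.nodup_nil]; grind)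
    (by simp only [List.isChain_cons_cons, List.isChain_singleton, and_true]; exact ⟨h.ea, h.a12, k, k'.symm, h.fw.symm⟩)
    rfl h.me rfl h.mf (by simp) (.cons _ (.cons_cons _ (.cons_cons _ (.cons_cons _ (.cons_cons _ (.cons _ .slnil))))))
    (by simp only [List.forall_mem_cons]; exact ⟨h.na1, h.na2, h.nq hx, h.nw, by simp⟩) rfl

theorem C7.s6 (h : C7 G Q F e a1 a2 a3 q f w v g) {x y : V} (hx : x ∉ F) (hy : y ∉ F)
    (k : G.Adj a2 x) (k' : G.Adj w y) (kk : G.Adj x y) : False :=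
  h.no [e, a1, a2, x, y, w, f] [a1, a2, x, y] e f
    (by have := h.ne; have := kk.ne; have := h.out hx; have := h.out hy; simp only [List.nodup_cons, List.mem_cons, List.not_mem_nil, List.nodup_nil]; grind)
    (by simp only [List.isChain_cons_cons, List.isChain_singleton, and_true]; exact ⟨h.ea, h.a12, k, kk, k'.symm, h.fw.symm⟩)
    rfl h.me rfl h.mf (by simp) (.cons _ (.cons_cons _ (.cons_cons _ (.cons_cons _ (.cons_cons _ (.cons _ (.cons _ .slnil)))))))
    (by simp only [List.forall_mem_cons]; exact ⟨h.na1, h.na2, h.nq hx, h.nq hy, by simp⟩) rfl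

theorem C7.s7 (h : C7 G Q F e a1 a2 a3 q f w v g) {x y : V} (hx : x ∉ F) (hy : y ∉ F)
    (k : G.Adj w x) (k' : G.Adj v y) (kk : G.Adj x y) : False :=
  h.no [f, w, x, y, v, g] [w, x, y, v] f g
    (by have := h.ne; have := kk.ne; have := h.out hx; have := h.out hy; simp only [List.nodup_cons, List.mem_cons, List.not_mem_nil, List.nodup_nil]; grind)
    (by simp only [List.isChain_cons_cons, List.isChain_singleton, and_true]; exact ⟨h.fw, k, kk, k'.symm, h.vg⟩)
    rfl h.mf rfl h.mg (by simp) (.cons _ (.cons_cons _ (.cons_cons _ (.cons_cons _ (.cons_cons _ (.cons _ .slnil))))))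
    (by simp only [List.forall_mem_cons]; exact ⟨h.nw, h.nq hx, h.nq hy, h.nv, by simp⟩) rfl

theorem pair (hom : Om G 4) (x : V) (T : Finset V) (hT : ∀ y ∈ T, G.Adj x y) (h4 : 4 ≤ T.card) :
    ∃ I, I ⊆ T ∧ Ind G I ∧ I.card = 2 := by
  by_contra hn
  have hx : x ∉ T := fun hx => G.irrefl (hT x hx)
  have := hom (insert x T) (by
    intro u hu u' hu' huu
    simp only [Finset.mem_insert] at hu hu'
    rcases hu with rfl | hu <;> rcases hu' with rfl | hu'
    · exact absurd rfl huu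
    · exact hT _ hu'
    · exact (hT _ hu).symm
    · by_contra hna
      refine hn ⟨{u, u'}, ?_, ind_pair hna, Finset.card_pair huu⟩
      intro y hy
      simp only [Finset.mem_insert, Finset.mem_singleton] at hy
      rcases hy with rfl | rfl <;> assumption)
  rw [Finset.card_insert_of_notMem hx] at this
  omega

theorem ind_union {I J : Finset V} (hI : Ind G I) (hJ : Ind G J)
    (h : ∀ u ∈ I, ∀ u' ∈ J, u ≠ u' ∧ ¬ G.Adj u u') :
    Ind G (I ∪ J) ∧ (I ∪ J).card = I.card + J.card := by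
  refine ⟨?_, Finset.card_union_of_disjoint ?_⟩
  · intro u hu u' hu'
    rcases Finset.mem_union.1 hu with hu | hu <;> rcases Finset.mem_union.1 hu' with hu' | hu'
    · exact hI u hu u' hu'
    · exact (h u hu u' hu').2
    · exact fun k => (h u' hu' u hu).2 k.symm
    · exact hJ u hu u' hu'
  · rw [Finset.disjoint_left]
    intro u hu hu'
    exact (h u hu u hu').1 rfl

theorem C7.many (h : C7 G Q F e a1 a2 a3 q f w v g) (x : V) (S O : Finset V)
    (hS : ∀ y ∈ F, G.Adj x y → y ∈ S) (hO : ∀ y, y ∈ O ↔ G.Adj x y ∧ y ∉ F) :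
    7 ≤ S.card + O.card := by
  have h1 := h.deg x (insert x (S ∪ O)) (by simp) (by
    intro y hy
    by_cases hF : y ∈ F
    · simp [hS y hF hy]
    · simp [(hO y).2 ⟨hy, hF⟩])
  have h2 := Finset.card_insert_le x (S ∪ O)
  have h3 := Finset.card_union_le S O
  omega

theorem C7.cw (h : C7 G Q F e a1 a2 a3 q f w v g) (O : Finset V)
    (hO : ∀ y, y ∈ O ↔ G.Adj w y ∧ y ∉ F) : 5 ≤ O.card := by
  have := h.many w {f, v} O (by
    intro y hy k
    rw [h.mF] at hy
    rcases hy with rfl | rfl | rfl | rfl | rfl | rfl | rfl | rfl | rfl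
    · exact (h.z2 k).elim
    · exact (h.x3 k.symm).elim
    · exact (h.y4 k.symm).elim
    · exact (h.z4 k).elim
    · exact (h.z3 k).elim
    · simp
    · exact (G.irrefl k).elim
    · simp
    · exact (h.z1 k).elim) hO
  have h2 : ({f, v} : Finset V).card ≤ 2 := Finset.card_le_two
  omega

theorem four (hom : Om G 4) {w v : V} {Z Z' : Finset V} (hZ : ∀ y ∈ Z, G.Adj w y)
    (hZ' : ∀ y ∈ Z', G.Adj v y) (c1 : 5 ≤ Z.card) (c2 : 5 ≤ Z'.card)
    (hs : ∀ z ∈ Z, ∀ z' ∈ Z', ¬ G.Adj z z') :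
    ∃ D, D ⊆ Z ∪ Z' ∧ Ind G D ∧ 4 ≤ D.card := by
  have hY : Ind G (Z ∩ Z') := fun u hu u' hu' =>
    hs u (Finset.mem_inter.1 hu).1 u' (Finset.mem_inter.1 hu').2
  have key : ∀ I J : Finset V, I ⊆ Z \ Z' → J ⊆ Z' \ Z → Ind G I → Ind G J →
      4 ≤ (Z ∩ Z').card + I.card + J.card → ∃ D, D ⊆ Z ∪ Z' ∧ Ind G D ∧ 4 ≤ D.card := by
    intro I J hI hJ iI iJ hc
    have k1 := ind_union hY iI (by
      intro u hu u' hu'
      have a := Finset.mem_inter.1 hu
      have b := Finset.mem_sdiff.1 (hI hu')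
      exact ⟨fun e => b.2 (e ▸ a.2), fun k => hs u' b.1 u a.2 k.symm⟩)
    have k2 := ind_union k1.1 iJ (by
      intro u hu u' hu'
      have b := Finset.mem_sdiff.1 (hJ hu')
      have a : u ∈ Z := by
        rcases Finset.mem_union.1 hu with hu | hu
        · exact (Finset.mem_inter.1 hu).1
        · exact (Finset.mem_sdiff.1 (hI hu)).1
      exact ⟨fun e => b.2 (e ▸ a), hs u a u' b.1⟩)
    refine ⟨_, ?_, k2.1, by rw [k2.2, k1.2]; exact hc⟩
    intro u hu
    simp only [Finset.mem_union] at hu ⊢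
    rcases hu with (hu | hu) | hu
    · exact Or.inl (Finset.mem_inter.1 hu).1
    · exact Or.inl (Finset.mem_sdiff.1 (hI hu)).1
    · exact Or.inr (Finset.mem_sdiff.1 (hJ hu)).1
  have d1 := Finset.card_sdiff_add_card_inter Z Z'
  have d2 := Finset.card_sdiff_add_card_inter Z' Z
  rw [Finset.inter_comm Z' Z] at d2
  have e0 : Ind G (∅ : Finset V) := fun u hu => by simp at hu
  have e1 : ∀ x : V, Ind G {x} := fun x u hu u' hu' => by
    simp only [Finset.mem_singleton] at hu hu'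
    subst hu hu'
    exact G.irrefl
  by_cases h4 : 4 ≤ (Z ∩ Z').card
  · exact key ∅ ∅ (by simp) (by simp) e0 e0 (by simpa using h4)
  by_cases h2 : 2 ≤ (Z ∩ Z').card
  · obtain ⟨x, hx⟩ : (Z \ Z').Nonempty := Finset.card_pos.1 (by omega)
    obtain ⟨y, hy⟩ : (Z' \ Z).Nonempty := Finset.card_pos.1 (by omega)
    exact key {x} {y} (by simpa using hx) (by simpa using hy) (e1 x) (e1 y) (by simp; omega)
  · obtain ⟨I, hI, iI, cI⟩ := pair hom w (Z \ Z')
      (fun y hy => hZ y (Finset.mem_sdiff.1 hy).1) (by omega)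
    obtain ⟨J, hJ, iJ, cJ⟩ := pair hom v (Z' \ Z)
      (fun y hy => hZ' y (Finset.mem_sdiff.1 hy).1) (by omega)
    exact key I J hI hJ iI iJ (by omega)

theorem C7.big [Fintype V] (h : C7 G Q F e a1 a2 a3 q f w v g) : Big G 7 := by
  classical
  let O : V → Finset V := fun x => Finset.univ.filter fun y => G.Adj x y ∧ y ∉ F
  have hO : ∀ x y, y ∈ O x ↔ G.Adj x y ∧ y ∉ F := fun x y => by simp [O]
  have c1 : 4 ≤ (O a1).card := by
    have := h.many a1 {e, a2, q} (O a1) (by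
      intro y hy k
      rw [h.mF] at hy
      rcases hy with rfl | rfl | rfl | rfl | rfl | rfl | rfl | rfl | rfl
      · simp
      · exact (G.irrefl k).elim
      · simp
      · exact (h.x1 k).elim
      · simp
      · exact (h.x2 k).elim
      · exact (h.x3 k).elim
      · exact (h.swap.x3 k).elim
      · exact (h.swap.x2 k).elim) (hO a1)
    have h2 : ({e, a2, q} : Finset V).card ≤ 3 := Finset.card_le_three
    omega
  have c2 : 4 ≤ (O a2).card := by
    have := h.many a2 {a1, a3} (O a2) (by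
      intro y hy k
      rw [h.mF] at hy
      rcases hy with rfl | rfl | rfl | rfl | rfl | rfl | rfl | rfl | rfl
      · exact (h.y2 k).elim
      · simp
      · exact (G.irrefl k).elim
      · simp
      · exact (h.y1 k).elim
      · exact (h.y3 k).elim
      · exact (h.y4 k).elim
      · exact (h.swap.y4 k).elim
      · exact (h.swap.y3 k).elim) (hO a2)
    have h2 : ({a1, a3} : Finset V).card ≤ 2 := Finset.card_le_two
    omega
  obtain ⟨I, hI, iI, cI⟩ := pair h.om a1 (O a1) (fun y hy => ((hO _ _).1 hy).1) c1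
  obtain ⟨J, hJ, iJ, cJ⟩ := pair h.om a2 (O a2) (fun y hy => ((hO _ _).1 hy).1) c2
  obtain ⟨D, hD, iD, cD⟩ := four h.om (w := w) (v := v) (Z := O w) (Z' := O v)
    (fun y hy => ((hO _ _).1 hy).1) (fun y hy => ((hO _ _).1 hy).1) (h.cw _ (hO w))
    (h.swap.cw _ (hO v)) (fun z hz z' hz' k =>
      h.s7 ((hO _ _).1 hz).2 ((hO _ _).1 hz').2 ((hO _ _).1 hz).1 ((hO _ _).1 hz').1 k)
  have k1 := ind_union iI iJ (by
    intro u hu u' hu'
    have a := (hO _ _).1 (hI hu)
    have b := (hO _ _).1 (hJ hu')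
    exact ⟨fun e => h.s1 a.2 a.1 (e ▸ b.1), fun k => h.s2 a.2 b.2 a.1 b.1 k⟩)
  have k2 := ind_union k1.1 iD (by
    intro u hu u' hu'
    rcases Finset.mem_union.1 hu with hu | hu <;> rcases Finset.mem_union.1 (hD hu') with hv | hv
    · have a := (hO _ _).1 (hI hu)
      have b := (hO _ _).1 hv
      exact ⟨fun e => h.s3 a.2 a.1 (e ▸ b.1), fun k => h.s4 a.2 b.2 a.1 b.1 k⟩
    · have a := (hO _ _).1 (hI hu)
      have b := (hO _ _).1 hv
      exact ⟨fun e => h.swap.s3 a.2 a.1 (e ▸ b.1), fun k => h.swap.s4 a.2 b.2 a.1 b.1 k⟩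
    · have a := (hO _ _).1 (hJ hu)
      have b := (hO _ _).1 hv
      exact ⟨fun e => h.s5 a.2 a.1 (e ▸ b.1), fun k => h.s6 a.2 b.2 a.1 b.1 k⟩
    · have a := (hO _ _).1 (hJ hu)
      have b := (hO _ _).1 hv
      exact ⟨fun e => h.swap.s5 a.2 a.1 (e ▸ b.1), fun k => h.swap.s6 a.2 b.2 a.1 b.1 k⟩)
  exact ⟨_, k2.1, by rw [k2.2, k1.2]; omega⟩

end Cfg7m

open Cfg7m in
theorem stmtCfg7 (hEar : StmtEar) : StmtCfg7 := by
  intro V _ _ G e q f g a1 a2 a3 w v hB hnd hch
  have hne := hnd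
  simp only [List.nodup_cons, List.mem_cons, List.not_mem_nil, List.nodup_nil, not_or,
    not_false_eq_true, and_true] at hne
  have hc : ({e, q, f, g} : Finset V).card = 4 := by
    rw [Finset.card_insert_of_notMem (by simp; grind), Finset.card_insert_of_notMem (by simp; grind),
      Finset.card_pair (by grind)]
  simp only [List.isChain_cons_cons, List.isChain_singleton, and_true] at hch
  have hom := hB.om
  rw [hc] at hom
  have h : C7 G {e, q, f, g} {e, a1, a2, a3, q, f, w, v, g} e a1 a2 a3 q f w v g :=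
    { forb := fun W hW hl ho => hEar V G 7 _ W (by norm_num) hB.nocyc hB.clq hW hl (by omega)
      deg := fun x U hx hU => hB.p2.deg x U hx hU
      om := hom
      mQ := fun x => by simp
      mF := fun x => by simp
      nd := hnd
      ea := hch.1
      a12 := hch.2.1
      a23 := hch.2.2.1
      aq := hch.2.2.2.1
      fw := hch.2.2.2.2.2.1
      wv := hch.2.2.2.2.2.2.1
      vg := hch.2.2.2.2.2.2.2
      eq := hB.clq _ (by simp) _ (by simp) (by grind)
      ef := hB.clq _ (by simp) _ (by simp) (by grind)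
      eg := hB.clq _ (by simp) _ (by simp) (by grind)
      qf := hB.clq _ (by simp) _ (by simp) (by grind)
      qg := hB.clq _ (by simp) _ (by simp) (by grind)
      fg := hB.clq _ (by simp) _ (by simp) (by grind) }
  exact h.big

end Vale.Agent.P048
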