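import Vale.Agent.P048.Spec

namespace Vale.Agent.P048

namespace Compm

lemma tc_cons (l : ℕ) (R : List ℕ) : tc (l :: R) = (if l = 0 then 0 else 1) + tc R := by
  by_cases h : l = 0
  · simp [tc, nz, h]
  · simp [tc, nz, h, add_comm]

lemma tc_le (R : List ℕ) : tc R ≤ R.sum := by
  induction R with
  | nil => simp [tc, nz]
  | cons l R ih =>
    rw [tc_cons, List.sum_cons]
    split_ifs <;> omega

variable {V : Type} [DecidableEq V] {G : SimpleGraph V} {Q : Finset V}

lemma outer_in {q : V} (h : q ∈ Q) (Z : List V) : outer Q (q :: Z) = outer Q Z := by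
  simp [outer, h]

lemma outer_out {P : List V} (h : ∀ p ∈ P, p ∉ Q) (Z : List V) :
    outer Q (P ++ Z) = P.length + outer Q Z := by
  rw [outer, List.countP_append, List.countP_eq_length.2 (fun p hp => by simpa using h p hp)]
  rfl

lemma inv (hQ : Clq G Q) {R : List ℕ} {W : List V} (h : Str Q R W) : W.Nodup → W.IsChain G.Adj →
    ∃ q T Z, W = q :: T ∧ q ∈ Q ∧ Z.Sublist T ∧ (q :: Z).IsChain G.Adj ∧
      (∃ b ∈ (q :: Z).getLast?, b ∈ Q) ∧ outer Q Z = R.sum ∧
      (Z.length + 1 ≤ R.sum + 2 * tc R ∨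
        (Z.length ≤ R.sum + 2 * tc R ∧ ∀ z ∈ Z.head?, z ∈ Q)) := by
  induction h with
  | one q hq => exact fun _ _ => ⟨q, [], [], rfl, hq, by simp, by simp, ⟨q, by simp, hq⟩,
      by simp [outer], Or.inr ⟨by simp, by simp⟩⟩
  | cons q' P R W hq' hP _ ih =>
    intro hn hc
    have hn' : W.Nodup := (List.nodup_append.1 (List.nodup_cons.1 hn).2).2.1
    have hc' : W.IsChain G.Adj := (List.isChain_append.1 hc.tail).2.1
    obtain ⟨q, T, Z, rfl, hq, hs, hz, ⟨b, hb, hbQ⟩, ho, ha⟩ := ih hn' hc'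
    have hch : (q' :: (P ++ q :: Z)).IsChain G.Adj := by
      rw [← List.cons_append, List.isChain_split] at hc ⊢
      exact ⟨hc.1, hz⟩
    have hla : b ∈ (q' :: (P ++ q :: Z)).getLast? := by
      rw [← List.cons_append, List.getLast?_append]
      simp only [Option.mem_def] at hb ⊢
      rw [hb]; rfl
    have hou : outer Q (P ++ q :: Z) = (P.length :: R).sum := by
      rw [outer_out hP, outer_in hq, ho, List.sum_cons]
    have hsu : (P ++ q :: Z).Sublist (P ++ q :: T) := (hs.cons_cons q).append_left P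
    cases P with
    | cons p P =>
      refine ⟨q', _, _, rfl, hq', hsu, hch, ⟨b, hla, hbQ⟩, hou, Or.inl ?_⟩
      rw [tc_cons, if_neg (by simp), List.sum_cons, List.length_append, List.length_cons (a := q)]
      omega
    | nil =>
      have ht : tc (([] : List V).length :: R) = tc R := by simp [tc_cons]
      rcases ha with ha | ⟨ha, hh⟩
      · refine ⟨q', _, _, rfl, hq', hsu, hch, ⟨b, hla, hbQ⟩, hou, Or.inr ⟨?_, by simpa using hq⟩⟩
        rw [ht]
        simpa using ha
      · refine ⟨q', _, Z, rfl, hq', hs.cons q, ?_, ?_, by simpa using ho,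
          Or.inr ⟨by rw [ht]; simpa using ha, hh⟩⟩
        · cases Z with
          | nil => simp
          | cons z Z =>
            refine List.isChain_cons_cons.2 ⟨hQ q' hq' z (hh z rfl) ?_, hz.tail⟩
            rintro rfl
            exact (List.nodup_cons.1 hn).1 (List.mem_cons_of_mem _ (hs.subset (by simp)))
        · cases Z with
          | nil => exact ⟨q', by simp, hq'⟩
          | cons z Z => exact ⟨b, by simpa using hb, hbQ⟩

end Compm

open Compm in
theorem stmtComp (_hS : StmtStr) : StmtComp := by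
  intro V _ G Q W R hQ hW hR ht
  obtain ⟨q, T, Z, rfl, hq, hs, hz, ⟨b, hb, hbQ⟩, ho, ha⟩ := inv hQ hR hW.1 hW.2.1
  have hn : (q :: Z).Nodup := hW.1.sublist (hs.cons_cons q)
  rcases ha with ha | ⟨ha, hh⟩
  · exact ⟨q :: Z, ⟨hn, hz, ⟨q, by simp, hq⟩, b, hb, hbQ⟩, by rw [outer_in hq, ho], by simpa using ha⟩
  · cases Z with
    | nil =>
      have := tc_le R
      simp [outer] at ho
      omega
    | cons z Z =>
      exact ⟨z :: Z, ⟨(List.nodup_cons.1 hn).2, hz.tail, ⟨z, by simp, hh z rfl⟩, b,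
        by simpa using hb, hbQ⟩, ho, ha⟩

end Vale.Agent.P048
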