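import Vale.Agent.P048.Spec

namespace Vale.Agent.P048

theorem stmtCore (hSmall : StmtSmall) (hEar : StmtEar) (hShort : StmtShort) (hM : StmtM)
    (hNo2 : StmtNo2) (hTwo5 : StmtTwo5) (hTwo4 : StmtTwo4) (hFull : StmtFull) (hK4 : StmtK4)
    (hK3 : StmtK3) : StmtCore := by
  classical
  intro V _ _ G k v hk hn hp
  by_cases h3 : k = 3
  · subst h3
    exact hK3 V G v hn hp
  have hk4 : 4 ≤ k := by omega
  obtain ⟨Q, hQ, hmax⟩ := Finset.exists_max_image
    ((Finset.univ : Finset (Finset V)).filter (Clq G)) Finset.card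
    ⟨∅, by simp [Clq]⟩
  have hclq : Clq G Q := (Finset.mem_filter.1 hQ).2
  have hom : Om G Q.card := fun K hK => hmax K (by simp [hK])
  by_cases hs : Q.card ≤ k / 2
  · exact hSmall V G k v hk4 hn hp (Or.inl fun K hK => (hom K hK).trans hs)
  have hbig : k + 1 ≤ 2 * Q.card := by omega
  have hle : Q.card ≤ k := by
    by_contra hc
    obtain ⟨q, hq⟩ : Q.Nonempty := Finset.card_pos.1 (by omega)
    exact hEar V G k Q [q] (by omega) hn hclq
      ⟨by simp, by simp, ⟨q, by simp, hq⟩, q, by simp, hq⟩ (by simp) (by omega)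
  by_cases h3' : Q.card = 3
  · by_cases h5 : k = 5
    · exact hSmall V G k v hk4 hn hp (Or.inr ⟨h5, h3' ▸ hom⟩)
    · have h4 : k = 4 := by omega
      subst h4
      obtain ⟨x, y, z, hxy, hxz, hyz, rfl⟩ := Finset.card_eq_three.1 h3'
      exact hK4 V G x y z hn hp (h3' ▸ hom) (hclq x (by simp) y (by simp) hxy)
        (hclq y (by simp) z (by simp) hyz) (hclq x (by simp) z (by simp) hxz)
  have h4 : 4 ≤ Q.card := by omega
  by_cases hfull : Q.card = k
  · exact hFull V G k Q hk4 hn hp hclq (hfull ▸ hom) hfull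
  obtain ⟨W, R, h⟩ := hM V G k Q ⟨hn, hp, hclq, hom, hbig, by omega, h4⟩
  by_cases hno : No2 G Q W
  · exact hNo2 V G k Q W R h hno
  unfold No2 at hno
  push Not at hno
  obtain ⟨a, b, ha, hb, hab, E0, hE0, hl0⟩ := hno
  obtain ⟨E, hE, hl, -⟩ := hShort V G W a b E0 hE0
  have h2 : E.length = 2 := by
    rcases h.main a b E ha hb hab hE (by omega) with he | he
    · have := he.2.2.2.1
      omega
    · have := he.2.1
      omega
  obtain ⟨w, w', rfl⟩ := List.length_eq_two.1 h2
  by_cases h5 : 5 ≤ Q.card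
  · exact hTwo5 V G k Q W R a b w w' h h5 ha hb hab hE
  · exact hTwo4 V G k Q W R a b w w' h (by omega) ha hb hab hE

end Vale.Agent.P048
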