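import Vale.Agent.P048.Spec

namespace Vale.Agent.P048

theorem stmtCyc (hLong : StmtLong) : StmtCyc := by
  intro V _ G H ρ hT hρ hO
  obtain ⟨l, hnd, hch, hH, hlen, ⟨a, ha, b, hb, hab⟩, e, he, hN⟩ :=
    hLong V G H ρ 0 hT (by omega) (by simpa using hO)
  have hn : (0 : ℤ) < l.length := by omega
  have hlt : ∀ i : ℤ, (i % l.length).toNat < l.length := fun i => by
    have h1 := Int.emod_lt_of_pos i hn
    have h2 := Int.emod_nonneg i hn.ne'
    omega
  let f : ℤ → V := fun i => l[(i % l.length).toNat]'(hlt i)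
  have hf : ∀ (i : ℤ) (j : ℕ) (hj : j < l.length), i % l.length = j → f i = l[j] := by
    intro i j hj h
    simp only [f, h, Int.toNat_natCast]
  have hinj : ∀ i j, f i = f j ↔ (l.length : ℤ) ∣ i - j := by
    intro i j
    rw [← Int.emod_eq_emod_iff_emod_sub_eq_zero.symm.trans Iff.rfl |>.symm.trans
      (Int.dvd_iff_emod_eq_zero ..).symm]
    simp only [f, hnd.getElem_inj_iff]
    have h1 := Int.emod_nonneg i hn.ne'
    have h2 := Int.emod_nonneg j hn.ne'
    omega
  have hadj : ∀ i, G.Adj (f i) (f (i + 1)) := by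
    intro i
    have h1 := Int.emod_lt_of_pos i hn
    have h2 := Int.emod_nonneg i hn.ne'
    obtain ⟨j, hj⟩ := Int.eq_ofNat_of_zero_le h2
    have h3 : (i + 1) % l.length = (j + 1) % l.length := by
      rw [← hj, Int.emod_add_emod]
    by_cases hc : j + 1 < l.length
    · rw [hf i j (by omega) hj, hf (i + 1) (j + 1) hc (by
        rw [h3, Int.emod_eq_of_lt (by omega) (by omega)]; push_cast; rfl)]
      exact List.isChain_iff_getElem.1 hch j hc
    · have h4 : (j : ℤ) + 1 = l.length := by omega
      rw [hf i (l.length - 1) (by omega) (by omega),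
        hf (i + 1) 0 (by omega) (by rw [h3, h4, Int.emod_self]; rfl)]
      rw [List.head?_eq_getElem?, Option.mem_def, List.getElem?_eq_getElem (by omega),
        Option.some.injEq] at ha
      rw [List.getLast?_eq_getElem?, Option.mem_def, List.getElem?_eq_getElem (by omega),
        Option.some.injEq] at hb
      rw [ha, hb]
      exact hab
  have hs : ∀ v ∈ l, ∃ i, f i = v := by
    intro v hv
    obtain ⟨j, hj, rfl⟩ := List.getElem_of_mem hv
    exact ⟨j, hf j j hj (Int.emod_eq_of_lt (by omega) (by omega))⟩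
  refine ⟨l.length, f, by omega, ⟨hadj, hinj⟩, fun i => hH _ (List.getElem_mem _), fun h3 => ?_⟩
  obtain ⟨p, rfl⟩ := hs e he
  have : ∃ v ∈ H, G.Adj (f p) v ∧ v ∉ ({f p, f (p + 1), f (p - 1)} : Finset V) := by
    by_contra hc
    push Not at hc
    have h1 := hT.exp {f p} {f p, f (p + 1), f (p - 1)} (by simp) (by simpa using hH _ he)
      (by intro a ha b hb; simp at ha hb; subst ha hb; simp) (by simp)
      (by intro u hu v hv h; simp only [Finset.mem_singleton] at hu; subst hu; exact hc v hv h)
    have h2 : ({f p, f (p + 1), f (p - 1)} : Finset V).card ≤ 3 := Finset.card_le_three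
    simp only [Finset.card_singleton] at h1
    omega
  obtain ⟨v, hv, hpv, hvn⟩ := this
  obtain ⟨j, rfl⟩ := hs v (hN v hv hpv)
  simp only [Finset.mem_insert, Finset.mem_singleton, not_or] at hvn
  have h1 := Int.emod_lt_of_pos (j - p) hn
  have h2 := Int.emod_nonneg (j - p) hn.ne'
  have h4 : f j = f (p + (j - p) % l.length) := by
    rw [hinj]
    refine ⟨(j - p) / l.length, ?_⟩
    have := Int.mul_ediv_add_emod (j - p) l.length
    omega
  refine ⟨p, (j - p) % l.length, ?_, ?_, h4 ▸ hpv⟩
  · by_contra hc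
    have : (j - p) % l.length = 0 ∨ (j - p) % l.length = 1 := by omega
    rcases this with h | h
    · exact hvn.1 (by rw [h4, h, add_zero])
    · exact hvn.2.1 (by rw [h4, h])
  · by_contra hc
    refine hvn.2.2 (h4.trans ((hinj _ _).2 ⟨1, by omega⟩))

end Vale.Agent.P048
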