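import Mathlib

namespace Vale.Agent.P048

/-- `Arrows m n N`: every red-blue colouring of the edges of the complete graph on `N` vertices
(`G` is the graph of red edges, its complement `Gᶜ` the graph of blue edges) contains a red copy of
the cycle on exactly `m` vertices or a blue copy of the complete graph on `n` vertices
(copies need not be induced). -/
def Arrows (m n N : ℕ) : Prop :=
  ∀ G : SimpleGraph (Fin N),
    (SimpleGraph.cycleGraph m).IsContained G ∨ (⊤ : SimpleGraph (Fin n)).IsContained Gᶜ

end Vale.Agent.P048
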