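import Vale.Agent.P048.Spec

namespace Vale.Agent.P048

namespace Delm

theorem aux {V : Type} [DecidableEq V] {G : SimpleGraph V} {Q : Finset V} (hS : StrApi Q)
    (hQ : Clq G Q) (ν : ℕ) {R : List ℕ} {W : List V} (h : Str Q R W) :
    W.Nodup → W.IsChain G.Adj → ∃ W' : List V, W'.Sublist W ∧ W'.head? = W.head? ∧
      W'.IsChain G.Adj ∧ (∀ q ∈ Q, q ∈ W → q ∈ W') ∧
      Str Q (R.map fun l => if ν ≤ l then l else 0) W' := by
  induction h with
  | one q hq => exact fun _ hc => ⟨[q], List.Sublist.refl _, rfl, hc, fun _ _ h => h, Str.one q hq⟩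
  | cons q P R W hq hP hW ih =>
    intro hn hc
    rw [← List.cons_append, List.isChain_append] at hc
    have hn' := List.nodup_cons.1 hn
    obtain ⟨W', h1, h2, h3, h4, h5⟩ := ih (List.nodup_append.1 hn'.2).2.1 hc.2.1
    by_cases hν : ν ≤ P.length
    · refine ⟨q :: (P ++ W'), (h1.append_left P).cons_cons q, rfl, ?_, fun x hx hxW => ?_, ?_⟩
      · rw [← List.cons_append, List.isChain_append, h2]
        exact ⟨hc.1, h3, hc.2.2⟩
      · simp only [List.mem_cons, List.mem_append] at hxW ⊢
        exact hxW.imp_right fun h => h.imp_right (h4 x hx)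
      · rw [List.map_cons, if_pos hν]
        exact Str.cons q P _ W' hq hP h5
    · refine ⟨q :: W', (h1.trans (List.sublist_append_right P W)).cons_cons q, rfl, ?_,
        fun x hx hxW => ?_, ?_⟩
      · rw [List.isChain_cons, h2]
        refine ⟨fun y hy => ?_, h3⟩
        obtain ⟨a, ha, haQ⟩ := hS.head R W hW
        obtain rfl : a = y := Option.mem_unique ha hy
        refine hQ q hq a haQ ?_
        rintro rfl
        exact hn'.1 (List.mem_append_right _ (List.mem_of_mem_head? ha))
      · simp only [List.mem_cons, List.mem_append] at hxW ⊢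
        rcases hxW with h | h | h
        · exact Or.inl h
        · exact absurd hx (hP x h)
        · exact Or.inr (h4 x hx h)
      · rw [List.map_cons, if_neg hν]
        exact Str.cons q [] _ W' hq (by simp) h5

end Delm

theorem stmtDel (hS : StmtStr) : StmtDel := by
  intro V _ G Q W R ν hQ hW hR
  obtain ⟨W', h1, -, h3, h4, h5⟩ := Delm.aux (hS V Q) hQ ν hR hW.1 hW.2.1
  exact ⟨W', ⟨hW.1.sublist h1, h3, (hS V Q).head _ _ h5, (hS V Q).last _ _ h5⟩, h4, h5⟩

end Vale.Agent.P048
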