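import Vale.Agent.P048.Spec

namespace Vale.Agent.P048

theorem Earm.full {V : Type} [DecidableEq V] (Q : Finset V) (W : List V) (h : ∀ q ∈ Q, q ∈ W) :
    outer Q W + Q.card ≤ W.length := by
  have h1 := List.length_eq_countP_add_countP (fun v => decide (v ∉ Q)) (l := W)
  have h2 : Q.card ≤ W.countP fun a => decide ¬(decide (a ∉ Q) = true) := by
    rw [List.countP_eq_length_filter]
    refine le_trans (Finset.card_le_card fun q hq => ?_) (List.toFinset_card_le _)
    simp [hq, h q hq]
  unfold outer
  omega

theorem stmtEar : StmtEar := by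
  intro V _ G k Q W hk hn hQ hW hl ho
  obtain ⟨j, hj⟩ : ∃ j, W.length + j = k + 1 := ⟨k + 1 - W.length, by omega⟩
  induction j generalizing W with
  | zero => exact qp_cyc hk hn hQ hW hj
  | succ j ih =>
    have : ∃ q ∈ Q, q ∉ W := by
      by_contra hc
      push Not at hc
      have := Earm.full Q W hc
      omega
    obtain ⟨q, hq, hqW⟩ := this
    obtain ⟨h1, h2, ⟨a, ha, haQ⟩, b, hb, hbQ⟩ := hW
    refine ih (q :: W) ⟨List.nodup_cons.2 ⟨hqW, h1⟩, ?_, ⟨q, by simp, hq⟩, b, ?_, hbQ⟩
      (by simp; omega) (by simpa [outer, hq] using ho) (by simp; omega)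
    · cases W with
      | nil => simp
      | cons x t =>
        simp only [List.head?_cons, Option.mem_def, Option.some.injEq] at ha
        subst ha
        refine List.isChain_cons_cons.2 ⟨hQ q hq x haQ ?_, h2⟩
        rintro rfl
        simp at hqW
    · cases W with
      | nil => simp at ha
      | cons x t => simpa using hb

end Vale.Agent.P048
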