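import Vale.Agent.P048.Spec

namespace Vale.Agent.P048

namespace Freem

variable {V : Type} {Q : Finset V}

theorem hd {R : List ℕ} {W : List V} (h : Str Q R W) : ∀ q ∈ W.head?, q ∈ Q := by
  cases h <;> simpa

theorem find {R : List ℕ} {W : List V} (h : Str Q R W) : ∀ b : ℕ, b ≤ 1 →
    2 * tc R + b < R.length + 1 → ∃ A f C, W = A ++ f :: C ∧ f ∈ Q ∧ (A = [] → b = 0) ∧
      (∀ q ∈ A.getLast?, q ∈ Q) ∧ ∀ q ∈ C.head?, q ∈ Q := by
  induction h with
  | one q hq =>
    intro b _ hb
    exact ⟨[], q, [], rfl, hq, fun _ => by simp at hb; omega, by simp, by simp⟩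
  | cons q P R W hq hP hS ih =>
    intro b hb1 hb
    cases P with
    | nil =>
      have e : tc (0 :: R) = tc R := by simp [tc, nz]
      simp only [List.length_nil, e, List.length_cons] at hb
      by_cases c : b = 0
      · exact ⟨[], q, W, rfl, hq, fun _ => c, by simp, hd hS⟩
      · obtain ⟨A, f, C, rfl, h1, -, h2, h3⟩ := ih 0 (by omega) (by omega)
        refine ⟨q :: A, f, C, by simp, h1, by simp, ?_, h3⟩
        cases A with
        | nil => simpa
        | cons a A => simpa using h2
    | cons p P =>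
      have e : tc ((P.length + 1) :: R) = tc R + 1 := by simp [tc, nz]
      simp only [e, List.length_cons] at hb
      obtain ⟨A, f, C, rfl, h1, h4, h2, h3⟩ := ih 1 le_rfl (by omega)
      refine ⟨q :: (p :: P ++ A), f, C, by simp, h1, by simp, ?_, h3⟩
      cases A with
      | nil => simp at h4
      | cons a A =>
        intro x hx
        refine h2 x ?_
        rwa [← List.cons_append, List.getLast?_append_cons] at hx

theorem root {A C : List V} {f r : V} (hA : ∀ q ∈ A.getLast?, q ∈ Q)
    (h : Root Q (A ++ f :: C) r) (hr : r ≠ f) : Root Q (A ++ C) r := by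
  obtain ⟨A', C', e, h⟩ := h
  rcases List.append_eq_append_iff.1 e with ⟨X, rfl, e2⟩ | ⟨X, rfl, e2⟩
  · cases X with
    | nil => exact absurd (List.cons.inj e2).1.symm hr
    | cons x X =>
      obtain ⟨rfl, rfl⟩ := List.cons.inj e2
      refine ⟨A ++ X, C', by simp, ?_⟩
      cases X with
      | nil => simpa using hA
      | cons y X => simpa [List.getLast?_append_cons] using h
  · cases X with
    | nil => exact absurd (List.cons.inj e2).1 hr
    | cons x X =>
      obtain ⟨rfl, rfl⟩ := List.cons.inj e2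
      exact ⟨A', X ++ C, by simp, h⟩

end Freem

theorem stmtFree : StmtFree := by
  intro V _ G Q W R hQ hW hS ht
  obtain ⟨A, f, C, rfl, h1, -, h2, h3⟩ := Freem.find hS 0 (by omega) (by omega)
  refine ⟨f, h1, ⟨A, C, rfl, h2⟩, fun r r' hr hr' e e' => ⟨A ++ C, ?_, List.perm_middle,
    Freem.root h2 hr e, Freem.root h2 hr' e'⟩⟩
  have hm := (Freem.root h2 hr e).mem
  obtain ⟨n1, n2, ⟨a, ha, haQ⟩, b, hb, hbQ⟩ := hW
  have n3 : (A ++ C).Nodup := (List.nodup_cons.1 (List.perm_middle.nodup_iff.1 n1)).2
  rw [List.isChain_append] at n2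
  refine ⟨n3, List.isChain_append.2 ⟨n2.1, n2.2.1.tail, fun x hx y hy => ?_⟩, ?_, ?_⟩
  · refine hQ x (h2 x hx) y (h3 y hy) ?_
    exact (List.nodup_append.1 n3).2.2 x (List.mem_of_getLast? hx) y (List.mem_of_head? hy)
  · cases A with
    | nil =>
      cases C with
      | nil => simp at hm
      | cons c C => exact ⟨c, by simp, h3 c (by simp)⟩
    | cons x A => exact ⟨a, by simpa using ha, haQ⟩
  · cases C with
    | nil =>
      rw [List.append_nil] at hm ⊢
      obtain ⟨x, hx⟩ := Option.isSome_iff_exists.1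
        (List.getLast?_isSome.2 (List.ne_nil_of_mem hm))
      exact ⟨x, hx, h2 x hx⟩
    | cons c C => exact ⟨b, by simpa [List.getLast?_append_cons] using hb, hbQ⟩

end Vale.Agent.P048
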