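import Vale.Agent.P048.Spec

namespace Vale.Agent.P048

theorem stmtFull (hEar : StmtEar) (hShort : StmtShort) : StmtFull := by
  classical
  intro V _ _ G k Q hk hn hp hQ hOm hc
  have far : ∀ r ∈ Q, ∀ r' ∈ Q, r ≠ r' → ¬ Near G Q.toList r r' 3 := by
    rintro r hr r' hr' hne ⟨E, hE, hl⟩
    obtain ⟨E', hE', hl', -⟩ := hShort V G _ r r' E hE
    have hpos := hE'.pos
    obtain ⟨h1, h2, h3, ⟨a, ha, hra⟩, b, hb, hbr⟩ := hE'
    have h3' : ∀ e ∈ E', e ∉ Q := fun e he h => h3 e he (Finset.mem_toList.2 h)
    refine hEar V G k Q (r :: (E' ++ [r'])) (by omega) hn hQ ⟨?_, ?_, ⟨r, by simp, hr⟩, r', ?_, hr'⟩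
      (by simp; omega) ?_
    · refine List.nodup_cons.2 ⟨?_, List.nodup_append.2 ⟨h1, by simp, fun x hx y hy e => ?_⟩⟩
      · simp only [List.mem_append, List.mem_singleton, not_or]
        exact ⟨fun h => h3' r h hr, hne⟩
      · rw [List.mem_singleton] at hy
        exact h3' x hx (by rw [e, hy]; exact hr')
    · rw [List.isChain_cons, List.isChain_append]
      refine ⟨fun y hy => ?_, h2, by simp, fun x hx y hy => ?_⟩
      · rw [Option.mem_unique hy (List.mem_head?_append_of_mem_head? ha)]; exact hra
      · rw [Option.mem_unique hx hb, Option.mem_unique hy (rfl : r' ∈ [r'].head?)]; exact hbr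
    · rw [← List.cons_append, List.getLast?_append]; simp
    · have : 0 < outer Q (r :: (E' ++ [r'])) := by
        rw [outer, List.countP_pos_iff]
        have := List.mem_of_mem_head? ha
        exact ⟨a, by simp [this], by simpa using h3' a this⟩
      omega
  have hlen : Q.toList.length ≤ k := by rw [Finset.length_toList, hc]
  have hex : ∀ r : V, ∃ u, r ∈ Q → M1 G Q.toList r u := fun r => by
    by_cases hr : r ∈ Q
    · exact (m1_ex hp hlen (Finset.mem_toList.2 hr)).imp fun _ h _ => h
    · exact ⟨r, fun h => absurd h hr⟩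
  choose u hu using hex
  obtain ⟨r0, hr0⟩ : Q.Nonempty := Finset.card_pos.1 (by omega)
  obtain ⟨a, b, hab, hnab, hM⟩ : ∃ a b, a ≠ b ∧ ¬ G.Adj a b ∧
      ∀ x ∈ ({a, b} : Finset V), x = r0 ∨ M2 G Q.toList r0 x := by
    by_cases hN : NC2 G Q.toList r0
    · obtain ⟨a, b, ha, hb, h1, h2⟩ := hN
      refine ⟨a, b, h1, h2, fun x hx => Or.inr ?_⟩
      rcases Finset.mem_insert.1 hx with rfl | hx
      · exact ha
      · rw [Finset.mem_singleton.1 hx]; exact hb
    · by_contra hno
      let D := insert r0 (Finset.univ.filter (M2 G Q.toList r0))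
      have hD : ∀ x ∈ D, x = r0 ∨ M2 G Q.toList r0 x := fun x hx => by simpa [D] using hx
      have h1 := hp.deg (u r0) D (by simp [D, (hu r0 hr0).m2]) fun w hw => by
        by_cases hwQ : w ∈ Q
        · have : r0 = w := by
            by_contra hne
            exact far r0 hr0 w hwQ hne ((near1 (hu r0 hr0) hw).mono (by norm_num))
          simp [D, this]
        · have : M2 G Q.toList r0 w := ⟨by simpa using hwQ, Or.inr ⟨_, (hu r0 hr0).1,
            (hu r0 hr0).2, hw⟩⟩
          simp [D, this]
      have h2 := hOm D fun x hx y hy hxy => by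
        by_contra hna
        refine hno ⟨x, y, hxy, hna, fun z hz => hD z ?_⟩
        rcases Finset.mem_insert.1 hz with rfl | hz
        · exact hx
        · rw [Finset.mem_singleton.1 hz]; exact hy
      omega
  have sep : ∀ r ∈ Q, r ≠ r0 → ∀ x ∈ ({a, b} : Finset V), x ≠ u r ∧ ¬ G.Adj x (u r) := by
    intro r hr hne x hx
    rcases hM x hx with rfl | h
    · exact ⟨fun e => (hu r hr).1 (e ▸ Finset.mem_toList.2 hr0),
        fun h => far r hr x hr0 hne ((near1 (hu r hr) h.symm).mono (by norm_num))⟩
    · exact not_or.1 fun h' => far r0 hr0 r hr hne.symm (near21 h (hu r hr) h')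
  obtain ⟨I, hI, hcard⟩ := asm (G := G) Q (fun r => if r = r0 then {a, b} else {u r})
    (fun r _ => by
      split_ifs
      · exact ind_pair hnab
      · simpa using ind_pair (G := G) (u := u r) (u' := u r) G.irrefl)
    (fun r hr r' hr' hne x hx y hy => by
      by_cases h : r = r0
      · have h' : r' ≠ r0 := fun e => hne (h.trans e.symm)
        rw [if_pos h] at hx
        rw [if_neg h', Finset.mem_singleton] at hy
        rw [hy]; exact sep r' hr' h' x hx
      · rw [if_neg h, Finset.mem_singleton] at hx
        by_cases h' : r' = r0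
        · rw [if_pos h'] at hy
          rw [hx]
          exact (sep r hr h y hy).imp Ne.symm fun e e' => e e'.symm
        · rw [if_neg h', Finset.mem_singleton] at hy
          rw [hx, hy]
          exact not_or.1 fun e => far r hr r' hr' hne
            ((near11 (hu r hr) (hu r' hr') e).mono (by norm_num)))
  refine ⟨I, hI, ?_⟩
  rw [hcard, ← Finset.add_sum_erase _ _ hr0, if_pos rfl, Finset.card_pair hab,
    Finset.sum_congr rfl (g := fun _ => 1) fun r hr => by
      rw [if_neg (Finset.ne_of_mem_erase hr), Finset.card_singleton]]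
  simp only [Finset.sum_const, smul_eq_mul, mul_one, Finset.card_erase_of_mem hr0]
  omega

end Vale.Agent.P048
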