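import Vale.Agent.P048.Spec

namespace Vale.Agent.P048

theorem stmtInd (hC : StmtCore) : StmtInd := by
  intro k a hk
  induction a using Nat.strong_induction_on with
  | _ a ih =>
  intro ha V _ _ G hn hI
  by_contra hc
  have hpos : 0 < Fintype.card V := by omega
  obtain ⟨v⟩ := Fintype.card_pos_iff.1 hpos
  have hp : P2 G k := by
    intro I U hne hind hIU hU
    have h1 := hI I hind
    have h2 := hne.card_pos
    have key := ih (a - I.card) (by omega) (by omega) {x // x ∉ U}
      (G.comap Subtype.val) (by
        intro l h1 h2 h3 x hx y hy
        refine hn (l.map Subtype.val) (h1.map Subtype.val_injective) ?_ (by simpa using h3) x.1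
          (by rw [List.head?_map, Option.mem_def, hx]; rfl) y.1
          (by rw [List.getLast?_map, Option.mem_def, hy]; rfl)
        rw [List.isChain_map]
        exact h2) (by
        intro J hJ
        have hd : Disjoint I (J.map ⟨Subtype.val, Subtype.val_injective⟩) := by
          rw [Finset.disjoint_left]
          intro x hx hx'
          obtain ⟨y, -, rfl⟩ := Finset.mem_map.1 hx'
          exact y.2 (hIU hx)
        have := hI (I ∪ J.map ⟨Subtype.val, Subtype.val_injective⟩) (by
          intro x hx y hy hxy
          rcases Finset.mem_union.1 hx with hx | hx <;> rcases Finset.mem_union.1 hy with hy | hy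
          · exact hind x hx y hy hxy
          · obtain ⟨y', -, rfl⟩ := Finset.mem_map.1 hy
            exact y'.2 (hU x hx _ hxy)
          · obtain ⟨x', -, rfl⟩ := Finset.mem_map.1 hx
            exact x'.2 (hU y hy _ hxy.symm)
          · obtain ⟨x', hx', rfl⟩ := Finset.mem_map.1 hx
            obtain ⟨y', hy', rfl⟩ := Finset.mem_map.1 hy
            exact hJ x' hx' y' hy' hxy)
        rw [Finset.card_union_of_disjoint hd, Finset.card_map] at this
        omega)
    have e : Fintype.card {x // x ∉ U} = Fintype.card V - U.card := by
      rw [Fintype.card_subtype_compl]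
      simp
    have e2 : k * a = k * (a - I.card) + k * I.card := by
      rw [← Nat.mul_add]
      congr 1
      omega
    have := U.card_le_univ
    omega
  obtain ⟨I, h1, h2⟩ := hC V G k v hk hn hp
  have := hI I h1
  omega

end Vale.Agent.P048
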