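import Vale.Agent.P048.Spec

namespace Vale.Agent.P048

namespace K3m
variable {V : Type} {G : SimpleGraph V}

/-- no four-cycle -/
def C4 (G : SimpleGraph V) : Prop := ∀ a b c d, G.Adj a b → G.Adj b c → G.Adj c d → G.Adj d a →
  a ≠ c → b ≠ d → False

/-- no independent set of size four -/
def I4 (G : SimpleGraph V) : Prop := ∀ a b c d, a ≠ b → a ≠ c → a ≠ d → b ≠ c → b ≠ d → c ≠ d →
  ¬ G.Adj a b → ¬ G.Adj a c → ¬ G.Adj a d → ¬ G.Adj b c → ¬ G.Adj b d → ¬ G.Adj c d → False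

/-- all degrees are at least three -/
def D3 (G : SimpleGraph V) : Prop := ∀ v x y, ∃ w, G.Adj v w ∧ w ≠ x ∧ w ≠ y

def Tri (G : SimpleGraph V) (a b c : V) : Prop := G.Adj a b ∧ G.Adj b c ∧ G.Adj a c

def M (G : SimpleGraph V) (a b c x : V) : Prop := G.Adj a x ∧ x ≠ b ∧ x ≠ c

theorem Tri.s12 {a b c : V} (h : Tri G a b c) : Tri G b a c := ⟨h.1.symm, h.2.2, h.2.1⟩

theorem Tri.s23 {a b c : V} (h : Tri G a b c) : Tri G a c b := ⟨h.2.2, h.2.1.symm, h.1⟩

theorem M.s {a b c x : V} (h : M G a b c x) : M G a c b x := ⟨h.1, h.2.2, h.2.1⟩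

theorem nadj (h4 : C4 G) {a b c x : V} (T : Tri G a b c) (hx : M G a b c x) : ¬ G.Adj b x :=
  fun h => h4 x a c b hx.1.symm T.2.2 T.2.1.symm h hx.2.2 T.1.ne

theorem anti (h4 : C4 G) {a b x y : V} (T : G.Adj a b) (hx : G.Adj a x) (hxb : x ≠ b)
    (hy : G.Adj b y) (hya : y ≠ a) : ¬ G.Adj x y :=
  fun h => h4 x a b y hx.symm T hy h.symm hxb hya.symm

theorem rule (h4 : C4 G) (hI : I4 G) {a b c u1 u2 u3 d : V} (T : Tri G a b c)
    (h1 : M G a b c u1) (h2 : M G b a c u2) (h3 : M G c a b u3) (hd : G.Adj u1 d) (hda : d ≠ a)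
    (hn : ¬ G.Adj a d) : G.Adj d u2 ∨ G.Adj d u3 := by
  by_contra hc
  rw [not_or] at hc
  have a12 := anti h4 T.1 h1.1 h1.2.1 h2.1 h2.2.1
  have a13 := anti h4 T.2.2 h1.1 h1.2.2 h3.1 h3.2.1
  have a23 := anti h4 T.2.1 h2.1 h2.2.2 h3.1 h3.2.2
  have n2 := nadj h4 T.s12 h2
  have n3 := nadj h4 T.s23.s12 h3
  have n23 := nadj h4 T.s12.s23 h2.s
  refine hI a d u2 u3 hda.symm h2.2.1.symm h3.2.1.symm ?_ ?_ ?_ hn n2 n3 hc.1 hc.2 a23
  · rintro rfl; exact a12 hd
  · rintro rfl; exact a13 hd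
  · rintro rfl; exact n23 h3.1

theorem clq (h4 : C4 G) (hI : I4 G) (hD : D3 G) {a b c x y : V} (T : Tri G a b c)
    (hx : M G a b c x) (hy : M G a b c y) (hxy : x ≠ y) : G.Adj x y := by
  by_contra hn
  obtain ⟨u2, h2⟩ : ∃ u, M G b a c u := hD b a c
  obtain ⟨u3, h3⟩ : ∃ u, M G c a b u := hD c a b
  have n2 := nadj h4 T.s12 h2
  have n3 := nadj h4 T.s23.s12 h3
  have n23 := nadj h4 T.s12.s23 h2.s
  refine hI x y u2 u3 hxy ?_ ?_ ?_ ?_ ?_ hn (anti h4 T.1 hx.1 hx.2.1 h2.1 h2.2.1)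
    (anti h4 T.2.2 hx.1 hx.2.2 h3.1 h3.2.1) (anti h4 T.1 hy.1 hy.2.1 h2.1 h2.2.1)
    (anti h4 T.2.2 hy.1 hy.2.2 h3.1 h3.2.1) (anti h4 T.2.1 h2.1 h2.2.2 h3.1 h3.2.2)
  · rintro rfl; exact n2 hx.1
  · rintro rfl; exact n3 hx.1
  · rintro rfl; exact n2 hy.1
  · rintro rfl; exact n3 hy.1
  · rintro rfl; exact n23 h3.1

theorem both (h4 : C4 G) (hI : I4 G) (hD : D3 G) {a b c x y u2 u3 : V} (T : Tri G a b c)
    (hx : M G a b c x) (hy : M G a b c y) (hxy : G.Adj x y) (h2 : M G b a c u2)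
    (h3 : M G c a b u3) : ∃ d, G.Adj x d ∧ ¬ G.Adj d y ∧ G.Adj d u2 ∧ G.Adj d u3 := by
  obtain ⟨d, hd, hda, hdy⟩ := hD x a y
  have hn : ¬ G.Adj a d := fun h => h4 d x y a hd.symm hxy hy.1.symm h hdy hx.1.ne.symm
  have hny : ¬ G.Adj d y := fun h => h4 x d y a hd h hy.1.symm hx.1 hxy.ne hda
  have hdb : d ≠ b := by rintro rfl; exact nadj h4 T hx hd.symm
  have hdc : d ≠ c := by rintro rfl; exact nadj h4 T.s23 hx.s hd.symm
  have hnb : ¬ G.Adj b d := fun h => anti h4 T.1 hx.1 hx.2.1 h hda hd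
  have hnc : ¬ G.Adj c d := fun h => anti h4 T.2.2 hx.1 hx.2.2 h hda hd
  refine ⟨d, hd, hny, ?_⟩
  rcases rule h4 hI T hx h2 h3 hd hda hn with h | h
  · exact ⟨h, (rule h4 hI T.s12 h2 hy h3.s h.symm hdb hnb).resolve_left hny⟩
  · exact ⟨(rule h4 hI T.s23.s12 h3 hy.s h2.s h.symm hdc hnc).resolve_left hny, h⟩

theorem two (h4 : C4 G) (hI : I4 G) (hD : D3 G) {a b c x y : V} (T : Tri G a b c)
    (hx : M G a b c x) (hy : M G a b c y) : x = y := by
  by_contra hxy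
  have hadj := clq h4 hI hD T hx hy hxy
  obtain ⟨u2, h2⟩ : ∃ u, M G b a c u := hD b a c
  obtain ⟨u3, h3⟩ : ∃ u, M G c a b u := hD c a b
  obtain ⟨d, -, d2, d3, d4⟩ := both h4 hI hD T hx hy hadj h2 h3
  obtain ⟨e, e1, -, e3, e4⟩ := both h4 hI hD T hy hx hadj.symm h2 h3
  refine h4 u2 d u3 e d3.symm d4 e4.symm e3 ?_ ?_
  · rintro rfl; exact nadj h4 T.s12.s23 h2.s h3.1
  · rintro rfl; exact d2 e1.symm

theorem nbr (h4 : C4 G) (hI : I4 G) (hD : D3 G) {a b c u1 u2 u3 w : V} (T : Tri G a b c)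
    (h1 : M G a b c u1) (h2 : M G b a c u2) (h3 : M G c a b u3) (hw : G.Adj u1 w) :
    w = a ∨ G.Adj w u2 ∨ G.Adj w u3 := by
  by_cases hwa : w = a
  · exact Or.inl hwa
  refine Or.inr (rule h4 hI T h1 h2 h3 hw hwa fun h => ?_)
  have hb : w ≠ b := by rintro rfl; exact nadj h4 T h1 hw.symm
  have hc : w ≠ c := by rintro rfl; exact nadj h4 T.s23 h1.s hw.symm
  exact hw.ne (two h4 hI hD T h1 ⟨h, hb, hc⟩)

theorem notri (h4 : C4 G) (hI : I4 G) (hD : D3 G) (v : V) : ∃ a b c, Tri G a b c := by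
  by_contra hc
  have ht : ∀ a b c, G.Adj a b → G.Adj b c → ¬ G.Adj a c :=
    fun a b c h1 h2 h3 => hc ⟨a, b, c, h1, h2, h3⟩
  obtain ⟨u, hu, -, -⟩ := hD v v v
  obtain ⟨a, ha, hau, -⟩ := hD v u u
  obtain ⟨a', ha', hau', haa⟩ := hD v u a
  obtain ⟨b, hb, hbv, -⟩ := hD u v v
  obtain ⟨b', hb', hbv', hbb⟩ := hD u v b
  refine hI a a' b b' haa.symm ?_ ?_ ?_ ?_ hbb.symm (ht a v a' ha.symm ha')
    (anti h4 hu ha hau hb hbv) (anti h4 hu ha hau hb' hbv') (anti h4 hu ha' hau' hb hbv)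
    (anti h4 hu ha' hau' hb' hbv') (ht b u b' hb.symm hb')
  · rintro rfl; exact ht v u a hu hb ha
  · rintro rfl; exact ht v u a hu hb' ha
  · rintro rfl; exact ht v u a' hu hb ha'
  · rintro rfl; exact ht v u a' hu hb' ha'

theorem common [Fintype V] [DecidableEq V] (h4 : C4 G) {x y : V} (hxy : x ≠ y) :
    ∃ C : Finset V, C.card ≤ 1 ∧ ∀ w, G.Adj x w → G.Adj w y → w ∈ C := by
  classical
  refine ⟨Finset.univ.filter (fun w => G.Adj x w ∧ G.Adj w y), ?_, fun w h1 h2 => by simp [h1, h2]⟩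
  rw [Finset.card_le_one]
  intro a ha b hb
  simp only [Finset.mem_filter, Finset.mem_univ, true_and] at ha hb
  by_contra hab
  exact h4 x a y b ha.1 ha.2 hb.2.symm hb.1.symm hxy hab

end K3m

open K3m in
theorem stmtK3 : StmtK3 := by
  intro V _ _ G v hn hP
  have h4 : C4 G := by
    intro a b c d h1 h2 h3 h4 hac hbd
    refine hn [a, b, c, d] ?_ (by simp [h1, h2, h3]) rfl a (by simp) d (by simp) h4
    simp [h1.ne, h2.ne, h3.ne, h4.ne.symm, hac, hbd]
  have hD : D3 G := by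
    intro v x y
    by_contra hc
    have := hP.deg v {v, x, y} (by simp) (by
      intro w hw
      by_contra hw'
      simp only [Finset.mem_insert, Finset.mem_singleton, not_or] at hw'
      exact hc ⟨w, hw, hw'.2.1, hw'.2.2⟩)
    have h3 : ({v, x, y} : Finset V).card ≤ 3 := Finset.card_le_three
    omega
  by_contra hB
  have hI : I4 G := by
    intro a b c d e1 e2 e3 e4 e5 e6 n1 n2 n3 n4 n5 n6
    refine hB ⟨{a, b, c, d}, ?_, ?_⟩
    · intro x hx y hy
      simp only [Finset.mem_insert, Finset.mem_singleton] at hx hy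
      rcases hx with rfl | rfl | rfl | rfl <;> rcases hy with rfl | rfl | rfl | rfl <;>
        first
          | exact G.irrefl
          | assumption
          | (intro h; have h' := h.symm; contradiction)
    · rw [Finset.card_insert_of_notMem (by simp [e1, e2, e3]),
        Finset.card_insert_of_notMem (by simp [e4, e5]), Finset.card_pair e6]
  obtain ⟨a, b, c, T⟩ := notri h4 hI hD v
  obtain ⟨u1, h1⟩ : ∃ u, M G a b c u := hD a b c
  obtain ⟨u2, h2⟩ : ∃ u, M G b a c u := hD b a c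
  obtain ⟨u3, h3⟩ : ∃ u, M G c a b u := hD c a b
  have e12 : u1 ≠ u2 := by rintro rfl; exact nadj h4 T h1 h2.1
  have e13 : u1 ≠ u3 := by rintro rfl; exact nadj h4 T.s23 h1.s h3.1
  have e23 : u2 ≠ u3 := by rintro rfl; exact nadj h4 T.s12.s23 h2.s h3.1
  have a12 := anti h4 T.1 h1.1 h1.2.1 h2.1 h2.2.1
  have a13 := anti h4 T.2.2 h1.1 h1.2.2 h3.1 h3.2.1
  have a23 := anti h4 T.2.1 h2.1 h2.2.2 h3.1 h3.2.2
  obtain ⟨C12, c12, d12⟩ := common h4 e12
  obtain ⟨C13, c13, d13⟩ := common h4 e13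
  obtain ⟨C23, c23, d23⟩ := common h4 e23
  have key := hP {u1, u2, u3} (({u1, u2, u3} ∪ {a, b, c}) ∪ ((C12 ∪ C13) ∪ C23)) (by simp)
    (by
      intro x hx y hy
      simp only [Finset.mem_insert, Finset.mem_singleton] at hx hy
      rcases hx with rfl | rfl | rfl <;> rcases hy with rfl | rfl | rfl <;>
        first
          | exact G.irrefl
          | assumption
          | (intro h; have h' := h.symm; contradiction))
    (fun x hx => Finset.mem_union_left _ (Finset.mem_union_left _ hx))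
    (by
      intro x hx w hw
      simp only [Finset.mem_insert, Finset.mem_singleton] at hx
      rcases hx with rfl | rfl | rfl
      · rcases nbr h4 hI hD T h1 h2 h3 hw with rfl | h | h
        · simp
        · simp [d12 w hw h]
        · simp [d13 w hw h]
      · rcases nbr h4 hI hD T.s12 h2 h1 h3.s hw with rfl | h | h
        · simp
        · simp [d12 w h.symm hw.symm]
        · simp [d23 w hw h]
      · rcases nbr h4 hI hD T.s23.s12 h3 h1.s h2.s hw with rfl | h | h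
        · simp
        · simp [d13 w h.symm hw.symm]
        · simp [d23 w h.symm hw.symm])
  have k1 : ({u1, u2, u3} : Finset V).card = 3 := by
    rw [Finset.card_insert_of_notMem (by simp [e12, e13]), Finset.card_pair e23]
  have k2 : ({a, b, c} : Finset V).card ≤ 3 := Finset.card_le_three
  have k3 := Finset.card_union_le (({u1, u2, u3} : Finset V) ∪ {a, b, c}) ((C12 ∪ C13) ∪ C23)
  have k4 := Finset.card_union_le ({u1, u2, u3} : Finset V) {a, b, c}
  have k5 := Finset.card_union_le (C12 ∪ C13) C23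
  have k6 := Finset.card_union_le C12 C13
  omega

end Vale.Agent.P048
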