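import Vale.Agent.P048.Spec

namespace Vale.Agent.P048

namespace K4m

variable {V : Type} {G : SimpleGraph V}

theorem c5 (h : NoCyc G 4) {a b c d e : V} (h1 : G.Adj a b) (h2 : G.Adj b c) (h3 : G.Adj c d)
    (h4 : G.Adj d e) (h5 : G.Adj e a) (n1 : a ≠ c) (n2 : a ≠ d) (n3 : b ≠ d) (n4 : b ≠ e)
    (n5 : c ≠ e) : False := by
  refine h [a, b, c, d, e] ?_ ?_ rfl a (by simp) e (by simp) h5
  · simp [h1.ne, h2.ne, h3.ne, h4.ne, h5.ne', n1, n2, n3, n4, n5]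
  · simp [h1, h2, h3, h4]

/-- distinct and nonadjacent -/
def Sep (G : SimpleGraph V) (a b : V) : Prop := a ≠ b ∧ ¬ G.Adj a b

theorem Sep.symm {a b : V} (h : Sep G a b) : Sep G b a := ⟨h.1.symm, fun e => h.2 e.symm⟩

theorem big5 [DecidableEq V] {a b c d e : V} (ab : Sep G a b) (ac : Sep G a c) (ad : Sep G a d)
    (ae : Sep G a e) (bc : Sep G b c) (bd : Sep G b d) (be : Sep G b e) (cd : Sep G c d)
    (ce : Sep G c e) (de : Sep G d e) : Big G 4 := by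
  refine ⟨{a, b, c, d, e}, ?_, ?_⟩
  · intro u hu v hv
    simp only [Finset.mem_insert, Finset.mem_singleton] at hu hv
    rcases hu with rfl | rfl | rfl | rfl | rfl <;> rcases hv with rfl | rfl | rfl | rfl | rfl <;>
      first
        | exact G.irrefl
        | exact (by assumption : Sep G _ _).2
        | exact (Sep.symm (by assumption : Sep G _ _)).2
  · rw [Finset.card_insert_of_notMem (by simp [ab.1, ac.1, ad.1, ae.1]),
      Finset.card_insert_of_notMem (by simp [bc.1, bd.1, be.1]),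
      Finset.card_insert_of_notMem (by simp [cd.1, ce.1]), Finset.card_pair de.1]

theorem k4 [DecidableEq V] (h : Om G 3) {a b c d : V} (ab : G.Adj a b) (ac : G.Adj a c)
    (ad : G.Adj a d) (bc : G.Adj b c) (bd : G.Adj b d) (cd : G.Adj c d) : False := by
  have := h {a, b, c, d} (by
    intro u hu v hv huv
    simp only [Finset.mem_insert, Finset.mem_singleton] at hu hv
    rcases hu with rfl | rfl | rfl | rfl <;> rcases hv with rfl | rfl | rfl | rfl <;>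
      first
        | exact absurd rfl huv
        | assumption
        | exact G.adj_symm (by assumption))
  rw [Finset.card_insert_of_notMem (by simp [ab.ne, ac.ne, ad.ne]),
    Finset.card_insert_of_notMem (by simp [bc.ne, bd.ne]), Finset.card_pair cd.ne] at this
  omega

theorem one [DecidableEq V] (h : P2 G 4) (x s t w : V) :
    ∃ a, G.Adj x a ∧ a ≠ s ∧ a ≠ t ∧ a ≠ w := by
  by_contra hc
  push Not at hc
  have h1 := h.deg x {x, s, t, w} (by simp) (by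
    intro a ha
    by_cases e1 : a = s
    · simp [e1]
    by_cases e2 : a = t
    · simp [e2]
    simp [hc a ha e1 e2])
  have h2 : ({x, s, t, w} : Finset V).card ≤ 4 := Finset.card_le_four
  omega

/-- neighbour of `x` other than `s`, `t` -/
def Out (G : SimpleGraph V) (x s t a : V) : Prop := G.Adj x a ∧ a ≠ s ∧ a ≠ t

theorem Out.swap {x s t a : V} (h : Out G x s t a) : Out G x t s a := ⟨h.1, h.2.2, h.2.1⟩

/-- a second neighbour of `x` -/
def Ten (G : SimpleGraph V) (x s t z : V) : Prop :=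
  ∃ u, Out G x s t u ∧ G.Adj u z ∧ z ≠ x ∧ (G.Adj x z → z = s ∨ z = t)

theorem dich [DecidableEq V] (hn : NoCyc G 4) (h : P2 G 4) (ho : Om G 3) (x s t : V) :
    (∃ a a', Out G x s t a ∧ Out G x s t a' ∧ Sep G a a') ∨
      ∃ z z', Ten G x s t z ∧ Ten G x s t z' ∧ Sep G z z' := by
  by_cases hp : ∃ a a', Out G x s t a ∧ Out G x s t a' ∧ Sep G a a'
  · exact Or.inl hp
  right
  have hq : ∀ a a', Out G x s t a → Out G x s t a' → a ≠ a' → G.Adj a a' := by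
    intro a a' h1 h2 h3
    by_contra h4
    exact hp ⟨a, a', h1, h2, h3, h4⟩
  obtain ⟨u, u1, u2, u3, -⟩ := one h x s t t
  obtain ⟨u', v1, v2, v3, v4⟩ := one h x s t u
  have uu : G.Adj u u' := hq u u' ⟨u1, u2, u3⟩ ⟨v1, v2, v3⟩ v4.symm
  have key : ∀ w, G.Adj x w → w ≠ u → w ≠ u' → w = s ∨ w = t := by
    intro w hw w1 w2
    by_contra hc
    push Not at hc
    exact k4 ho u1 v1 hw uu (hq u w ⟨u1, u2, u3⟩ ⟨hw, hc⟩ w1.symm)
      (hq u' w ⟨v1, v2, v3⟩ ⟨hw, hc⟩ w2.symm)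
  obtain ⟨z, z1, z2, z3, -⟩ := one h u x u' u'
  obtain ⟨z', y1, y2, y3, y4⟩ := one h u' x u z
  refine ⟨z, z', ⟨u, ⟨u1, u2, u3⟩, z1, z2, fun e => key z e z1.ne' z3⟩,
    ⟨u', ⟨v1, v2, v3⟩, y1, y2, fun e => key z' e y3 y1.ne'⟩, y4.symm, fun e => ?_⟩
  exact c5 hn u1 z1 e y1.symm v1.symm z2.symm y2.symm y3.symm uu.ne z3

/-- a diamond -/
structure Dia (G : SimpleGraph V) (e q p r : V) : Prop where
  eq : G.Adj e q
  pe : G.Adj p e
  pq : G.Adj p q
  re : G.Adj r e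
  rq : G.Adj r q
  ne : p ≠ r
  na : ¬ G.Adj p r

theorem Dia.sw {e q p r : V} (h : Dia G e q p r) : Dia G q e p r :=
  ⟨h.eq.symm, h.pq, h.pe, h.rq, h.re, h.ne, h.na⟩

theorem Dia.fl {e q p r : V} (h : Dia G e q p r) : Dia G e q r p :=
  ⟨h.eq, h.re, h.rq, h.pe, h.pq, h.ne.symm, fun a => h.na a.symm⟩

section dia
variable {e q p r : V}

theorem d1 (hn : NoCyc G 4) (D : Dia G e q p r) {a : V} (h : Out G p e q a) : ¬ G.Adj a r :=
  fun c => c5 hn h.1 c D.re D.eq D.pq.symm D.ne D.pe.ne h.2.1 h.2.2 D.rq.ne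

theorem d1' (hn : NoCyc G 4) (D : Dia G e q p r) {a : V} (h : Out G p e q a) : ¬ G.Adj a e :=
  fun c => c5 hn h.1 c D.re.symm D.rq D.pq.symm D.pe.ne D.ne
    (fun k => D.na (k ▸ h.1)) h.2.2 D.eq.ne

theorem d2 (hn : NoCyc G 4) (D : Dia G e q p r) {a b : V} (h : Out G p e q a) (ab : G.Adj a b)
    (bp : b ≠ p) : ¬ G.Adj b r :=
  fun c => c5 hn h.1 ab c D.re D.pe.symm bp.symm D.ne (fun k => D.na (k ▸ h.1)) h.2.1
    (fun k => d1' hn D h (k ▸ ab))

theorem d2' (hn : NoCyc G 4) (D : Dia G e q p r) {a b : V} (h : Out G p e q a) (ab : G.Adj a b)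
    (bp : b ≠ p) : ¬ G.Adj b e :=
  fun c => c5 hn h.1 ab c D.eq D.pq.symm bp.symm D.pe.ne h.2.1 h.2.2
    (fun k => d1' hn D.sw h.swap (k ▸ ab))

theorem d3 (hn : NoCyc G 4) (D : Dia G e q p r) {a b c : V} (h : Out G p e q a) (ab : G.Adj a b)
    (bp : b ≠ p) (ce : G.Adj c e) (cp : c ≠ p) : ¬ G.Adj b c :=
  fun bc => c5 hn h.1 ab bc ce D.pe.symm bp.symm cp.symm (fun k => d1' hn D h (k ▸ ce)) h.2.1
    (fun k => d1' hn D h (k ▸ ab))

theorem dm (hn : NoCyc G 4) (D : Dia G e q p r) {m : V} (em : G.Adj e m) (mq : m ≠ q)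
    (mp : m ≠ p) : Sep G p m :=
  ⟨mp.symm, fun c => d1' hn D ⟨c, em.ne', mq⟩ em.symm⟩

theorem dten (hn : NoCyc G 4) (D : Dia G e q p r) {m z : V} (em : G.Adj e m) (mp : m ≠ p)
    (hz : Ten G p e q z) : Sep G p z ∧ Sep G r z ∧ Sep G m z := by
  obtain ⟨u, hu, uz, zp, hz⟩ := hz
  refine ⟨⟨zp.symm, fun c => ?_⟩, ⟨fun k => d1 hn D hu (k ▸ uz), fun c => d2 hn D hu uz zp c.symm⟩,
    fun k => d2' hn D hu uz zp (k ▸ em.symm), fun c => d3 hn D hu uz zp em.symm mp c.symm⟩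
  rcases hz c with k | k
  · exact d1' hn D hu (k ▸ uz)
  · exact d1' hn D.sw hu.swap (k ▸ uz)

theorem dhalf [DecidableEq V] (hn : NoCyc G 4) (h : P2 G 4) (D : Dia G e q p r) {z z' : V}
    (hz : Ten G p e q z) (hz' : Ten G p e q z') (zz : Sep G z z') : Big G 4 := by
  obtain ⟨m, em, mq, mp, mr⟩ := one h e q p r
  obtain ⟨a1, a2, a3⟩ := dten hn D em mp hz
  obtain ⟨b1, b2, b3⟩ := dten hn D em mp hz'
  exact big5 ⟨D.ne, D.na⟩ (dm hn D em mq mp) a1 b1 (dm hn D.fl em mq mr) a2 b2 a3 b3 zz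

theorem dab (hn : NoCyc G 4) (D : Dia G e q p r) {a b : V} (ha : Out G p e q a)
    (hb : Out G r e q b) : Sep G a b :=
  ⟨fun k => d1 hn D ha (k ▸ hb.1.symm),
   fun c => d2 hn D ha c (fun k => D.na (k ▸ hb.1.symm)) hb.1.symm⟩

theorem dam (hn : NoCyc G 4) (D : Dia G e q p r) {a m : V} (ha : Out G p e q a)
    (em : G.Adj e m) (mp : m ≠ p) : Sep G a m :=
  ⟨fun k => d1' hn D ha (k ▸ em.symm), fun c => d2' hn D ha c mp em.symm⟩

theorem diamond [DecidableEq V] (hn : NoCyc G 4) (h : P2 G 4) (ho : Om G 3)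
    (D : Dia G e q p r) : Big G 4 := by
  rcases dich hn h ho p e q with ⟨a, a', ha, ha', aa⟩ | ⟨z, z', hz, hz', zz⟩
  · rcases dich hn h ho r e q with ⟨b, b', hb, hb', bb⟩ | ⟨z, z', hz, hz', zz⟩
    · obtain ⟨m, em, mq, mp, mr⟩ := one h e q p r
      exact big5 aa (dab hn D ha hb) (dab hn D ha hb') (dam hn D ha em mp) (dab hn D ha' hb)
        (dab hn D ha' hb') (dam hn D ha' em mp) bb (dam hn D.fl hb em mr) (dam hn D.fl hb' em mr)
    · exact dhalf hn h D.fl hz hz' zz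
  · exact dhalf hn h D hz hz' zz

end dia

/-- every edge lies in at most one triangle -/
def ND (G : SimpleGraph V) : Prop :=
  ∀ e q p r, G.Adj e q → G.Adj p e → G.Adj p q → G.Adj r e → G.Adj r q → p = r

structure Tri (G : SimpleGraph V) (x y z : V) : Prop where
  xy : G.Adj x y
  yz : G.Adj y z
  xz : G.Adj x z

theorem Tri.sw {x y z : V} (h : Tri G x y z) : Tri G x z y := ⟨h.xz, h.yz.symm, h.xy⟩

theorem Tri.fl {x y z : V} (h : Tri G x y z) : Tri G y x z := ⟨h.xy.symm, h.xz, h.yz⟩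

section tri
variable {x y z : V}

theorem t1 (hd : ND G) (T : Tri G x y z) {a : V} (h : Out G x y z a) : ¬ G.Adj a y :=
  fun c => h.2.2 (hd x y a z T.xy h.1.symm c T.xz.symm T.yz.symm)

theorem t2 (hn : NoCyc G 4) (hd : ND G) (T : Tri G x y z) {a b : V} (h : Out G x y z a)
    (ab : G.Adj a b) (bx : b ≠ x) : ¬ G.Adj b y :=
  fun c => c5 hn h.1 ab c T.yz T.xz.symm bx.symm T.xy.ne h.2.1 h.2.2
    (fun k => t1 hd T.sw h.swap (k ▸ ab))

theorem t3 (hn : NoCyc G 4) (hd : ND G) (T : Tri G x y z) {a b c : V} (h : Out G x y z a)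
    (ab : G.Adj a b) (bx : b ≠ x) (cy : G.Adj c y) (cx : c ≠ x) : ¬ G.Adj b c :=
  fun bc => c5 hn h.1 ab bc cy T.xy.symm bx.symm cx.symm (fun k => t1 hd T h (k ▸ cy)) h.2.1
    (fun k => t1 hd T h (k ▸ ab))

theorem tab (hn : NoCyc G 4) (hd : ND G) (T : Tri G x y z) {a b : V} (ha : Out G x y z a)
    (hb : Out G y x z b) : Sep G a b :=
  ⟨fun k => t1 hd T ha (k ▸ hb.1.symm), fun c => t2 hn hd T ha c hb.2.1 hb.1.symm⟩

theorem tten (hn : NoCyc G 4) (hd : ND G) (T : Tri G x y z) {m w : V} (hm : Out G y x z m)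
    (hw : Ten G x y z w) : Sep G x w ∧ Sep G w m := by
  obtain ⟨u, hu, uw, wx, hw⟩ := hw
  refine ⟨⟨wx.symm, fun c => ?_⟩, fun k => t2 hn hd T hu uw wx (k ▸ hm.1.symm),
    t3 hn hd T hu uw wx hm.1.symm hm.2.1⟩
  rcases hw c with k | k
  · exact t1 hd T hu (k ▸ uw)
  · exact t1 hd T.sw hu.swap (k ▸ uw)

theorem Ten.swap {x s t w : V} (h : Ten G x s t w) : Ten G x t s w := by
  obtain ⟨u, hu, uw, wx, hw⟩ := h
  exact ⟨u, hu.swap, uw, wx, fun c => (hw c).symm⟩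

theorem thalf [DecidableEq V] (hn : NoCyc G 4) (h : P2 G 4) (hd : ND G) (T : Tri G x y z)
    {w w' : V} (hw : Ten G x y z w) (hw' : Ten G x y z w') (ww : Sep G w w') : Big G 4 := by
  obtain ⟨m, m1, m2, m3, -⟩ := one h y x z z
  obtain ⟨k, k1, k2, k3, -⟩ := one h z x y y
  have hm : Out G y x z m := ⟨m1, m2, m3⟩
  have hk : Out G z x y k := ⟨k1, k2, k3⟩
  obtain ⟨a1, a2⟩ := tten hn hd T hm hw
  obtain ⟨b1, b2⟩ := tten hn hd T hm hw'
  obtain ⟨-, a3⟩ := tten hn hd T.sw hk hw.swap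
  obtain ⟨-, b3⟩ := tten hn hd T.sw hk hw'.swap
  exact big5 a1 b1 ⟨m2.symm, fun c => t1 hd T.fl hm c.symm⟩
    ⟨k2.symm, fun c => t1 hd T.sw.fl hk c.symm⟩ ww a2 a3 b2 b3
    (tab hn hd T.fl.sw hm.swap hk.swap)

theorem triangle [DecidableEq V] (hn : NoCyc G 4) (h : P2 G 4) (ho : Om G 3) (hd : ND G)
    (T : Tri G x y z) : Big G 4 := by
  rcases dich hn h ho x y z with ⟨a, a', ha, ha', aa⟩ | ⟨w, w', hw, hw', ww⟩
  · rcases dich hn h ho y x z with ⟨b, b', hb, hb', bb⟩ | ⟨w, w', hw, hw', ww⟩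
    · obtain ⟨k, k1, k2, k3, -⟩ := one h z x y y
      have hk : Out G z x y k := ⟨k1, k2, k3⟩
      exact big5 aa (tab hn hd T ha hb) (tab hn hd T ha hb') (tab hn hd T.sw ha.swap hk)
        (tab hn hd T ha' hb) (tab hn hd T ha' hb') (tab hn hd T.sw ha'.swap hk) bb
        (tab hn hd T.fl.sw hb.swap hk.swap) (tab hn hd T.fl.sw hb'.swap hk.swap)
    · exact thalf hn h hd T.fl hw hw' ww
  · exact thalf hn h hd T hw hw' ww

end tri

end K4m

open K4m in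
theorem stmtK4 : StmtK4 := by
  intro V _ _ G x y z hn h ho xy yz xz
  by_cases hd : ND G
  · exact triangle hn h ho hd ⟨xy, yz, xz⟩
  · unfold ND at hd
    push Not at hd
    obtain ⟨e, q, p, r, h1, h2, h3, h4, h5, h6⟩ := hd
    exact diamond hn h ho ⟨h1, h2, h3, h4, h5, h6,
      fun c => k4 ho h1 h2.symm h4.symm h3.symm h5.symm c⟩

end Vale.Agent.P048
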