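import Vale.Agent.P048.Spec

namespace Vale.Agent.P048

theorem stmtLayer0 (hMin : StmtMin) (hCyc : StmtCyc) (hTheta : StmtTheta) (hAB : StmtAB)
    (hTree : StmtTree) : StmtLayer0 := by
  intro V _ G k i v S hk hn hi hik hS hOm
  by_contra hc
  push Not at hc
  have hne : S.Nonempty := by
    rw [← Finset.card_pos]
    exact lt_of_le_of_lt (Nat.zero_le _) (hc ∅ (Finset.empty_subset _) fun u hu => by simp at hu)
  obtain ⟨H, hHS, hT⟩ := hMin V G S (k / 2) 0 hne fun I h1 h2 => hc I h1 h2
  have hρ : 2 ≤ k / 2 := by omega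
  obtain ⟨n, f, hn1, hf, hfH, hch⟩ := hCyc V G H (k / 2) hT hρ fun K hK => hOm K (hK.trans hHS)
  have h2 : 2 ≤ H.card := by
    obtain ⟨u, hu⟩ := hT.ne
    have := hT.rat {u} (by simpa using hu) (by
      intro a ha b hb
      rw [Finset.mem_singleton] at ha hb
      rw [ha, hb]; exact G.irrefl)
    rw [Finset.card_singleton] at this
    omega
  obtain ⟨h, h1, hhi, hz, col, ⟨a, ha, b, hb, hab⟩, hm⟩ :=
    hTree V G k i v H hn hi (fun u hu => hS u (hHS hu)) h2
  rcases h1.eq_or_lt with rfl | h1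
  · obtain ⟨z, hz⟩ := hz rfl
    have hall : ∀ x ∈ (List.range k).map fun j : ℕ => f j, G.Adj z x := by
      intro x hx
      obtain ⟨j, -, rfl⟩ := List.mem_map.1 hx
      exact hz _ (hfH _)
    obtain ⟨b, hb⟩ : ∃ b, b ∈ ((List.range k).map fun j : ℕ => f j).getLast? := by
      obtain ⟨k, rfl⟩ : ∃ k', k = k' + 1 := ⟨k - 1, by omega⟩
      exact ⟨f k, by simp [List.range_succ]⟩
    refine hn (z :: (List.range k).map fun j : ℕ => f j) ?_ ?_ (by simp) z (by simp) b
      (List.mem_getLast?_cons hb) (hall b (List.mem_of_getLast? hb)).symm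
    · refine List.nodup_cons.2 ⟨fun h => G.irrefl (hall z h), List.Nodup.map_on ?_ List.nodup_range⟩
      intro x hx y hy e
      rw [List.mem_range] at hx hy
      have := Int.eq_zero_of_abs_lt_dvd ((hf.2 _ _).1 e) (abs_lt.2 ⟨by omega, by omega⟩)
      omega
    · rw [List.isChain_cons, List.isChain_map, List.isChain_range]
      exact ⟨fun y hy => hall y (List.mem_of_mem_head? hy), fun m _ => by simpa using hf.1 m⟩
  · have hy1 : 1 ≤ k + 1 - 2 * h := by omega
    have hy2 : k + 1 - 2 * h < n := by omega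
    have hmono := hm _ hy1 (by omega)
    have hth := hTheta V G H n _ f col hf hfH hy1 hy2 hmono (by
      by_cases h3 : 3 ≤ k / 2
      · exact Or.inr (hch h3)
      · exact Or.inl (by omega))
    exact hab (hAB V G H (k / 2) n _ f col hT hρ (by omega) hf hfH hy1 hy2 hmono hth a ha b hb)

end Vale.Agent.P048
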