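import Vale.Agent.P048.Spec

namespace Vale.Agent.P048

theorem stmtLayer1 (hMin : StmtMin) (hLong : StmtLong) : StmtLayer1 := by
  intro V _ G k v S hk h2 hn hS hv ho
  by_contra hc
  push Not at hc
  obtain ⟨H, hH, ht⟩ := hMin V G S (k / 2) 1 hS fun I h1 h2 => hc I h1 h2
  obtain ⟨l, l1, l2, l3, l4, -⟩ := hLong V G H (k / 2) 1 ht (by omega)
    fun K h1 h2 => ho K (h1.trans hH) h2
  have ad : ∀ u ∈ l.take k, G.Adj v u := fun u hu => hv u (hH (l3 u (List.mem_of_mem_take hu)))
  have len : (l.take k).length = k := by rw [List.length_take]; omega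
  have n1 : (l.take k).Nodup := l1.sublist (List.take_sublist _ _)
  have n2 : (l.take k).IsChain G.Adj := l2.take k
  generalize l.take k = m at ad len n1 n2
  match m, len with
  | [], len => simp at len; omega
  | a :: t, len =>
    have hb := List.getLast_mem (l := a :: t) (by simp)
    refine hn (v :: a :: t) (List.nodup_cons.2 ⟨fun h => G.irrefl (ad v h), n1⟩)
      (List.isChain_cons_cons.2 ⟨ad a (by simp), n2⟩) (by simpa using len) v (by simp) _ ?_
      (ad _ hb).symm
    rw [List.getLast?_cons_cons, List.getLast?_eq_some_getLast (by simp)]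
    rfl

end Vale.Agent.P048
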