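import Vale.Agent.P048.Spec

namespace Vale.Agent.P048

namespace Longm
variable {V : Type} {G : SimpleGraph V} {H : Finset V}

def GP (G : SimpleGraph V) (H : Finset V) (P : List V) : Prop :=
  P.Nodup ∧ P.IsChain G.Adj ∧ ∀ v ∈ P, v ∈ H

theorem GP.len [DecidableEq V] {P : List V} (h : GP G H P) : P.length ≤ H.card := by
  rw [← List.toFinset_card_of_nodup h.1]
  exact Finset.card_le_card fun v hv => h.2.2 v (by simpa using hv)

/-- the last vertex of a longest path has all its neighbours on the path -/
theorem ext {P : List V} {L : ℕ} (hL : ∀ P', GP G H P' → P'.length ≤ L) (h : GP G H P)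
    (hl : P.length = L) {e v : V} (he : P.getLast? = some e) (hv : v ∈ H) (hev : G.Adj e v) :
    v ∈ P := by
  by_contra hn
  have : GP G H (P ++ [v]) := by
    refine ⟨?_, ?_, ?_⟩
    · rw [List.nodup_append]
      refine ⟨h.1, by simp, ?_⟩
      intro a ha b hb
      simp only [List.mem_singleton] at hb
      subst hb
      rintro rfl
      exact hn ha
    · rw [List.isChain_append]
      refine ⟨h.2.1, by simp, ?_⟩
      intro x hx y hy
      simp only [he, Option.mem_def, Option.some.injEq, List.head?_cons] at hx hy
      subst hx hy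
      exact hev
    · intro w hw
      rcases List.mem_append.1 hw with hw | hw
      · exact h.2.2 w hw
      · simp only [List.mem_singleton] at hw
        subst hw
        exact hv
  have := hL _ this
  simp at this
  omega

theorem rot {A : List V} {y e z : V} {Y : List V} (h : GP G H (A ++ y :: e :: Y))
    (hz : (e :: Y).getLast? = some z) (hyz : G.Adj y z) :
    GP G H (A ++ y :: (e :: Y).reverse) := by
  have hp : (A ++ y :: (e :: Y).reverse).Perm (A ++ y :: e :: Y) :=
    List.Perm.append_left _ (List.Perm.cons _ (List.reverse_perm _))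
  refine ⟨hp.nodup_iff.2 h.1, ?_, fun v hv => h.2.2 v (hp.mem_iff.1 hv)⟩
  have h2 := h.2.1
  rw [List.isChain_append_cons_cons] at h2
  rw [List.isChain_split]
  refine ⟨h2.1, ?_⟩
  rw [List.isChain_cons]
  refine ⟨?_, ?_⟩
  · intro w hw
    rw [List.head?_reverse, hz] at hw
    simp only [Option.mem_def, Option.some.injEq] at hw
    subst hw
    exact hyz
  · rw [List.isChain_reverse]
    exact h2.2.2.imp fun _ _ h => h.symm

/-- configurations -/
def Cf (G : SimpleGraph V) (H : Finset V) (L n : ℕ) : Prop :=
  ∃ (A : List V) (p : V) (B : List V) (z : V), A.length = n ∧ GP G H (A ++ p :: B) ∧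
    (A ++ p :: B).length = L ∧ B.getLast? = some z ∧ G.Adj z p

theorem cf_of {P : List V} {L : ℕ} (h : GP G H P) (hl : P.length = L) {e v : V}
    (he : P.getLast? = some e) (hev : G.Adj e v) {A B : List V} (hP : P = A ++ v :: B) :
    Cf G H L A.length := by
  subst hP
  refine ⟨A, v, B, e, rfl, h, hl, ?_, hev⟩
  cases B with
  | nil =>
    simp at he
    subst he
    exact absurd hev G.irrefl
  | cons b B => simpa [List.getLast?_append] using he

end Longm

open Longm in
theorem stmtLong : StmtLong := by
  intro V _ G H ρ c hT hc hOm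
  classical
  -- degrees
  have deg : ∀ e ∈ H, ∀ U : Finset V, e ∈ U → (∀ v ∈ H, G.Adj e v → v ∈ U) →
      ρ + 1 ≤ U.card + c := by
    intro e he U heU hU
    have := hT.exp {e} U ⟨e, by simp⟩ (by simpa using he)
      (by intro a ha b hb; simp at ha hb; subst ha hb; simp) (by simpa using heU)
      (by intro u hu v hv huv; simp at hu; subst hu; exact hU v hv huv)
    simpa using this
  -- longest length
  obtain ⟨v0, hv0⟩ := hT.ne
  have ex0 : ∃ P, GP G H P ∧ P.length = 1 := ⟨[v0], ⟨by simp, by simp, by simpa using hv0⟩, rfl⟩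
  set L := Nat.findGreatest (fun n => ∃ P, GP G H P ∧ P.length = n) H.card with hLdef
  have h1H : 1 ≤ H.card := Finset.card_pos.2 ⟨v0, hv0⟩
  have hL : ∀ P', GP G H P' → P'.length ≤ L := fun P' h =>
    Nat.le_findGreatest h.len ⟨P', h, rfl⟩
  have hL1 : 1 ≤ L := Nat.le_findGreatest h1H ex0
  obtain ⟨P0, hP0, hP0l⟩ : ∃ P, GP G H P ∧ P.length = L :=
    Nat.findGreatest_spec (P := fun n => ∃ P, GP G H P ∧ P.length = n) h1H ex0
  have exC : ∃ n, Cf G H L n := by
    obtain ⟨e, he⟩ : ∃ e, P0.getLast? = some e := by
      cases P0 with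
      | nil => simp at hP0l; omega
      | cons a t => exact ⟨_, List.getLast?_eq_some_getLast (by simp)⟩
    have heH : e ∈ H := hP0.2.2 e (List.mem_of_getLast? he)
    obtain ⟨v, hv, hev⟩ : ∃ v ∈ H, G.Adj e v := by
      by_contra hn
      push Not at hn
      have := deg e heH {e} (by simp) (fun v hv h => absurd h (hn v hv))
      simp at this
      omega
    obtain ⟨A, B, hAB⟩ := List.append_of_mem (ext hL hP0 hP0l he hv hev)
    exact ⟨_, cf_of hP0 hP0l he hev hAB⟩
  obtain ⟨A, p, B, z, hA, hG, hlen, hz, hzp⟩ := Nat.find_spec exC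
  have hmin : ∀ n, Cf G H L n → A.length ≤ n := fun n hn => hA ▸ Nat.find_min' exC hn
  set l := p :: B with hl
  have hlnd : l.Nodup := (List.nodup_append.1 hG.1).2.1
  have hlch : l.IsChain G.Adj := hG.2.1.right_of_append
  have hlH : ∀ v ∈ l, v ∈ H := fun v hv => hG.2.2 v (List.mem_append_right _ hv)
  have hzB : z ∈ B := List.mem_of_getLast? hz
  have hlz : l.getLast? = some z := by
    cases B with
    | nil => simp at hz
    | cons b B => simpa [hl] using hz
  -- the set of ends of rotations
  let E1 : V → Prop := fun e => ∃ X y Y, l = X ++ y :: e :: Y ∧ G.Adj y z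
  have hE : ∀ e, E1 e → e ∈ l ∧ ∀ v ∈ H, G.Adj e v → v ∈ l := by
    rintro e ⟨X, y, Y, hXY, hyz⟩
    refine ⟨by rw [hXY]; simp, fun v hv hev => ?_⟩
    have hz' : (e :: Y).getLast? = some z := by
      rw [hXY] at hlz
      simpa [List.getLast?_append] using hlz
    have hG' : GP G H ((A ++ X) ++ y :: e :: Y) := by
      rw [List.append_assoc, ← hXY]; exact hG
    have hR := rot hG' hz' hyz
    have hRl : ((A ++ X) ++ y :: (e :: Y).reverse).length = L := by
      rw [← hlen, hXY]; simp
    have hRe : ((A ++ X) ++ y :: (e :: Y).reverse).getLast? = some e := by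
      rw [List.getLast?_eq_some_iff]
      exact ⟨(A ++ X) ++ y :: Y.reverse, by simp⟩
    have hm := ext hL hR hRl hRe hv hev
    rw [List.append_assoc, List.mem_append] at hm
    rcases hm with hm | hm
    · exfalso
      obtain ⟨A1, A2, hA12⟩ := List.append_of_mem hm
      have := hmin _ (cf_of hR hRl hRe hev (A := A1) (B := A2 ++ (X ++ y :: (e :: Y).reverse))
        (by rw [hA12]; simp))
      rw [hA12] at this
      simp at this
    · rw [hXY]
      simp only [List.mem_append, List.mem_cons, List.mem_reverse] at hm ⊢
      exact hm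
  have hcyc : ∃ a ∈ l.head?, ∃ b ∈ l.getLast?, G.Adj b a := ⟨p, by simp [hl], z, by simp [hlz], hzp⟩
  by_cases hcl : ∃ e e', E1 e ∧ E1 e' ∧ e ≠ e' ∧ ¬ G.Adj e e'
  · obtain ⟨e, e', he, he', hne, hna⟩ := hcl
    refine ⟨l, hlnd, hlch, hlH, ?_, hcyc, e, (hE e he).1, (hE e he).2⟩
    have := hT.exp {e, e'} l.toFinset ⟨e, by simp⟩
      (by
        intro a ha
        simp only [Finset.mem_insert, Finset.mem_singleton] at ha
        rcases ha with rfl | rfl
        · exact hlH _ (hE _ he).1
        · exact hlH _ (hE _ he').1)
      (ind_pair hna)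
      (by
        intro a ha
        simp only [Finset.mem_insert, Finset.mem_singleton] at ha
        rcases ha with rfl | rfl
        · exact List.mem_toFinset.2 (hE _ he).1
        · exact List.mem_toFinset.2 (hE _ he').1)
      (by
        intro a ha v hv hav
        simp only [Finset.mem_insert, Finset.mem_singleton] at ha
        rcases ha with rfl | rfl
        · exact List.mem_toFinset.2 ((hE _ he).2 v hv hav)
        · exact List.mem_toFinset.2 ((hE _ he').2 v hv hav))
    rw [Finset.card_pair hne, List.toFinset_card_of_nodup hlnd] at this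
    omega
  · exfalso
    push Not at hcl
    have hzE : E1 z := by
      obtain ⟨B0, hB0⟩ : ∃ B0, B = B0 ++ [z] := List.getLast?_eq_some_iff.1 hz
      rcases List.eq_nil_or_concat (p :: B0) with h | ⟨X, y, h⟩
      · simp at h
      · have e1 : l = X ++ y :: z :: [] := by
          rw [hl, hB0, ← List.cons_append, h]; simp
        refine ⟨X, y, [], e1, ?_⟩
        rw [e1, List.isChain_append_cons_cons] at hlch
        exact hlch.2.1
    have hall : ∀ X y e Y, l = X ++ y :: e :: Y → G.Adj y z := by
      intro X
      induction X using List.reverseRecOn with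
      | nil =>
        intro y e Y h
        simp only [hl, List.nil_append, List.cons.injEq] at h
        rw [← h.1]
        exact hzp.symm
      | append_singleton X x ih =>
        intro y e Y h
        have h' : l = X ++ x :: y :: (e :: Y) := by rw [h]; simp
        have hy : E1 y := ⟨X, x, e :: Y, h', ih x y (e :: Y) h'⟩
        refine hcl y z hy hzE ?_
        rintro rfl
        have hz' : (e :: Y).getLast? = some y := by
          rw [h] at hlz
          simpa [List.getLast?_append] using hlz
        have hm : y ∈ e :: Y := List.mem_of_getLast? hz'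
        rw [h] at hlnd
        exact (List.nodup_cons.1 (List.nodup_append.1 hlnd).2.1).1 hm
    have hBE : ∀ e ∈ B, E1 e := by
      intro e he
      obtain ⟨B1, B2, hB⟩ := List.append_of_mem he
      rcases List.eq_nil_or_concat (p :: B1) with h | ⟨X, y, h⟩
      · simp at h
      · have e1 : l = X ++ y :: e :: B2 := by
          rw [hl, hB, ← List.cons_append, h]; simp
        exact ⟨X, y, B2, e1, hall X y e B2 e1⟩
    have hpB : p ∉ B := (List.nodup_cons.1 hlnd).1
    have hBnd : B.Nodup := (List.nodup_cons.1 hlnd).2
    have hBc : B.length ≤ ρ - c := by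
      rw [← List.toFinset_card_of_nodup hBnd]
      refine hOm _ (fun v hv => hlH v (by simp [hl, List.mem_toFinset.1 hv])) ?_
      intro u hu v hv huv
      exact hcl u v (hBE u (List.mem_toFinset.1 hu)) (hBE v (List.mem_toFinset.1 hv)) huv
    have hlc : l.toFinset.card = B.length + 1 := by
      rw [List.toFinset_card_of_nodup hlnd]; simp [hl]
    have hep : ∀ e ∈ B, G.Adj e p := by
      intro e he
      by_contra hn
      have hne : e ≠ p := fun h => hpB (h ▸ he)
      have := deg e (hlH e (by simp [hl, he])) (l.toFinset.erase p)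
        (by simp [hl, he, hne])
        (by
          intro v hv hev
          refine Finset.mem_erase.2 ⟨?_, List.mem_toFinset.2 ((hE e (hBE e he)).2 v hv hev)⟩
          rintro rfl
          exact hn hev)
      rw [Finset.card_erase_of_mem (by simp [hl]), hlc] at this
      omega
    have h1 := deg z (hlH z (by simp [hl, hzB])) l.toFinset (by simp [hl, hzB])
      (fun v hv hev => List.mem_toFinset.2 ((hE z hzE).2 v hv hev))
    have h2 := hOm l.toFinset (fun v hv => hlH v (List.mem_toFinset.1 hv)) (by
      intro u hu v hv huv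
      simp only [hl, List.mem_toFinset, List.mem_cons] at hu hv
      rcases hu with rfl | hu <;> rcases hv with rfl | hv
      · exact absurd rfl huv
      · exact (hep v hv).symm
      · exact hep u hu
      · exact hcl u v (hBE u hu) (hBE v hv) huv)
    omega

end Vale.Agent.P048
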