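import Vale.Agent.P048.Spec

namespace Vale.Agent.P048

theorem stmtLow : StmtLow := by
  classical
  intro m n N hm hn hA
  by_contra hc
  obtain ⟨k, rfl⟩ : ∃ k, m = k + 1 := ⟨m - 1, by omega⟩
  simp only [Nat.add_sub_cancel] at hc
  have hk : 0 < k := by omega
  let G : SimpleGraph (Fin N) :=
    { Adj := fun i j => i ≠ j ∧ i.1 / k = j.1 / k
      symm := ⟨fun i j h => ⟨h.1.symm, h.2.symm⟩⟩
      loopless := ⟨fun i h => h.1 rfl⟩ }
  rcases hA G with ⟨⟨f⟩⟩ | ⟨⟨f⟩⟩
  · have hall : ∀ i : Fin (k + 1), (f i).1 / k = (f 0).1 / k := by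
      intro i
      induction i using Fin.induction with
      | zero => rfl
      | succ i ih =>
        rw [← ih]
        have : (SimpleGraph.cycleGraph (k + 1)).Adj i.succ i.castSucc :=
          SimpleGraph.pathGraph_le_cycleGraph (by rw [SimpleGraph.pathGraph_adj]; simp)
        exact (f.toHom.map_rel this).2
    have hinj : Function.Injective
        (fun i : Fin (k + 1) => (⟨(f i).1 % k, Nat.mod_lt _ hk⟩ : Fin k)) := by
      intro i j hij
      simp only [Fin.mk.injEq] at hij
      apply f.injective
      ext
      change (f i).1 = (f j).1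
      rw [← Nat.div_add_mod (f i).1 k, ← Nat.div_add_mod (f j).1 k, hall i, hall j, hij]
    have := Fintype.card_le_of_injective _ hinj
    simp at this
  · have hlt : ∀ i : Fin N, i.1 / k < n - 1 := by
      intro i
      rw [Nat.div_lt_iff_lt_mul hk, Nat.mul_comm]
      have := i.2
      omega
    have hinj : Function.Injective
        (fun i : Fin n => (⟨(f i).1 / k, hlt _⟩ : Fin (n - 1))) := by
      intro i j hij
      simp only [Fin.mk.injEq] at hij
      by_contra hne
      have := f.toHom.map_rel (show (⊤ : SimpleGraph (Fin n)).Adj i j from hne)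
      rw [SimpleGraph.compl_adj] at this
      exact this.2 ⟨this.1, hij⟩
    have := Fintype.card_le_of_injective _ hinj
    simp at this
    omega

end Vale.Agent.P048
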