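import Vale.Agent.P048.Spec

namespace Vale.Agent.P048

namespace Mm

def Phi (k : ℕ) (L : List ℕ) : ℕ := (L.map fun l => (k + 1) ^ l).sum

theorem phi_perm (k : ℕ) {L L' : List ℕ} (h : L.Perm L') : Phi k L = Phi k L' :=
  (h.map _).sum_eq

theorem phi_le (k c : ℕ) (L : List ℕ) (h : ∀ l ∈ L, l ≤ c) : Phi k L ≤ L.length * (k + 1) ^ c := by
  induction L with
  | nil => simp [Phi]
  | cons a L ih =>
    have h1 := ih (fun l hl => h l (List.mem_cons_of_mem _ hl))
    have h2 : (k + 1) ^ a ≤ (k + 1) ^ c := Nat.pow_le_pow_right (by omega) (h a (by simp))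
    simp only [Phi, List.map_cons, List.sum_cons, List.length_cons] at h1 ⊢
    nlinarith

theorem phi_split (k ν : ℕ) (L : List ℕ) :
    Phi k L = Phi k (L.filter fun l => decide (ν ≤ l)) + Phi k (L.filter fun l => decide (l < ν)) := by
  induction L with
  | nil => simp [Phi]
  | cons a L ih =>
    by_cases h : ν ≤ a
    · have h' : ¬ a < ν := by omega
      simp only [Phi, List.filter_cons, h, h', decide_true, decide_false, if_true, List.map_cons,
        List.sum_cons, Bool.false_eq_true, if_false] at ih ⊢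
      omega
    · have h' : a < ν := by omega
      simp only [Phi, List.filter_cons, h, h', decide_true, decide_false, if_true, List.map_cons,
        List.sum_cons, Bool.false_eq_true, if_false] at ih ⊢
      omega

theorem sum_split (ν : ℕ) (L : List ℕ) :
    L.sum = (L.filter fun l => decide (ν ≤ l)).sum + (L.filter fun l => decide (l < ν)).sum := by
  induction L with
  | nil => simp
  | cons a L ih =>
    by_cases h : ν ≤ a
    · have h' : ¬ a < ν := by omega
      simp only [List.filter_cons, h, h', decide_true, decide_false, if_true,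
        List.sum_cons, Bool.false_eq_true, if_false] at ih ⊢
      omega
    · have h' : a < ν := by omega
      simp only [List.filter_cons, h, h', decide_true, decide_false, if_true,
        List.sum_cons, Bool.false_eq_true, if_false] at ih ⊢
      omega

theorem nz_sum (L : List ℕ) : (nz L).sum = L.sum := by
  induction L with
  | nil => simp [nz]
  | cons a L ih =>
    by_cases h : a = 0
    · simp only [nz, List.filter_cons, h, List.sum_cons] at ih ⊢
      simpa using ih
    · simp only [nz, List.filter_cons, List.sum_cons] at ih ⊢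
      simp only [ne_eq, h, not_false_eq_true, decide_true, if_true, List.sum_cons]
      simpa using ih

theorem nz_filter {ν : ℕ} (hν : 1 ≤ ν) (L : List ℕ) :
    (nz L).filter (fun l => decide (ν ≤ l)) = L.filter fun l => decide (ν ≤ l) := by
  unfold nz
  rw [List.filter_filter]
  apply List.filter_congr
  intro a _
  by_cases h : ν ≤ a
  · have : a ≠ 0 := by omega
    simp [h, this]
  · simp [h]

theorem nz_map {ν : ℕ} (hν : 1 ≤ ν) (L : List ℕ) :
    nz (L.map fun l => if ν ≤ l then l else 0) = L.filter fun l => decide (ν ≤ l) := by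
  induction L with
  | nil => simp [nz]
  | cons a L ih =>
    by_cases h : ν ≤ a
    · have : a ≠ 0 := by omega
      simp only [nz, List.map_cons, List.filter_cons, h, if_true, ne_eq, this, not_false_eq_true,
        decide_true] at ih ⊢
      rw [ih]
    · simp only [nz, List.map_cons, List.filter_cons, h, if_false, ne_eq, not_true_eq_false,
        decide_false, Bool.false_eq_true] at ih ⊢
      rw [ih]

theorem mul_le_sum (ν : ℕ) (L : List ℕ) (h : ∀ l ∈ L, ν ≤ l) : ν * L.length ≤ L.sum := by
  induction L with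
  | nil => simp
  | cons a L ih =>
    have h1 := ih (fun l hl => h l (List.mem_cons_of_mem _ hl))
    have h2 := h a (by simp)
    simp only [List.length_cons, List.sum_cons]
    nlinarith

theorem mem_nz {L : List ℕ} {l : ℕ} : l ∈ nz L ↔ l ∈ L ∧ l ≠ 0 := by simp [nz]

theorem arith {t δ ν s : ℕ} (ht : 1 ≤ t) (hδ : 1 ≤ δ) (h1 : δ ≤ ν) (h2 : s ≤ δ + 2 * t)
    (h3 : ν * t + ν + 1 ≤ δ + s) : ν = δ := by
  by_contra h
  obtain ⟨a, rfl⟩ := Nat.exists_eq_add_of_le ht
  obtain ⟨b, rfl⟩ := Nat.exists_eq_add_of_le hδ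
  obtain ⟨c, rfl⟩ := Nat.exists_eq_add_of_lt (lt_of_le_of_ne h1 (Ne.symm h))
  nlinarith [Nat.zero_le (a * b), Nat.zero_le (a * c)]

end Mm

open Mm in
theorem stmtM (hEar : StmtEar) (hS : StmtStr) (hRoot : StmtRoot) (hRot : StmtRot)
    (hDel : StmtDel) (hComp : StmtComp) : StmtM := by
  intro V _ _ G k Q hB
  have S := hS V Q
  have hlt := hB.lt
  have hfour := hB.four
  have hbig := hB.big
  let C : List V → List ℕ → Prop := fun W R =>
    QP G Q W ∧ (∀ q ∈ Q, q ∈ W) ∧ Str Q R W ∧ W.length ≤ k
  have hne : ∃ W R, C W R := by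
    have hl : Q.toList ≠ [] := by
      intro h
      have := Finset.length_toList Q
      rw [h] at this
      simp at this
      omega
    have h1 : ∃ a ∈ Q.toList.head?, a ∈ Q :=
      ⟨Q.toList.head hl, List.head_mem_head? hl, Finset.mem_toList.1 (List.head_mem hl)⟩
    have h2 : ∃ a ∈ Q.toList.getLast?, a ∈ Q :=
      ⟨Q.toList.getLast hl, List.getLast_mem_getLast? hl, Finset.mem_toList.1 (List.getLast_mem hl)⟩
    obtain ⟨R, hR⟩ := S.ex _ h1 h2
    refine ⟨Q.toList, R, ⟨Q.nodup_toList, ?_, h1, h2⟩, fun q hq => Finset.mem_toList.2 hq, hR, ?_⟩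
    · apply List.Pairwise.isChain
      have := Q.nodup_toList
      refine List.Pairwise.imp_of_mem ?_ this
      intro a b ha hb hab
      exact hB.clq a (Finset.mem_toList.1 ha) b (Finset.mem_toList.1 hb) hab
    · rw [Finset.length_toList]; omega
  have hbd : ∀ W R, C W R → Phi k (nz R) ≤ k * (k + 1) ^ k := by
    rintro W R ⟨-, -, h3, h4⟩
    have e := S.len R W h3
    have h5 := phi_le k k (nz R) (by
      intro l hl
      have := List.single_le_sum (fun x (_ : x ∈ R) => Nat.zero_le x) l (mem_nz.1 hl).1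
      omega)
    have h6 : (nz R).length ≤ R.length := List.length_filter_le _ _
    exact h5.trans (Nat.mul_le_mul_right _ (by omega))
  obtain ⟨W, R, ⟨hW, hQW, hR, hWk⟩, hmax⟩ :
      ∃ W R, C W R ∧ ∀ W' R', C W' R' → Phi k (nz R') ≤ Phi k (nz R) := by
    let T : Set ℕ := {φ | ∃ W R, C W R ∧ Phi k (nz R) = φ}
    have hT1 : T.Nonempty := by
      obtain ⟨W, R, h⟩ := hne
      exact ⟨_, W, R, h, rfl⟩
    have hT2 : BddAbove T := ⟨k * (k + 1) ^ k, by
      rintro _ ⟨W, R, h, rfl⟩
      exact hbd W R h⟩
    obtain ⟨W, R, h, e⟩ := Nat.sSup_mem hT1 hT2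
    refine ⟨W, R, h, fun W' R' h' => ?_⟩
    rw [e]
    exact le_csSup hT2 ⟨W', R', h', rfl⟩
  refine ⟨W, R, hB, hW, hQW, hR, hWk, ?_⟩
  intro r r' E hr hr' hrr hE hE4
  have hx := hE.pos
  obtain ⟨W1, R1, R0, l1, l2, hW1, hp1, hR1, p0, p1, hz, hall⟩ :=
    hRot V G Q W R r r' E hB.clq hW hR hr hr' hrr hE (fun e he hq => hE.2.2.1 e he (hQW e hq))
  set ν := l1 + E.length + l2 with hν
  have hν1 : 1 ≤ ν := by omega
  obtain ⟨W2, hW2, hQ2, hR2⟩ := hDel V G Q W1 R1 ν hB.clq hW1 hR1
  have hQW2 : ∀ q ∈ Q, q ∈ W2 := fun q hq =>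
    hQ2 q hq (hp1.mem_iff.2 (List.mem_append_left _ (hQW q hq)))
  set R2 := R1.map fun l => if ν ≤ l then l else 0 with hR2def
  set F := R0.filter fun l => decide (ν ≤ l) with hF
  set τ := (R0.filter fun l => decide (l < ν)).sum with hτ
  have p2 : (nz R2).Perm (ν :: F) := by
    rw [hR2def, nz_map hν1, ← nz_filter hν1]
    refine (p1.filter _).trans ?_
    rw [nz_filter hν1]
    simp [hF]
  have pF : ((nz R).filter fun l => decide (ν ≤ l)).Perm F := by
    refine (p0.filter _).trans ?_
    rw [nz_filter hν1]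
    have a1 : ¬ ν ≤ l1 := by omega
    have a2 : ¬ ν ≤ l2 := by omega
    simp [hF, a1, a2]
  have s2 : R2.sum = ν + F.sum := by
    rw [← nz_sum, p2.sum_eq, List.sum_cons]
  have t2 : tc R2 = F.length + 1 := by
    rw [tc, p2.length_eq, List.length_cons]
  have s0 : R.sum = l1 + l2 + F.sum + τ := by
    rw [← nz_sum R, p0.sum_eq, nz_sum, List.sum_cons, List.sum_cons, sum_split ν R0, ← hF, ← hτ]
    omega
  have len0 : W.length = R.sum + Q.card := by
    rw [(hRoot V G Q W hW hQW).len, S.out R W hR]
  have out2 : outer Q W2 = ν + F.sum := by rw [S.out R2 W2 hR2, s2]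
  have len2 : W2.length = ν + F.sum + Q.card := by
    rw [(hRoot V G Q W2 hW2 hQW2).len, out2]
  have hgt : k < W2.length := by
    by_contra hle
    have h1 := hmax W2 R2 ⟨hW2, hQW2, hR2, by omega⟩
    rw [phi_perm k p2, phi_split k ν (nz R), phi_perm k pF] at h1
    have h2 := phi_le k (ν - 1) ((nz R).filter fun l => decide (l < ν)) (by
      intro l hl
      have := (List.mem_filter.1 hl).2
      simp at this
      omega)
    have h3 : ((nz R).filter fun l => decide (l < ν)).length ≤ k := by
      have a1 : ((nz R).filter fun l => decide (l < ν)).length ≤ (nz R).length :=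
        List.length_filter_le _ _
      have a2 : (nz R).length ≤ R.length := List.length_filter_le _ _
      have := S.len R W hR
      omega
    have h4 : (k + 1) ^ ν = (k + 1) * (k + 1) ^ (ν - 1) := by
      rw [← pow_succ']; congr 1; omega
    have h5 : Phi k (ν :: F) = (k + 1) ^ ν + Phi k F := by simp [Phi]
    have h6 : 0 < (k + 1) ^ (ν - 1) := by positivity
    have h7 := Nat.mul_le_mul_right ((k + 1) ^ (ν - 1)) h3
    rw [h5, h4] at h1
    nlinarith
  have hgt2 : k + 1 < W2.length := by
    by_contra hle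
    exact qp_cyc (by omega) hB.nocyc hB.clq hW2 (by omega)
  obtain ⟨W3, hW3, out3, len3⟩ := hComp V G Q W2 R2 hB.clq hW2 hR2 (by omega)
  have hc : k + 1 < W3.length := by
    by_contra hle
    exact hEar V G k Q W3 (by omega) hB.nocyc hB.clq hW3 (by omega) (by omega)
  have hFν : ν * F.length ≤ F.sum := mul_le_sum ν F (by
    intro l hl
    simpa using (List.mem_filter.1 hl).2)
  have hτ0 : τ = 0 → ∀ l ∈ R0, l = 0 ∨ l ∈ F := by
    intro h l hl
    by_cases h1 : l < ν
    · left
      have := List.single_le_sum (fun x (_ : x ∈ R0.filter fun l => decide (l < ν)) =>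
        Nat.zero_le x) l (List.mem_filter.2 ⟨hl, by simpa using h1⟩)
      omega
    · right
      exact List.mem_filter.2 ⟨hl, by simpa using h1⟩
  rcases Nat.eq_zero_or_pos F.length with h0 | h0
  · right
    have hFn : F = [] := List.length_eq_zero_iff.1 h0
    have : F.sum = 0 := by rw [hFn]; rfl
    refine ⟨by omega, by omega, by omega, hall ?_⟩
    intro l hl
    rcases hτ0 (by omega) l hl with h | h
    · exact h
    · rw [hFn] at h; simp at h
  · left
    have ha := arith (t := F.length) (δ := ν + F.sum + Q.card - k) (ν := ν) (s := Q.card) h0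
      (by omega) (by omega) (by omega) (by omega)
    have e1 : l1 = 0 := by omega
    have e2 : l2 = 0 := by omega
    have e3 : ν = E.length := by omega
    have hmem : ∀ l ∈ nz R, ν ≤ l := by
      intro l hl
      have h1 := mem_nz.1 (p0.mem_iff.1 hl)
      have h2 : l ∈ R0 := by
        have b1 := h1.1
        have b2 := h1.2
        simp only [List.mem_cons] at b1
        rcases b1 with b1 | b1 | b1
        · omega
        · omega
        · exact b1
      rcases hτ0 (by omega) l h2 with h | h
      · exact absurd h h1.2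
      · simpa using (List.mem_filter.1 h).2
    have htc : tc R = F.length := by
      rw [tc, ← pF.length_eq, List.filter_eq_self.2]
      intro l hl
      simpa using hmem l hl
    refine ⟨(hz e1 e2).1, (hz e1 e2).2, by omega, by omega, fun l hl => ?_, by omega, by omega, ?_⟩
    · by_cases h : l = 0
      · exact Or.inl h
      · exact Or.inr (e3 ▸ hmem l (mem_nz.2 ⟨hl, h⟩))
    · rw [htc, ← e3]
      omega

end Vale.Agent.P048
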