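import Vale.Agent.P048.Spec

namespace Vale.Agent.P048

theorem Minm.union {V : Type} [DecidableEq V] {G : SimpleGraph V} {I J : Finset V} (hI : Ind G I)
    (hJ : Ind G J) (h : ∀ a ∈ I, ∀ b ∈ J, ¬ G.Adj a b) : Ind G (I ∪ J) := by
  intro u hu v hv
  rcases Finset.mem_union.1 hu with hu | hu <;> rcases Finset.mem_union.1 hv with hv | hv
  · exact hI u hu v hv
  · exact h u hu v hv
  · exact fun e => h v hv u hu e.symm
  · exact hJ u hu v hv

theorem stmtMin : StmtMin := by
  intro V _ G S ρ c hS h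
  classical
  obtain ⟨H, hH, hmin⟩ := Finset.exists_min_image
    (S.powerset.filter fun H => H.Nonempty ∧
      ∀ I : Finset V, I ⊆ H → Ind G I → ρ * I.card + 1 ≤ H.card + c) Finset.card
    ⟨S, by simpa using ⟨hS, h⟩⟩
  simp only [Finset.mem_filter, Finset.mem_powerset] at hH hmin
  obtain ⟨hHS, hne, hrat⟩ := hH
  have key : ∀ T : Finset V, T ⊆ H → T.Nonempty → T.card < H.card →
      ∃ J, J ⊆ T ∧ Ind G J ∧ T.card + c ≤ ρ * J.card := by
    intro T hT hTne hlt
    by_contra hc
    push Not at hc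
    have := hmin T ⟨hT.trans hHS, hTne, fun I h1 h2 => hc I h1 h2⟩
    omega
  refine ⟨H, hHS, hne, ?_, ?_, hrat⟩
  · intro I U hI hIH hInd hIU hU
    by_cases hT : (H \ U).Nonempty
    · obtain ⟨x, hx⟩ := hI
      obtain ⟨J, hJ, hJi, hJc⟩ := key (H \ U) Finset.sdiff_subset hT
        (Finset.card_lt_card ⟨Finset.sdiff_subset, fun hs =>
          (Finset.mem_sdiff.1 (hs (hIH hx))).2 (hIU hx)⟩)
      have h1 := hrat (I ∪ J) (Finset.union_subset hIH (hJ.trans Finset.sdiff_subset))
        (Minm.union hInd hJi fun a ha b hb e =>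
          (Finset.mem_sdiff.1 (hJ hb)).2 (hU a ha b (Finset.mem_sdiff.1 (hJ hb)).1 e))
      rw [Finset.card_union_of_disjoint (Finset.disjoint_left.2 fun a ha hb =>
        (Finset.mem_sdiff.1 (hJ hb)).2 (hIU ha)), mul_add] at h1
      have h2 := Finset.le_card_sdiff U H
      omega
    · have h1 := Finset.card_le_card
        (Finset.sdiff_eq_empty_iff_subset.1 (Finset.not_nonempty_iff_eq_empty.1 hT))
      have h2 := hrat I hIH hInd
      omega
  · intro A hA hAne hcl
    by_contra hc
    have hT : (H \ A).Nonempty := Finset.sdiff_nonempty.2 hc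
    have hcard := Finset.card_sdiff_add_card_eq_card hA
    have p1 := hT.card_pos
    have p2 := hAne.card_pos
    obtain ⟨J, hJ, hJi, hJc⟩ := key (H \ A) Finset.sdiff_subset hT (by omega)
    obtain ⟨I, hI, hIi, hIc⟩ := key A hA hAne (by omega)
    have h1 := hrat (I ∪ J) (Finset.union_subset (hI.trans hA) (hJ.trans Finset.sdiff_subset))
      (Minm.union hIi hJi fun a ha b hb e =>
        (Finset.mem_sdiff.1 (hJ hb)).2 (hcl a (hI ha) b (Finset.mem_sdiff.1 (hJ hb)).1 e))
    rw [Finset.card_union_of_disjoint (Finset.disjoint_left.2 fun a ha hb =>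
      (Finset.mem_sdiff.1 (hJ hb)).2 (hI ha)), mul_add] at h1
    omega

end Vale.Agent.P048
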