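import Vale.Agent.P048.Spec

namespace Vale.Agent.P048

namespace Miss1m

lemma tc_cons (l : ℕ) (R : List ℕ) : tc (l :: R) = (if l = 0 then 0 else 1) + tc R := by
  by_cases h : l = 0
  · simp [tc, nz, h]
  · simp [tc, nz, h, add_comm]

lemma tc_zero {R : List ℕ} (h : tc R = 0) : R.sum = 0 := by
  induction R with
  | nil => rfl
  | cons l R ih =>
    rw [tc_cons] at h
    rw [List.sum_cons]
    split_ifs at h with hl
    · rw [hl, ih (by omega)]
    · omega

lemma tc_one {R : List ℕ} (h : tc R = 1) : ∃ R1 l R2, R = R1 ++ l :: R2 ∧ l ≠ 0 ∧ R.sum = l := by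
  induction R with
  | nil => simp [tc, nz] at h
  | cons l R ih =>
    rw [tc_cons] at h
    split_ifs at h with hl
    · obtain ⟨R1, l', R2, rfl, h1, h2⟩ := ih (by omega)
      exact ⟨l :: R1, l', R2, rfl, h1, by rw [List.sum_cons, h2, hl, zero_add]⟩
    · exact ⟨[], l, R, rfl, hl, by rw [List.sum_cons, tc_zero (by omega), add_zero]⟩

variable {V : Type} [DecidableEq V] {G : SimpleGraph V} {Q : Finset V}

lemma key (hEar : StmtEar) {k : ℕ} {W : List V} {R : List ℕ} {r r' : V} {E : List V}
    (hC : Ctx G k Q W R) (hr : r ∈ Q) (hr' : r' ∈ Q) (hne : r ≠ r') (hE : Ear G W r r' E)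
    {A P C : List V} {a q : V} (hW : W = A ++ (a :: P ++ q :: C)) (hP : ∀ p ∈ a :: P, p ∉ Q)
    (hq : q ∈ Q) (h1 : q ≠ r) (h2 : q ≠ r') (hl : P.length + E.length + 3 ≤ k)
    (hb : k ≤ P.length + E.length + Q.card) : ¬ G.Adj r a := by
  intro ha
  obtain ⟨hEn, hEc, hEo, ⟨e, he, hre⟩, e', he', her⟩ := hE
  have hEQ : ∀ e ∈ E, e ∉ Q := fun e he h => hEo e he (hC.sub e h)
  have hPW : ∀ p ∈ a :: P, p ∈ W := fun p hp => by
    rw [hW]
    exact List.mem_append_right _ (List.mem_append_left _ hp)
  have hPn : (a :: P).Nodup := by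
    have := hC.qp.1
    rw [hW] at this
    exact (List.nodup_append.1 (List.nodup_append.1 this).2.1).1
  have hPc : (a :: P ++ [q]).IsChain G.Adj := by
    have := hC.qp.2.1
    rw [hW] at this
    exact (List.isChain_split.1 (List.isChain_append.1 this).2.1).1
  refine hEar V G k Q ((a :: P ++ [q]).reverse ++ r :: (E ++ [r'])) (by omega) hC.base.nocyc
    hC.base.clq ⟨?_, ?_, ⟨q, by simp, hq⟩, r', by
      rw [← List.cons_append, ← List.append_assoc, List.getLast?_concat]; rfl, hr'⟩
    (by simp; omega) ?_
  · rw [List.nodup_append, List.nodup_reverse, List.nodup_append,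
      List.nodup_cons (a := r), List.nodup_append]
    refine ⟨⟨hPn, by simp, ?_⟩, ⟨?_, hEn, by simp, ?_⟩, ?_⟩
    · intro x hx y hy h
      rw [List.mem_singleton] at hy
      exact hP x hx (by rw [h, hy]; exact hq)
    · rw [List.mem_append, List.mem_singleton]
      rintro (h | h)
      · exact hEQ r h hr
      · exact hne h
    · intro x hx y hy h
      rw [List.mem_singleton] at hy
      exact hEQ x hx (by rw [h, hy]; exact hr')
    · intro x hx y hy h
      subst h
      rw [List.mem_reverse, List.mem_append, List.mem_singleton] at hx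
      rw [List.mem_cons, List.mem_append, List.mem_singleton] at hy
      rcases hx with hx | rfl
      · rcases hy with rfl | hy | rfl
        · exact hP _ hx hr
        · exact hEo _ hy (hPW _ hx)
        · exact hP _ hx hr'
      · rcases hy with hy | hy | hy
        · exact h1 hy
        · exact hEQ _ hy hq
        · exact h2 hy
  · rw [List.isChain_append]
    refine ⟨?_, ?_, ?_⟩
    · rw [List.isChain_reverse]
      exact hPc.imp fun _ _ h => h.symm
    · rw [List.isChain_cons, List.isChain_append]
      refine ⟨?_, hEc, by simp, ?_⟩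
      · intro y hy
        rw [List.head?_append, Option.mem_def.1 he] at hy
        simp only [Option.some_or, Option.mem_def, Option.some.injEq] at hy
        exact hy ▸ hre
      · intro x hx y hy
        rw [Option.mem_def.1 he'] at hx
        simp only [Option.mem_def, Option.some.injEq, List.head?_cons] at hx hy
        exact hx ▸ hy ▸ her
    · intro x hx y hy
      simp only [List.getLast?_reverse, List.cons_append, List.head?_cons, Option.mem_def,
        Option.some.injEq] at hx hy
      exact hx ▸ hy ▸ ha.symm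
  · have e1 : List.countP (fun v => decide (v ∉ Q)) (a :: P) = P.length + 1 :=
      List.countP_eq_length.2 (fun p hp => by simpa using hP p hp)
    have e2 : List.countP (fun v => decide (v ∉ Q)) E = E.length :=
      List.countP_eq_length.2 (fun p hp => by simpa using hEQ p hp)
    rw [outer, List.countP_append, List.countP_reverse, List.countP_append, e1, List.countP_cons,
      List.countP_cons (l := E ++ [r']), List.countP_append, e2]
    omega

end Miss1m

open Miss1m in
theorem stmtMiss1 (hEar : StmtEar) (hS : StmtStr) (hRoot : StmtRoot) : StmtMiss1 := by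
  intro V _ G k Q W R r r' E hC hr hr' hne hE h3 hX ht
  obtain ⟨hrQ, hrQ', hk, -, hR, -, -, -⟩ := hX
  obtain ⟨R1, l, R2, e, hl, hsum⟩ := tc_one ht
  have api := hS V Q
  have rapi := hRoot V G Q W hC.qp hC.sub
  have hlen := rapi.len
  rw [api.out R W hC.str, hsum, hk] at hlen
  have hx : E.length ≤ l := (hR l (by simp [e])).resolve_left hl
  have hbig := hC.base.big
  obtain ⟨W1, P, W2, hW, -, hP, hPl, h2⟩ := api.split R1 l R2 W (e ▸ hC.str)
  obtain ⟨q, hq, hqQ⟩ := api.head R2 W2 h2
  obtain ⟨C, rfl⟩ : ∃ C, W2 = q :: C := by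
    cases W2 with
    | nil => simp at hq
    | cons x C => exact ⟨C, by simp at hq; rw [hq]⟩
  have hnon : ¬ Root Q W q := by
    have hne' : P ≠ [] := by
      rintro rfl
      exact hl hPl.symm
    refine rapi.non (W1 ++ P.dropLast) (P.getLast hne') q C ?_ (hP _ (List.getLast_mem hne'))
    rw [hW]
    conv_lhs => rw [← List.dropLast_append_getLast hne']
    simp
  have q1 : q ≠ r := fun h => hnon (h ▸ hr)
  have q2 : q ≠ r' := fun h => hnon (h ▸ hr')
  match P, hW, hP, hPl with
  | [], _, _, hPl => simp at hPl; omega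
  | [_], _, _, hPl => simp at hPl; omega
  | [_, _], _, _, hPl => simp at hPl; omega
  | a1 :: a2 :: a3 :: P', hW, hP, hPl =>
    simp only [List.length_cons] at hPl
    have hn := hC.qp.1
    refine ⟨a2, by simp [hW], a3, by simp [hW], hP _ (by simp), hP _ (by simp), ?_, ?_, ?_⟩
    · rintro rfl
      rw [hW] at hn
      simp [List.nodup_append] at hn
    · refine key hEar hC hrQ hrQ' hne hE (A := W1 ++ [a1]) (P := a3 :: P') (C := C) (q := q)
        (by simp [hW]) (fun p hp => hP p (List.mem_cons_of_mem _ hp)) hqQ q1 q2 ?_ ?_ <;>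
      simp only [List.length_cons] <;> omega
    · refine key hEar hC hrQ hrQ' hne hE (A := W1 ++ [a1, a2]) (P := P') (C := C) (q := q)
        (by simp [hW]) (fun p hp => hP p (List.mem_cons_of_mem _ (List.mem_cons_of_mem _ hp)))
        hqQ q1 q2 ?_ ?_ <;> omega

end Vale.Agent.P048
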