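import Vale.Agent.P048.Spec

namespace Vale.Agent.P048

namespace Miss2m

variable {V : Type} [DecidableEq V] {G : SimpleGraph V} {Q : Finset V}

theorem no (hEar : StmtEar) (hB : Base G 13 Q) (h7 : Q.card = 7) (W : List V) (h : QP G Q W)
    (hl : W.length ≤ 14) (ho : 7 ≤ outer Q W) : False :=
  hEar V G 13 Q W (by norm_num) hB.nocyc hB.clq h hl (by omega)

theorem nd2 (Q : Finset V) (W : List V) (h1 : (W.filter fun x => decide (x ∈ Q)).Nodup)
    (h2 : (W.filter fun x => !decide (x ∈ Q)).Nodup) : W.Nodup := by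
  refine (List.filter_append_perm (fun x => decide (x ∈ Q)) W).nodup_iff.1
    (List.nodup_append.2 ⟨h1, h2, ?_⟩)
  rintro x hx y hy rfl
  simp at hx hy
  exact hy.2 hx.2

theorem cfg (hEar : StmtEar) (hB : Base G 13 Q) (h7 : Q.card = 7)
    {r r' e1 e2 e3 qa qa' qb qb' a1 a2 a3 b1 b2 b3 : V} (hr : r ∈ Q) (hr' : r' ∈ Q)
    (ha : qa ∈ Q) (ha' : qa' ∈ Q) (hb : qb ∈ Q) (hb' : qb' ∈ Q)
    (nd : [e1, e2, e3, a1, a2, a3, b1, b2, b3].Nodup)
    (ou : ∀ x ∈ [e1, e2, e3, a1, a2, a3, b1, b2, b3], x ∉ Q) (hrr : r ≠ r')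
    (n1 : qa' ≠ r) (n2 : qa' ≠ r') (n3 : qb' ≠ r) (n4 : qb' ≠ r') (n5 : qa ≠ qa') (n6 : qa ≠ qb)
    (n7 : qa ≠ qb') (n8 : qa' ≠ qb') (n9 : qb ≠ qb') (cE : [r, e1, e2, e3, r'].IsChain G.Adj)
    (cA : [qa, a1, a2, a3, qa'].IsChain G.Adj) (cB : [qb, b1, b2, b3, qb'].IsChain G.Adj)
    (k1 : G.Adj r a2) (k2 : G.Adj r b2) : False := by
  simp only [List.isChain_cons_cons] at cE cA cB
  obtain ⟨E1, E2, E3, E4, -⟩ := cE
  obtain ⟨A1, A2, A3, A4, -⟩ := cA
  obtain ⟨B1, B2, B3, B4, -⟩ := cB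
  simp only [List.forall_mem_cons] at ou
  obtain ⟨o1, o2, o3, o4, o5, o6, o7, o8, o9, -⟩ := ou
  simp only [List.nodup_cons, List.mem_cons, List.not_mem_nil, or_false, not_or] at nd
  casesm* _ ∧ _
  by_cases c1 : qb ≠ r ∧ qb ≠ r'
  · by_cases c : qa' = qb
    · subst c
      exact no hEar hB h7 [r', e3, e2, e1, r, a2, a3, qa', b1, b2, b3, qb'] ⟨nd2 Q _
      (by simp [*, Ne.symm]) (by simp [*, Ne.symm]),
        by simp [E1.symm, E2.symm, E3.symm, E4.symm, k1, A3, A4, B1, B2, B3, B4],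
        by simp [hr'], by simp [hb']⟩ (by simp) (by simp [outer, *])
    · exact no hEar hB h7 [r', e3, e2, e1, r, a2, a3, qa', qb, b1, b2, b3, qb'] ⟨nd2 Q _
      (by simp [*, Ne.symm]) (by simp [*, Ne.symm]),
        by simp [E1.symm, E2.symm, E3.symm, E4.symm, k1, A3, A4, B1, B2, B3, B4,
          hB.clq _ ha' _ hb c], by simp [hr'], by simp [hb']⟩ (by simp) (by simp [outer, *])
  by_cases c2 : qa ≠ r ∧ qa ≠ r'
  · exact no hEar hB h7 [r', e3, e2, e1, r, b2, b3, qb', qa, a1, a2, a3, qa'] ⟨nd2 Q _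
      (by simp [*, Ne.symm]) (by simp [*, Ne.symm]),
      by simp [E1.symm, E2.symm, E3.symm, E4.symm, k2, A1, A2, A3, A4, B3, B4,
        hB.clq _ hb' _ ha n7.symm], by simp [hr'], by simp [ha']⟩ (by simp) (by simp [outer, *])
  have : qa = r ∧ qb = r' ∨ qa = r' ∧ qb = r := by grind
  rcases this with ⟨rfl, rfl⟩ | ⟨rfl, rfl⟩
  · exact no hEar hB h7 [qa', a3, a2, a1, qa, e1, e2, e3, qb, b1, b2, b3, qb'] ⟨nd2 Q _
      (by simp [*, Ne.symm]) (by simp [*, Ne.symm]),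
      by simp [E1, E2, E3, E4, A1.symm, A2.symm, A3.symm, A4.symm, B1, B2, B3, B4],
      by simp [ha'], by simp [hb']⟩ (by simp) (by simp [outer, *])
  · exact no hEar hB h7 [qa', a3, a2, a1, qa, e3, e2, e1, qb, b1, b2, b3, qb'] ⟨nd2 Q _
      (by simp [*, Ne.symm]) (by simp [*, Ne.symm]),
      by simp [E1.symm, E2.symm, E3.symm, E4.symm, A1.symm, A2.symm, A3.symm, A4.symm, B1, B2, B3,
        B4], by simp [ha'], by simp [hb']⟩ (by simp) (by simp [outer, *])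

end Miss2m

open Miss2m

theorem stmtMiss2 (hEar : StmtEar) (hS : StmtStr) (hRoot : StmtRoot) : StmtMiss2 := by
  intro V _ G Q W R r r' E hC hr hr' hrr hE hl hX ht h7
  obtain ⟨x1, x2, x3, -, x4, -⟩ := hX
  have S := hS V Q
  have RA := hRoot V G Q W hC.qp hC.sub
  have hsum : R.sum = 6 := by have := RA.len; have := S.out R W hC.str; omega
  obtain ⟨l1, l2, hnz⟩ := List.length_eq_two.1 ht
  obtain ⟨R1, R', e1, -, p1, hnz'⟩ := List.filter_eq_cons_iff.1 hnz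
  obtain ⟨R2, R3, e2, -, p2, -⟩ := List.filter_eq_cons_iff.1 hnz'
  have g1 := x4 l1 (by simp [e1])
  have g2 := x4 l2 (by simp [e1, e2])
  simp only [ne_eq, decide_not, Bool.not_eq_eq_eq_not, Bool.not_true, decide_eq_false_iff_not]
    at p1 p2
  have hs : l1 + l2 ≤ 6 := by rw [← hsum, e1, e2]; simp; omega
  obtain ⟨W1, P, W2, w1, s1, oP, lP, s2⟩ := S.split R1 l1 R' W (e1 ▸ hC.str)
  obtain ⟨W3, P', W4, w2, s3, oP', lP', s4⟩ := S.split R2 l2 R3 W2 (e2 ▸ s2)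
  obtain ⟨a1, a2, a3, rfl⟩ := List.length_eq_three.1 (show P.length = 3 by omega)
  obtain ⟨b1, b2, b3, rfl⟩ := List.length_eq_three.1 (show P'.length = 3 by omega)
  obtain ⟨f1, f2, f3, rfl⟩ := List.length_eq_three.1 hl
  obtain ⟨qa, h1, ha⟩ := S.last _ _ s1
  obtain ⟨qa', h2, ha'⟩ := S.head _ _ s3
  obtain ⟨qb, h3, hb⟩ := S.last _ _ s3
  obtain ⟨qb', h4, hb'⟩ := S.head _ _ s4
  obtain ⟨T1, rfl⟩ := List.getLast?_eq_some_iff.1 h1
  obtain ⟨T2, t2⟩ := List.head?_eq_some_iff.1 h2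
  obtain ⟨T3, t3⟩ := List.getLast?_eq_some_iff.1 h3
  obtain ⟨T4, rfl⟩ := List.head?_eq_some_iff.1 h4
  have wa : W = T1 ++ [qa, a1, a2, a3, qa'] ++ (T2 ++ [b1, b2, b3, qb'] ++ T4) := by
    rw [w1, w2, t2]; simp
  have wb : W = (T1 ++ [qa, a1, a2, a3] ++ T3) ++ [qb, b1, b2, b3, qb'] ++ T4 := by
    rw [w1, w2, t3]; simp
  have sa : [qa, a1, a2, a3, qa', b1, b2, b3, qb'].Sublist W := by
    rw [wa]
    exact ((List.sublist_append_right T1 [qa, a1, a2, a3, qa']).append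
      ((List.sublist_append_right T2 [b1, b2, b3, qb']).trans (List.sublist_append_left _ _)))
  have sb : [qa, a1, a2, a3, qb, b1, b2, b3, qb'].Sublist W := by
    rw [wb]
    exact ((((List.sublist_append_right T1 [qa, a1, a2, a3]).trans
      (List.sublist_append_left _ T3)).append (List.Sublist.refl [qb, b1, b2, b3, qb'])).trans
        (List.sublist_append_left _ _))
  have na := hC.qp.1.sublist sa
  have nb := hC.qp.1.sublist sb
  have ra : ¬ Root Q W qa' := RA.non (T1 ++ [qa, a1, a2]) a3 qa' (T2 ++ [b1, b2, b3, qb'] ++ T4)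
    (by rw [wa]; simp) (oP _ (by simp))
  have rb : ¬ Root Q W qb' := RA.non (T1 ++ [qa, a1, a2, a3] ++ T3 ++ [qb, b1, b2]) b3 qb' T4
    (by rw [wb]; simp) (oP' _ (by simp))
  obtain ⟨nE, cE, oE, ⟨u, hu, ku⟩, v, hv, kv⟩ := hE
  obtain rfl : f1 = u := by simpa using hu
  obtain rfl : f3 = v := by simpa using hv
  have mW : ∀ x ∈ [qa, a1, a2, a3, qa', b1, b2, b3, qb'], x ∈ W := fun x hx => sa.subset hx
  by_contra hc
  have hadj : ∀ a ∈ W, a ∉ Q → G.Adj r a := fun a h h' => by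
    by_contra hn
    exact hc ⟨a, h, h', hn⟩
  refine cfg hEar hC.base h7 (e1 := f1) (e2 := f2) (e3 := f3) (a1 := a1) (a2 := a2) (a3 := a3)
    (b1 := b1) (b2 := b2) (b3 := b3) x1 x2 ha ha' hb hb' ?_ ?_ hrr (fun e => ra (e ▸ hr))
    (fun e => ra (e ▸ hr')) (fun e => rb (e ▸ hr)) (fun e => rb (e ▸ hr')) ?_ ?_ ?_ ?_ ?_ ?_
    (wa ▸ hC.qp.2.1).left_of_append.right_of_append
    (wb ▸ hC.qp.2.1).left_of_append.right_of_append
    (hadj _ (mW _ (by simp)) (oP _ (by simp))) (hadj _ (mW _ (by simp)) (oP' _ (by simp)))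
  · refine List.nodup_append (l₁ := [f1, f2, f3]) |>.2 ⟨nE, na.sublist (by simp), ?_⟩
    rintro x hx y hy rfl
    exact oE x hx (mW x (List.Sublist.subset (by simp) hy))
  · intro x hx
    rcases List.mem_append (s := [f1, f2, f3]) |>.1 hx with h | h
    · exact fun hq => oE x h (hC.sub x hq)
    · rcases List.mem_append (s := [a1, a2, a3]) |>.1 h with h | h
      exacts [oP x h, oP' x h]
  · rintro rfl; simp at na
  · rintro rfl; simp at nb
  · rintro rfl; simp at na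
  · rintro rfl; simp at na
  · rintro rfl; simp at nb
  · simp only [List.isChain_cons_cons] at cE ⊢
    simp [ku, kv, cE.1, cE.2.1]

end Vale.Agent.P048
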