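import Vale.Agent.P048.Spec

namespace Vale.Agent.P048

theorem stmtNo2 (hRoot : StmtRoot) (hShort : StmtShort) (hT : StmtT) (hT2 : StmtT2)
    (hC34 : StmtC34) (hC7 : StmtC7) : StmtNo2 := by
  classical
  intro V _ _ G k Q W R h hno
  have ra := hRoot V G Q W h.qp h.sub
  obtain ⟨Rt, hRt, hcard⟩ := ra.card
  have exc_symm : ∀ r r' x, Exc k Q W R r r' x → Exc k Q W R r' r x :=
    fun r r' x e => ⟨e.2.1, e.1, e.2.2⟩
  have both : ∀ r r' E, Root Q W r → Root Q W r' → r ≠ r' → Ear G W r r' E → E.length ≤ 4 →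
      Exc k Q W R r r' E.length → NC1 G W r ∧ NC1 G W r' := by
    intro r r' E hr hr' hne hE hl he
    refine ⟨hC34 V G k Q W R r r' E h hno hr hr' hne hE hl he, ?_⟩
    exact hC34 V G k Q W R r' r E.reverse h hno hr' hr hne.symm hE.rev (by simpa using hl)
      (by simpa using exc_symm _ _ _ he)
  have N3 : ∀ r r', Root Q W r → Root Q W r' → r ≠ r' → Near G W r r' 3 → NC1 G W r := by
    rintro r r' hr hr' hne ⟨E0, hE0, hl0⟩
    obtain ⟨E, hE, hl, -⟩ := hShort V G W r r' E0 hE0
    rcases h.main r r' E hr hr' hne hE (by omega) with he | he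
    · exact (both r r' E hr hr' hne hE (by omega) he).1
    · have := he.2.1
      omega
  obtain ⟨p0, hp0⟩ : ∃ p0 : Option V, (∃ p, Root Q W p ∧ p ∉ Q) →
      ∃ p, p0 = some p ∧ Root Q W p ∧ p ∉ Q := by
    by_cases hex : ∃ p, Root Q W p ∧ p ∉ Q
    · obtain ⟨p, hp⟩ := hex
      exact ⟨some p, fun _ => ⟨p, rfl, hp⟩⟩
    · exact ⟨none, fun hh => absurd hh hex⟩
  let sp : V → Prop := fun r => Q.card = 4 ∧ k ≤ 6 ∧ p0 = some r
  have N4 : ∀ r r', Root Q W r → Root Q W r' → r ≠ r' → Near G W r r' 4 →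
      (NC1 G W r ∨ sp r) ∨ (NC1 G W r' ∨ sp r') := by
    rintro r r' hr hr' hne ⟨E0, hE0, hl0⟩
    obtain ⟨E, hE, hl, -⟩ := hShort V G W r r' E0 hE0
    rcases h.main r r' E hr hr' hne hE (by omega) with he | he
    · exact Or.inl (Or.inl (both r r' E hr hr' hne hE (by omega) he).1)
    · obtain ⟨h4, hx, hk, hall⟩ := he
      have hout : 0 < outer Q W := by
        have := ra.len
        have := h.base.lt
        omega
      obtain ⟨p1, hp1, hp1'⟩ : ∃ p ∈ W, p ∉ Q := by
        unfold outer at hout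
        rw [List.countP_pos_iff] at hout
        simpa using hout
      obtain ⟨p, hp, hpr, hpQ⟩ := hp0 (ra.first p1 hp1 hp1')
      by_cases hk6 : k ≤ 6
      · rcases hall p hpr hpQ with rfl | rfl
        · exact Or.inl (Or.inr ⟨h4, hk6, hp⟩)
        · exact Or.inr (Or.inr ⟨h4, hk6, hp⟩)
      · have hb := h.base.big
        have hk7 : k = 7 := by omega
        subst hk7
        rcases hall p hpr hpQ with rfl | rfl
        · exact Or.inl (Or.inl (hC7 V G Q W R p r' E h hr hpQ hr' hne hE hx ⟨h4, rfl, hk, hall⟩))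
        · refine Or.inr (Or.inl (hC7 V G Q W R p r E.reverse h hr' hpQ hr hne.symm hE.rev
            (by simpa using hx) ⟨h4, rfl, hk, fun q a b => (hall q a b).symm⟩))
  have hD : ∀ r, ∃ D : Finset V, Root Q W r → Ind G D ∧
      2 ≤ D.card + (if sp r then 1 else 0) ∧ (NC1 G W r ∨ sp r → ∀ u ∈ D, M1 G W r u) ∧
      ∀ u ∈ D, M2 G W r u ∨ (u = r ∧ ¬ NC2 G W r) := by
    intro r
    by_cases hr : Root Q W r
    swap
    · exact ⟨∅, fun hh => absurd hh hr⟩
    by_cases c1 : NC1 G W r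
    · obtain ⟨u, u', hu, hu', hne, hadj⟩ := c1
      have hm : ∀ x ∈ ({u, u'} : Finset V), M1 G W r x := by
        intro x hx
        simp only [Finset.mem_insert, Finset.mem_singleton] at hx
        rcases hx with rfl | rfl <;> assumption
      refine ⟨{u, u'}, fun _ => ⟨ind_pair hadj, ?_, fun _ => hm, fun x hx => Or.inl (hm x hx).m2⟩⟩
      rw [Finset.card_pair hne]
      omega
    by_cases c2 : sp r
    · obtain ⟨u, hu⟩ := m1_ex h.base.p2 h.len hr.mem
      refine ⟨{u}, fun _ => ⟨?_, by simp [c2], fun _ => by simpa using hu,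
        by simpa using Or.inl hu.m2⟩⟩
      intro a ha b hb
      simp only [Finset.mem_singleton] at ha hb
      subst ha hb
      exact G.irrefl
    by_cases c3 : NC2 G W r
    · obtain ⟨u, u', hu, hu', hne, hadj⟩ := c3
      refine ⟨{u, u'}, fun _ => ⟨ind_pair hadj, ?_, fun hh => absurd hh (by tauto), ?_⟩⟩
      · rw [Finset.card_pair hne]
        omega
      · intro x hx
        simp only [Finset.mem_insert, Finset.mem_singleton] at hx
        rcases hx with rfl | rfl
        · exact Or.inl hu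
        · exact Or.inl hu'
    · obtain ⟨-, -, -, ⟨d, hd, hrd⟩, -⟩ := hT V G k Q W R r h hr c3
      have hne : r ≠ d := by
        rintro rfl
        exact hd.1 hr.mem
      refine ⟨{r, d}, fun _ => ⟨ind_pair hrd, ?_, fun hh => absurd hh (by tauto), ?_⟩⟩
      · rw [Finset.card_pair hne]
        omega
      · intro x hx
        simp only [Finset.mem_insert, Finset.mem_singleton] at hx
        rcases hx with rfl | rfl
        · exact Or.inr ⟨rfl, c3⟩
        · exact Or.inl hd
  choose D hD using hD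
  have sep : ∀ r r', Root Q W r → Root Q W r' → r ≠ r' → ∀ u ∈ D r, ∀ u' ∈ D r',
      ¬ (u = u' ∨ G.Adj u u') := by
    intro r r' hr hr' hne u hu u' hu' hh
    have hh' : u' = u ∨ G.Adj u' u := hh.imp Eq.symm fun x => x.symm
    obtain ⟨-, -, a1, a2⟩ := hD r hr
    obtain ⟨-, -, b1, b2⟩ := hD r' hr'
    rcases a2 u hu with hm | ⟨rfl, hn⟩ <;> rcases b2 u' hu' with hm' | ⟨rfl, hn'⟩
    · by_cases A : NC1 G W r ∨ sp r <;> by_cases A' : NC1 G W r' ∨ sp r'
      · exact hno r r' hr hr' hne (near11 (a1 A u hu) (b1 A' u' hu') hh)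
      · exact A' (Or.inl (N3 r' r hr' hr hne.symm (near21 hm' (a1 A u hu) hh')))
      · exact A (Or.inl (N3 r r' hr hr' hne (near21 hm (b1 A' u' hu') hh)))
      · rcases N4 r r' hr hr' hne (near22 hm hm' hh) with x | x
        · exact A x
        · exact A' x
    · rcases hh with rfl | hh
      · exact hm.1 hr'.mem
      · exact hno r u' hr hr' hne (near20 hm hh)
    · rcases hh' with rfl | hh'
      · exact hm'.1 hr.mem
      · exact hno r' u hr' hr hne.symm (near20 hm' hh')
    · exact hT2 V G k Q W R u u' h hr hr' hne hn hn'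
  obtain ⟨I, hI, hIc⟩ := asm (G := G) Rt D (fun r hr => (hD r ((hRt r).1 hr)).1) (by
    intro r hr r' hr' hne u hu u' hu'
    have := sep r r' ((hRt r).1 hr) ((hRt r').1 hr') hne u hu u' hu'
    tauto)
  refine ⟨I, hI, ?_⟩
  have hsum : ∑ _r ∈ Rt, 2 ≤ ∑ r ∈ Rt, ((D r).card + (if sp r then 1 else 0)) :=
    Finset.sum_le_sum fun r hr => (hD r ((hRt r).1 hr)).2.1
  have hw1 : ∑ r ∈ Rt, (if sp r then 1 else 0) ≤ 1 := by
    rw [← Finset.card_filter, Finset.card_le_one]
    intro a ha b hb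
    have e1 := (Finset.mem_filter.1 ha).2.2.2
    have e2 := (Finset.mem_filter.1 hb).2.2.2
    rw [e1] at e2
    exact Option.some.inj e2
  have hw0 : ¬ (Q.card = 4 ∧ k ≤ 6) → ∑ r ∈ Rt, (if sp r then 1 else 0) = 0 := by
    intro hs
    rw [← Finset.card_filter, Finset.card_eq_zero, Finset.filter_eq_empty_iff]
    intro a _ ha
    exact hs ⟨ha.1, ha.2.1⟩
  rw [Finset.sum_add_distrib, ← hIc, Finset.sum_const, hcard, smul_eq_mul] at hsum
  have hb := h.base.big
  by_cases hs : Q.card = 4 ∧ k ≤ 6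
  · omega
  · have := hw0 hs
    omega

end Vale.Agent.P048
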