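import Vale.Agent.P048.Spec

namespace Vale.Agent.P048

namespace Rootm

variable {V : Type} [DecidableEq V] (Q : Finset V)

def rts : Bool → List V → List V
  | _, [] => []
  | b, v :: l => (if b then [v] else []) ++ rts (decide (v ∈ Q)) l

theorem sub : ∀ (b : Bool) (l : List V), (rts Q b l).Sublist l
  | _, [] => List.Sublist.refl _
  | true, v :: l => by simpa [rts] using sub _ l
  | false, v :: l => by simpa [rts] using (sub _ l).cons v

theorem mem (r : V) : ∀ (b : Bool) (l : List V), r ∈ rts Q b l ↔
    ∃ A C : List V, l = A ++ r :: C ∧ (A = [] → b = true) ∧ ∀ q ∈ A.getLast?, q ∈ Q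
  | _, [] => by simp [rts]
  | b, v :: l => by
    rw [rts, List.mem_append, mem r _ l]
    constructor
    · rintro (h | ⟨A, C, rfl, h1, h2⟩)
      · cases b
        · simp at h
        · obtain rfl : r = v := by simpa using h
          exact ⟨[], l, rfl, fun _ => rfl, by simp⟩
      · refine ⟨v :: A, C, rfl, by simp, ?_⟩
        cases A with
        | nil => simpa using h1
        | cons a A => simpa using h2
    · rintro ⟨A, C, e, h1, h2⟩
      cases A with
      | nil =>
        obtain ⟨rfl, -⟩ : v = r ∧ l = C := by simpa using e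
        simp [h1 rfl]
      | cons a A =>
        obtain ⟨rfl, rfl⟩ : v = a ∧ l = A ++ r :: C := by simpa using e
        refine Or.inr ⟨A, C, rfl, ?_, ?_⟩
        · rintro rfl; simpa using h2
        · cases A with
          | nil => simp
          | cons a' A => simpa using h2

theorem len : ∀ (l : List V) (b : Bool), (∃ q ∈ l.getLast?, q ∈ Q) →
    (rts Q b l).length + 1 = (if b then 1 else 0) + l.countP (fun v => decide (v ∈ Q))
  | [], _, h => by simp at h
  | [v], b, h => by
    have : v ∈ Q := by simpa using h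
    cases b <;> simp [rts, this]
  | v :: w :: l, b, h => by
    have := len (w :: l) (decide (v ∈ Q)) (by simpa using h)
    rw [rts, List.length_append, add_assoc, this, List.countP_cons (a := v)]
    cases b <;> simp <;> omega

theorem cnt {W : List V} (hn : W.Nodup) (hs : ∀ q ∈ Q, q ∈ W) :
    W.countP (fun v => decide (v ∈ Q)) = Q.card := by
  rw [List.countP_eq_length_filter, ← List.toFinset_card_of_nodup (hn.filter _)]
  congr 1
  ext v
  simpa using hs v

omit [DecidableEq V] in
theorem uniq {A C A' C' : List V} {z : V} (hn : (A ++ z :: C).Nodup)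
    (e : A ++ z :: C = A' ++ z :: C') : A = A' ∧ C = C' := by
  have h := List.nodup_middle.1 hn
  have h2 := (List.nodup_cons.1 h).1
  have := (List.append_cons_inj_of_notMem (fun c => h2 (by simp [c])) (fun c => h2 (by simp [c]))).1 e
  exact ⟨this.1, this.2.2⟩

theorem first : ∀ (W : List V), (∃ p ∈ W, p ∉ Q) →
    ∃ A p C, W = A ++ p :: C ∧ p ∉ Q ∧ ∀ q ∈ A, q ∈ Q
  | [], h => by simp at h
  | v :: l, h => by
    by_cases c : v ∈ Q
    · obtain ⟨A, p, C, rfl, h1, h2⟩ := first l (by simpa [c] using h)
      exact ⟨v :: A, p, C, rfl, h1, by simpa [c] using h2⟩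
    · exact ⟨[], v, l, rfl, c, by simp⟩

end Rootm

open Rootm in
theorem stmtRoot : StmtRoot := by
  intro V _ G Q W ⟨hn, _, ⟨a, ha, haQ⟩, hl⟩ hs
  refine ⟨⟨(rts Q true W).toFinset, fun r => ?_, ?_⟩, ?_, ?_, ?_, ?_, ?_⟩
  · simp [mem, Root]
  · have := len Q W true hl
    rw [cnt Q hn hs] at this
    rw [List.toFinset_card_of_nodup (hn.sublist (sub Q _ _))]
    simp at this; omega
  · rintro A p z C rfl hp ⟨A', C', e, h⟩
    have e' : (A ++ [p]) ++ z :: C = A' ++ z :: C' := by simpa using e
    obtain ⟨rfl, -⟩ := uniq (by simpa using hn) e'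
    exact hp (h p (by simp))
  · intro p hp hq
    obtain ⟨A, C, rfl⟩ := List.append_of_mem hp
    cases C with
    | nil => simp [hq] at hl
    | cons z C => exact ⟨A, z, C, rfl⟩
  · rintro p ⟨A, C, rfl, h⟩ hp
    rcases List.eq_nil_or_concat A with rfl | ⟨A, q, rfl⟩
    · obtain rfl : p = a := by simpa using ha
      exact absurd haQ hp
    · exact ⟨A, q, C, by simp, h q (by simp)⟩
  · intro p hp hq
    obtain ⟨A, p', C, e, h1, h2⟩ := first Q W ⟨p, hp, hq⟩
    exact ⟨p', ⟨A, C, e, fun q hq => h2 q (List.mem_of_getLast? hq)⟩, h1⟩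
  · rw [← cnt Q hn hs, outer, List.length_eq_countP_add_countP (fun v => decide (v ∈ Q)), add_comm]
    simp

end Vale.Agent.P048
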