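import Vale.Agent.P048.Spec

namespace Vale.Agent.P048.Rotm

variable {V : Type} [DecidableEq V] {G : SimpleGraph V} {Q : Finset V}

theorem spl : ∀ L : List V, (∃ b ∈ L.getLast?, b ∈ Q) → ∃ P L0 : List V, L = P ++ L0 ∧
    (∀ p ∈ P, p ∉ Q) ∧ (∃ a ∈ L0.head?, a ∈ Q) ∧ ∃ b ∈ L0.getLast?, b ∈ Q
  | [], h => by simp at h
  | x :: L, h => by
    by_cases hx : x ∈ Q
    · exact ⟨[], x :: L, rfl, by simp, ⟨x, by simp, hx⟩, h⟩
    · have h' : ∃ b ∈ L.getLast?, b ∈ Q := by
        obtain ⟨b, hb, hQ⟩ := h
        cases L with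
        | nil => simp at hb; exact absurd (hb ▸ hQ) hx
        | cons y L => exact ⟨b, by simpa using hb, hQ⟩
      obtain ⟨P, L0, e, h1, h2, h3⟩ := spl L h'
      refine ⟨x :: P, L0, by rw [e]; rfl, ?_, h2, h3⟩
      intro p hp
      rcases List.mem_cons.1 hp with rfl | hp
      · exact hx
      · exact h1 p hp

theorem allQ (S : StrApi Q) {R : List ℕ} {W : List V} (h : Str Q R W) (h0 : ∀ l ∈ R, l = 0) :
    ∀ v ∈ W, v ∈ Q := by
  have h1 := S.out R W h
  rw [List.sum_eq_zero h0, outer, List.countP_eq_zero] at h1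
  intro v hv
  simpa using h1 v hv

theorem nz_zero (R : List ℕ) : nz (0 :: R) = nz R := by simp [nz]

theorem nz_perm {R R' : List ℕ} (h : R.Perm R') : (nz R).Perm (nz R') := h.filter _

theorem run_head {A P T : List V} {p : V} (hn : (A ++ (P ++ T)).Nodup) (hP : ∀ p ∈ P, p ∉ Q)
    (hr : Root Q (A ++ (P ++ T)) p) (hp : p ∈ P) : P.head? = some p := by
  obtain ⟨X, Y, rfl⟩ := List.append_of_mem hp
  obtain ⟨A', C', e, h⟩ := hr
  have e' : (A ++ X) ++ p :: (Y ++ T) = A' ++ p :: C' := by rw [← e]; simp
  have hn' : ((A ++ X) ++ p :: (Y ++ T)).Nodup := by simpa using hn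
  rw [List.nodup_middle, List.nodup_cons, List.mem_append, not_or] at hn'
  have e2 := ((List.append_cons_inj_of_notMem hn'.1.1 hn'.1.2).1 e').1
  cases X using List.reverseRecOn with
  | nil => simp
  | append_singleton X x =>
    exfalso
    refine hP x (by simp) (h x ?_)
    rw [← e2]; simp

theorem core (S : StrApi Q) (A M C' : List V) (R : List ℕ) (r r' : V) (E : List V)
    (hQ : Clq G Q) (hW : QP G Q (A ++ r :: (M ++ r' :: C')))
    (hS : Str Q R (A ++ r :: (M ++ r' :: C'))) (hA : ∀ q ∈ A.getLast?, q ∈ Q)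
    (hB : ∀ q ∈ (r :: M).getLast?, q ∈ Q) (hE : Ear G (A ++ r :: (M ++ r' :: C')) r r' E)
    (hEQ : ∀ e ∈ E, e ∉ Q) :
    ∃ (W' : List V) (R' R0 : List ℕ) (l1 l2 : ℕ), QP G Q W' ∧
      W'.Perm ((A ++ r :: (M ++ r' :: C')) ++ E) ∧ Str Q R' W' ∧
      (nz R).Perm (nz (l1 :: l2 :: R0)) ∧ (nz R').Perm (nz ((l1 + E.length + l2) :: R0)) ∧
      (l1 = 0 → l2 = 0 → r ∈ Q ∧ r' ∈ Q) ∧
      ((∀ l ∈ R0, l = 0) → ∀ p, Root Q (A ++ r :: (M ++ r' :: C')) p → p ∉ Q →
        p = r ∨ p = r') := by
  obtain ⟨n1, n2, ⟨a, ha, haQ⟩, z, hz, hzQ⟩ := hW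
  obtain ⟨m1, m2, m3, ⟨e1, he1, hre⟩, e2, he2, her⟩ := hE
  have hz' : z ∈ (r' :: C').getLast? := by
    have : A ++ r :: (M ++ r' :: C') = (A ++ r :: M) ++ (r' :: C') := by simp
    rw [this, List.getLast?_append_of_ne_nil _ (by simp)] at hz
    exact hz
  have hb : (r :: M).getLast (by simp) ∈ (r :: M).getLast? := by
    rw [List.getLast?_eq_some_getLast (by simp)]; rfl
  generalize (r :: M).getLast (by simp) = b at hb
  obtain ⟨P1, B0, eB, p1, b1, b2⟩ := spl (Q := Q) (r :: M) ⟨b, hb, hB b hb⟩
  obtain ⟨P2, C0, eC, p2, c1, c2⟩ := spl (Q := Q) (r' :: C') ⟨z, hz', hzQ⟩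
  obtain ⟨RB, sB⟩ := S.ex B0 b1 b2
  obtain ⟨RC, sC⟩ := S.ex C0 c1 c2
  have eW : A ++ r :: (M ++ r' :: C') = A ++ (P1 ++ (B0 ++ (P2 ++ C0))) := by
    rw [← eC, ← List.append_assoc P1, ← eB]; rfl
  have eW' : A ++ ((r :: M).reverse ++ (E ++ r' :: C')) =
      A ++ (B0.reverse ++ ((P1.reverse ++ E ++ P2) ++ C0)) := by
    rw [eB, eC]; simp
  have perm : (A ++ ((r :: M).reverse ++ (E ++ r' :: C'))).Perm
      ((A ++ r :: (M ++ r' :: C')) ++ E) := by
    rw [List.append_assoc]
    refine List.Perm.append_left A ?_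
    have : r :: (M ++ r' :: C') ++ E = (r :: M) ++ ((r' :: C') ++ E) := by simp
    rw [this]
    exact (List.reverse_perm _).append List.perm_append_comm
  have nd : (A ++ ((r :: M).reverse ++ (E ++ r' :: C'))).Nodup := by
    rw [perm.nodup_iff, List.nodup_append]
    exact ⟨n1, m1, fun x hx y hy e => m3 y hy (e ▸ hx)⟩
  have n3 : (A ++ ((r :: M) ++ r' :: C')).IsChain G.Adj := n2
  rw [List.isChain_append, List.isChain_append] at n3
  have qp : QP G Q (A ++ ((r :: M).reverse ++ (E ++ r' :: C'))) := by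
    have hh : ((r :: M).reverse ++ (E ++ r' :: C')).head? = some b := by
      rw [List.head?_append_of_ne_nil _ (by simp), List.head?_reverse]; exact hb
    refine ⟨nd, ?_, ?_, z, ?_, hzQ⟩
    · rw [List.isChain_append, List.isChain_append, List.isChain_append]
      refine ⟨n3.1, ⟨?_, ⟨m2, n3.2.1.2.1, ?_⟩, ?_⟩, ?_⟩
      · rw [List.isChain_reverse]
        exact n3.2.1.1.imp fun _ _ h => h.symm
      · intro x hx y hy
        simp only [List.head?_cons, Option.mem_def, Option.some.injEq] at hy
        rw [Option.mem_def] at hx he2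
        rw [hx] at he2
        obtain rfl := Option.some.inj he2
        exact hy ▸ her
      · intro x hx y hy
        rw [List.getLast?_reverse] at hx
        simp only [List.head?_cons, Option.mem_def, Option.some.injEq] at hx
        cases E with
        | nil => simp at he1
        | cons e E =>
          simp only [List.head?_cons, Option.mem_def, Option.some.injEq, List.cons_append] at he1 hy
          exact hx ▸ hy ▸ he1 ▸ hre
      · intro x hx y hy
        rw [hh] at hy
        obtain rfl := Option.some.inj hy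
        refine hQ x (hA x hx) _ (hB _ hb) ?_
        rintro rfl
        rw [List.nodup_append] at n1
        refine n1.2.2 x (List.mem_of_getLast? hx) x ?_ rfl
        have := List.mem_of_getLast? hb
        rw [← List.cons_append]
        exact List.mem_append_left _ this
    · cases A with
      | nil => exact ⟨b, hh, hB b hb⟩
      | cons x A => exact ⟨a, by simpa using ha, haQ⟩
    · rw [← List.append_assoc, ← List.append_assoc, List.getLast?_append_of_ne_nil _ (by simp)]
      exact hz'
  have pm : ∀ p ∈ P1.reverse ++ E ++ P2, p ∉ Q := by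
    intro p hp
    simp only [List.mem_append, List.mem_reverse] at hp
    rcases hp with (hp | hp) | hp
    exacts [p1 p hp, hEQ p hp, p2 p hp]
  have s1 := S.app _ _ P2 _ _ sB p2 sC
  have s2 := S.app _ _ _ _ _ (S.rev _ _ sB) pm sC
  have len : (P1.reverse ++ E ++ P2).length = P1.length + E.length + P2.length := by simp; ring
  rw [len] at s2
  have hq : P1.length = 0 → P2.length = 0 → r ∈ Q ∧ r' ∈ Q := by
    intro h1 h2
    rw [List.length_eq_zero_iff] at h1 h2
    subst h1 h2
    rw [List.nil_append] at eB eC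
    subst eB eC
    exact ⟨by simpa using b1, by simpa using c1⟩
  have hroot : (∀ v ∈ A, v ∈ Q) → (∀ l ∈ RB, l = 0) → (∀ l ∈ RC, l = 0) →
      ∀ p, Root Q (A ++ r :: (M ++ r' :: C')) p → p ∉ Q → p = r ∨ p = r' := by
    intro a0 a1 a2 p hp hpQ
    have hm := hp.mem
    rw [eW] at hp n1 hm
    simp only [List.mem_append] at hm
    rcases hm with hm | hm | hm | hm | hm
    · exact absurd (a0 p hm) hpQ
    · have := run_head n1 p1 hp hm
      left
      cases P1 with
      | nil => simp at hm
      | cons x P1 =>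
        simp only [List.head?_cons, Option.some.injEq] at this
        rw [← this]; exact (List.cons.inj eB).1.symm
    · exact absurd (allQ S sB a1 p hm) hpQ
    · rw [← List.append_assoc P1, ← List.append_assoc A] at hp n1
      have := run_head n1 p2 hp hm
      right
      cases P2 with
      | nil => simp at hm
      | cons x P2 =>
        simp only [List.head?_cons, Option.some.injEq] at this
        rw [← this]; exact (List.cons.inj eC).1.symm
    · exact absurd (allQ S sC a2 p hm) hpQ
  have pr : ∀ x : ℕ, (RB.reverse ++ x :: RC).Perm (x :: (RB ++ RC)) := fun x =>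
    List.perm_middle.trans (((List.reverse_perm RB).append_right RC).cons x)
  cases A with
  | nil =>
    have h0 : P1 = [] := by
      cases P1 with
      | nil => rfl
      | cons x P1 =>
        exfalso
        simp only [List.nil_append, List.head?_cons, Option.mem_def, Option.some.injEq] at ha
        exact p1 x (by simp) ((List.cons.inj eB).1 ▸ ha ▸ haQ)
    subst h0
    have eR : R = RB ++ P2.length :: RC := S.uniq _ _ _ hS (by rw [eW]; exact s1)
    refine ⟨_, _, RB ++ RC, 0, P2.length, qp, perm, by rw [eW']; exact s2, ?_,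
      nz_perm (pr _), hq, fun h => hroot (by simp) (fun l hl => h l (by simp [hl]))
        fun l hl => h l (by simp [hl])⟩
    rw [eR, nz_zero]
    exact nz_perm List.perm_middle
  | cons x A =>
    obtain ⟨RA, sA⟩ := S.ex (x :: A) ⟨a, by simpa using ha, haQ⟩
      ⟨(x :: A).getLast (by simp), by rw [List.getLast?_eq_some_getLast (by simp)]; rfl,
        hA _ (by rw [List.getLast?_eq_some_getLast (by simp)]; rfl)⟩
    have s3 := S.app _ _ P1 _ _ sA p1 s1
    have s4 := S.app _ _ [] _ _ sA (by simp) s2
    have eR : R = RA ++ P1.length :: (RB ++ P2.length :: RC) :=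
      S.uniq _ _ _ hS (by rw [eW]; exact s3)
    refine ⟨_, _, RA ++ (RB ++ RC), P1.length, P2.length, qp, perm, by rw [eW']; exact s4, ?_, ?_,
      hq, fun h => hroot (allQ S sA fun l hl => h l (by simp [hl]))
        (fun l hl => h l (by simp [hl])) fun l hl => h l (by simp [hl])⟩
    · rw [eR]
      exact nz_perm (List.perm_middle.trans
        ((((List.perm_middle).append_left RA).trans List.perm_middle).cons _))
    · refine (nz_perm List.perm_middle).trans ?_
      rw [List.length_nil, nz_zero]
      exact nz_perm (((pr _).append_left RA).trans List.perm_middle)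

end Vale.Agent.P048.Rotm

namespace Vale.Agent.P048

open Rotm

theorem stmtRot (hS : StmtStr) : StmtRot := by
  intro V _ G Q W R r r' E hQ hW hR ⟨A, C, e, hA⟩ ⟨A', C', e', hA'⟩ hne hE hEQ
  have S := hS V Q
  rcases List.append_eq_append_iff.1 (e.symm.trans e') with ⟨M, e1, e2⟩ | ⟨M, e1, e2⟩
  · cases M with
    | nil => exact absurd (List.cons.inj e2).1 hne
    | cons x M =>
      obtain ⟨rfl, e3⟩ := List.cons.inj e2
      subst e3 e e1
      refine core S A M C' R r r' E hQ hW hR hA ?_ hE hEQ
      intro q hq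
      exact hA' q (by rw [List.getLast?_append_of_ne_nil _ (by simp)]; exact hq)
  · cases M with
    | nil => exact absurd (List.cons.inj e2).1.symm hne
    | cons x M =>
      obtain ⟨rfl, e3⟩ := List.cons.inj e2
      subst e3 e' e1
      obtain ⟨W', R', R0, l1, l2, a1, a2, a3, a4, a5, a6, a7⟩ :=
        core S A' M C R r' r E.reverse hQ hW hR hA' (by
          intro q hq
          exact hA q (by rw [List.getLast?_append_of_ne_nil _ (by simp)]; exact hq)) hE.rev
          (by simpa using hEQ)
      refine ⟨W', R', R0, l2, l1, a1, a2.trans ((List.reverse_perm E).append_left _), a3,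
        a4.trans (nz_perm (List.Perm.swap _ _ _)), ?_, fun h1 h2 => (a6 h2 h1).symm,
        fun h p hp hq => (a7 h p hp hq).symm⟩
      have : l2 + E.length + l1 = l1 + E.reverse.length + l2 := by simp; ring
      rw [this]; exact a5

end Vale.Agent.P048
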