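import Vale.Agent.P048.Spec

namespace Vale.Agent.P048

namespace Shortm

theorem cut {V : Type} (G : SimpleGraph V) (E : List V) (h : E.IsChain G.Adj) :
    ∃ E' : List V, E'.Nodup ∧ E'.IsChain G.Adj ∧ (∀ e ∈ E', e ∈ E) ∧ E'.head? = E.head? ∧
      E'.getLast? = E.getLast? ∧ E'.length ≤ E.length := by
  induction E with
  | nil => exact ⟨[], by simp⟩
  | cons a T ih =>
    obtain ⟨T', h1, h2, h3, h4, h5, h6⟩ := ih h.tail
    cases T with
    | nil => exact ⟨[a], by simp⟩
    | cons b T =>
      by_cases ha : a ∈ T'
      · obtain ⟨A, C, rfl⟩ := List.append_of_mem ha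
        refine ⟨a :: C, h1.sublist (List.sublist_append_right _ _), h2.right_of_append,
          fun e he => List.mem_cons_of_mem _ (h3 e (List.mem_append_right _ he)), rfl, ?_, ?_⟩
        · rw [List.getLast?_cons_cons, ← h5, List.getLast?_append,
            List.getLast?_eq_some_getLast (l := a :: C) (by simp)]
          rfl
        · simp only [List.length_append, List.length_cons] at h6 ⊢
          omega
      · cases T' with
        | nil => simp at h4
        | cons c T' =>
          obtain rfl : c = b := by simpa using h4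
          refine ⟨a :: c :: T', List.nodup_cons.2 ⟨ha, h1⟩,
            List.isChain_cons_cons.2 ⟨(List.isChain_cons_cons.1 h).1, h2⟩, fun e he => ?_, rfl,
            by rw [List.getLast?_cons_cons, List.getLast?_cons_cons, h5], by simpa using h6⟩
          rcases List.mem_cons.1 he with rfl | he
          · simp
          · exact List.mem_cons_of_mem _ (h3 e he)

end Shortm

theorem stmtShort : StmtShort := by
  rintro V G W r r' E ⟨h1, h2, h3, h4⟩
  obtain ⟨E', a1, a2, a3, a4, a5, a6⟩ := Shortm.cut G E h1
  exact ⟨E', ⟨a1, a2, fun e he => h2 e (a3 e he), a4 ▸ h3, a5 ▸ h4⟩, a6, a4⟩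

end Vale.Agent.P048
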