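import Vale.Agent.P048.Spec

namespace Vale.Agent.P048

namespace Smallm

variable {V : Type} {G : SimpleGraph V}

theorem par {v u : V} (h : G.dist v u = 2) : ∃ p, G.Adj v p ∧ G.Adj p u := by
  obtain ⟨w, hw⟩ := SimpleGraph.exists_walk_of_dist_ne_zero (G := G) (u := v) (v := u) (by omega)
  rw [h] at hw
  match w, hw with
  | .cons h1 (.cons h2 .nil), _ => exact ⟨_, h1, h2⟩

theorem six (hn : NoCyc G 5) {v a b c pa pb : V} (ha : G.dist v a = 2) (hb : G.dist v b = 2)
    (hc : G.dist v c = 2) (h1 : G.Adj v pa) (h2 : G.Adj pa a) (h3 : G.Adj v pb) (h4 : G.Adj pb b)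
    (hab : a ≠ b) (hac : G.Adj a c) (hcb : G.Adj c b) (hp : pa ≠ pb) : False := by
  have d0 : G.dist v v = 0 := SimpleGraph.dist_self
  have d1 : G.dist v pa = 1 := SimpleGraph.dist_eq_one_iff_adj.2 h1
  have d2 : G.dist v pb = 1 := SimpleGraph.dist_eq_one_iff_adj.2 h3
  have ne : ∀ x y, G.dist v x ≠ G.dist v y → x ≠ y := fun x y h e => h (e ▸ rfl)
  refine hn [v, pa, a, c, b, pb] ?_ (by simp [h1, h2, hac, hcb, h4.symm]) rfl v (by simp) pb
    (by simp) h3.symm
  simp [ne v pa (by omega), ne v a (by omega), ne v c (by omega), ne v b (by omega),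
    ne v pb (by omega), ne pa a (by omega), ne pa c (by omega), ne pa b (by omega), hp, hac.ne,
    hab, ne a pb (by omega), hcb.ne, ne c pb (by omega), ne b pb (by omega)]

theorem clq_insert [DecidableEq V] {K : Finset V} {v : V} {s : ℕ} (hO : Om G s) (hK : Clq G K)
    (h : ∀ u ∈ K, G.Adj v u) : K.card + 1 ≤ s := by
  have hv : v ∉ K := fun c => G.irrefl (h v c)
  rw [← Finset.card_insert_of_notMem hv]
  refine hO _ fun x hx y hy e => ?_
  rcases Finset.mem_insert.1 hx with rfl | hx' <;> rcases Finset.mem_insert.1 hy with rfl | hy'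
  · exact absurd rfl e
  · exact h y hy'
  · exact (h x hx').symm
  · exact hK x hx' y hy' e

theorem two [DecidableEq V] (hn : NoCyc G 5) (hO : Om G 3) {v : V} {K : Finset V}
    (hK : Clq G K) (h : ∀ u ∈ K, G.dist v u = 2) : K.card ≤ 2 := by
  by_contra c
  obtain ⟨a, ha, b, hb, d, hd, hab, had, hbd⟩ := Finset.two_lt_card.1 (not_le.1 c)
  obtain ⟨p, h1, h2⟩ := par (h a ha)
  have key : ∀ u ∈ K, G.Adj p u := fun u hu => by
    by_cases e : a = u
    · exact e ▸ h2
    obtain ⟨p', h3, h4⟩ := par (h u hu)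
    by_cases e' : p = p'
    · exact e' ▸ h4
    exfalso
    by_cases e2 : u = b
    · subst e2
      exact six hn (h a ha) (h u hu) (h d hd) h1 h2 h3 h4 e (hK a ha d hd had)
        (hK d hd u hu hbd.symm) e'
    · exact six hn (h a ha) (h u hu) (h b hb) h1 h2 h3 h4 e (hK a ha b hb hab)
        (hK b hb u hu (Ne.symm e2)) e'
  have := clq_insert hO hK key
  omega

end Smallm

open Smallm in
theorem stmtSmall (h0 : StmtLayer0) (h1 : StmtLayer1) (hB : StmtBFS) : StmtSmall := by
  intro V _ _ G k v hk hn hp hO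
  have mem : ∀ i u, u ∈ layer G v i ↔ G.dist v u = i := fun i u => by simp [layer]
  have adj : ∀ u, u ∈ layer G v 1 ↔ G.Adj v u := fun u =>
    (mem 1 u).trans SimpleGraph.dist_eq_one_iff_adj
  refine hB V G k v hk hp fun i hi hi' => ?_
  by_cases c : i = 1 ∧ k % 2 = 0
  · obtain ⟨rfl, c⟩ := c
    have hO' : Om G (k / 2) := hO.resolve_right fun d => by omega
    have hne : (layer G v 1).Nonempty := by
      by_contra d
      have := hp.deg v {v} (by simp) fun w hw => absurd ⟨w, (adj w).2 hw⟩ d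
      simp at this
      omega
    obtain ⟨I, a1, a2, a3⟩ := h1 V G k v _ hk c hn hne (fun u hu => (adj u).1 hu) fun K b1 b2 => by
      have := clq_insert hO' b2 fun u hu => (adj u).1 (b1 hu)
      omega
    exact ⟨I, a1, a2, by omega, fun _ _ => a3⟩
  · obtain ⟨I, a1, a2, a3⟩ := h0 V G k i v (layer G v i) hk hn hi hi' (fun u hu => (mem i u).1 hu)
      fun K b1 b2 => by
        rcases hO with hO | ⟨rfl, hO⟩
        · exact hO K b2
        · obtain rfl | rfl : i = 1 ∨ i = 2 := by omega
          · have := clq_insert hO b2 fun u hu => (adj u).1 (b1 hu)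
            omega
          · exact two hn hO b2 fun u hu => (mem 2 u).1 (b1 hu)
    exact ⟨I, a1, a2, a3, fun d d' => absurd ⟨d, d'⟩ c⟩

end Vale.Agent.P048
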