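import Vale.Agent.P048.Spec

namespace Vale.Agent.P048

namespace Strm
variable {V : Type} {Q : Finset V}

theorem ne_nil {R : List ℕ} {W : List V} (h : Str Q R W) : W ≠ [] := by
  cases h <;> simp

theorem head {R : List ℕ} {W : List V} (h : Str Q R W) : ∃ a ∈ W.head?, a ∈ Q := by
  cases h with
  | one q hq => exact ⟨q, by simp, hq⟩
  | cons q P R W hq _ _ => exact ⟨q, by simp, hq⟩

theorem head' {R : List ℕ} {W : List V} (h : Str Q R W) : ∃ a T, W = a :: T ∧ a ∈ Q := by
  cases h with
  | one q hq => exact ⟨q, [], rfl, hq⟩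
  | cons q P R W hq _ _ => exact ⟨q, _, rfl, hq⟩

theorem last {R : List ℕ} {W : List V} (h : Str Q R W) : ∃ b ∈ W.getLast?, b ∈ Q := by
  induction h with
  | one q hq => exact ⟨q, by simp, hq⟩
  | cons q P R W hq hP hW ih =>
    obtain ⟨b, hb, hbQ⟩ := ih
    refine ⟨b, ?_, hbQ⟩
    have e : q :: (P ++ W) = (q :: P) ++ W := rfl
    rw [e, List.getLast?_append]
    simp only [Option.mem_def] at hb ⊢
    rw [hb]
    rfl

theorem app {R1 : List ℕ} {W1 : List V} (h1 : Str Q R1 W1) {P : List V} {R2 : List ℕ}
    {W2 : List V} (hP : ∀ p ∈ P, p ∉ Q) (h2 : Str Q R2 W2) :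
    Str Q (R1 ++ P.length :: R2) (W1 ++ (P ++ W2)) := by
  induction h1 with
  | one q hq => exact Str.cons q P R2 W2 hq hP h2
  | cons q P' R W hq hP' hW ih =>
    have := Str.cons q P' _ _ hq hP' ih
    simpa [List.append_assoc] using this

theorem rev {R : List ℕ} {W : List V} (h : Str Q R W) : Str Q R.reverse W.reverse := by
  induction h with
  | one q hq => exact Str.one q hq
  | cons q P R W hq hP hW ih =>
    have := app ih (P := P.reverse) (by simpa using hP) (Str.one q hq)
    simpa [List.append_assoc] using this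

theorem split {R1 : List ℕ} {l : ℕ} {R2 : List ℕ} {W : List V} (h : Str Q (R1 ++ l :: R2) W) :
    ∃ W1 P W2 : List V, W = W1 ++ (P ++ W2) ∧
      Str Q R1 W1 ∧ (∀ p ∈ P, p ∉ Q) ∧ P.length = l ∧ Str Q R2 W2 := by
  induction R1 generalizing W with
  | nil =>
    cases h with
    | cons q P R W hq hP hW => exact ⟨[q], P, W, rfl, Str.one q hq, hP, rfl, hW⟩
  | cons x R1 ih =>
    cases h with
    | cons q P R W hq hP hW =>
      obtain ⟨W1, P', W2, rfl, h1, h2, h3, h4⟩ := ih hW
      exact ⟨q :: (P ++ W1), P', W2, by simp, Str.cons q P R1 W1 hq hP h1, h2, h3, h4⟩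

/-- a list ending in `Q` splits as a run outside `Q` followed by a list starting in `Q` -/
theorem firstQ (T : List V) (h : ∃ b ∈ T, b ∈ Q) :
    ∃ (P : List V) (a : V) (C : List V), T = P ++ a :: C ∧ (∀ p ∈ P, p ∉ Q) ∧ a ∈ Q := by
  induction T with
  | nil => simp at h
  | cons x T ih =>
    by_cases hx : x ∈ Q
    · exact ⟨[], x, T, rfl, by simp, hx⟩
    · obtain ⟨b, hb, hbQ⟩ := h
      have hbT : b ∈ T := by
        rcases List.mem_cons.1 hb with rfl | hb
        · exact absurd hbQ hx
        · exact hb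
      obtain ⟨P, a, C, rfl, h1, h2⟩ := ih ⟨b, hbT, hbQ⟩
      refine ⟨x :: P, a, C, rfl, ?_, h2⟩
      intro p hp
      rcases List.mem_cons.1 hp with rfl | hp
      · exact hx
      · exact h1 p hp

theorem ex_aux (n : ℕ) : ∀ W : List V, W.length ≤ n → (∃ a ∈ W.head?, a ∈ Q) →
    (∃ b ∈ W.getLast?, b ∈ Q) → ∃ R, Str Q R W := by
  induction n with
  | zero =>
    intro W hW ⟨a, ha, _⟩ _
    have : W = [] := List.eq_nil_of_length_eq_zero (by omega)
    subst this
    simp at ha
  | succ n ih =>
    intro W hW ⟨a, ha, haQ⟩ ⟨b, hb, hbQ⟩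
    match W, hW, ha, hb with
    | [], _, ha, _ => simp at ha
    | [x], _, ha, _ =>
      simp only [List.head?_cons, Option.mem_def, Option.some.injEq] at ha
      subst ha
      exact ⟨[], Str.one x haQ⟩
    | x :: y :: T, hW, ha, hb =>
      simp only [List.head?_cons, Option.mem_def, Option.some.injEq] at ha
      subst ha
      have hb' : b ∈ (y :: T).getLast? := by simpa using hb
      obtain ⟨P, a, C, e, h1, h2⟩ := firstQ (Q := Q) (y :: T) ⟨b, List.mem_of_getLast? hb', hbQ⟩
      have hl : (a :: C).length ≤ n := by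
        have := congrArg List.length e
        simp only [List.length_cons, List.length_append] at this hW ⊢
        omega
      have hb2 : b ∈ (a :: C).getLast? := by
        rw [e, List.getLast?_append] at hb'
        simpa [List.getLast?_cons] using hb'
      obtain ⟨R, hR⟩ := ih (a :: C) hl ⟨a, by simp, h2⟩ ⟨b, hb2, hbQ⟩
      exact ⟨_, e ▸ Str.cons x P R (a :: C) haQ h1 hR⟩

theorem run_eq {P P' : List V} {a a' : V} {C C' : List V} (hP : ∀ p ∈ P, p ∉ Q)
    (hP' : ∀ p ∈ P', p ∉ Q) (ha : a ∈ Q) (ha' : a' ∈ Q) (e : P ++ a :: C = P' ++ a' :: C') :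
    P = P' ∧ a :: C = a' :: C' := by
  induction P generalizing P' with
  | nil =>
    cases P' with
    | nil => exact ⟨rfl, e⟩
    | cons x P' =>
      simp only [List.nil_append, List.cons_append, List.cons.injEq] at e
      exact absurd ha (e.1 ▸ hP' x (by simp))
  | cons y P ih =>
    cases P' with
    | nil =>
      simp only [List.nil_append, List.cons_append, List.cons.injEq] at e
      exact absurd ha' (e.1 ▸ hP y (by simp))
    | cons x P' =>
      simp only [List.cons_append, List.cons.injEq] at e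
      obtain ⟨h1, h2⟩ := ih (fun p hp => hP p (by simp [hp])) (fun p hp => hP' p (by simp [hp])) e.2
      exact ⟨by rw [e.1, h1], h2⟩

theorem inv {R : List ℕ} {W : List V} (h : Str Q R W) :
    (R = [] ∧ ∃ q, W = [q]) ∨ ∃ q P R0 W0, R = P.length :: R0 ∧ W = q :: (P ++ W0) ∧
      (∀ p ∈ P, p ∉ Q) ∧ Str Q R0 W0 := by
  cases h with
  | one q hq => exact Or.inl ⟨rfl, q, rfl⟩
  | cons q P R W hq hP hW => exact Or.inr ⟨q, P, R, W, rfl, rfl, hP, hW⟩

theorem uniq {R : List ℕ} {W : List V} (h : Str Q R W) : ∀ R', Str Q R' W → R = R' := by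
  induction h with
  | one q hq =>
    intro R' h'
    rcases inv h' with ⟨rfl, -⟩ | ⟨q', P, R0, W0, -, e, -, hW0⟩
    · rfl
    · exfalso
      simp only [List.cons.injEq] at e
      have := ne_nil hW0
      simp [this] at e
  | cons q P R W hq hP hW ih =>
    intro R' h'
    rcases inv h' with ⟨rfl, q', e⟩ | ⟨q', P', R0, W0, rfl, e, hP', hW0⟩
    · exfalso
      have := ne_nil hW
      simp [this] at e
    · simp only [List.cons.injEq] at e
      obtain ⟨a, C, rfl, ha⟩ := head' hW
      obtain ⟨a', C', rfl, ha'⟩ := head' hW0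
      obtain ⟨rfl, e2⟩ := run_eq hP hP' ha ha' e.2
      rw [ih R0 (e2 ▸ hW0)]

theorem out [DecidableEq V] {R : List ℕ} {W : List V} (h : Str Q R W) : outer Q W = R.sum := by
  induction h with
  | one q hq => simp [outer, hq]
  | cons q P R W hq hP hW ih =>
    have hP' : P.countP (fun v => decide (v ∉ Q)) = P.length := by
      rw [List.countP_eq_length]
      intro a ha
      simpa using hP a ha
    unfold outer at ih ⊢
    rw [List.countP_cons, List.countP_append, hP', ih]
    simp [hq]

theorem len {R : List ℕ} {W : List V} (h : Str Q R W) : W.length = R.sum + R.length + 1 := by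
  induction h with
  | one q hq => simp
  | cons q P R W hq hP hW ih =>
    simp only [List.length_cons, List.length_append, List.sum_cons, ih]
    omega

end Strm

theorem stmtStr : StmtStr := by
  intro V _ Q
  exact
    { head := fun _ _ h => Strm.head h
      last := fun _ _ h => Strm.last h
      app := fun _ _ _ _ _ h1 hP h2 => Strm.app h1 hP h2
      rev := fun _ _ h => Strm.rev h
      split := fun _ _ _ _ h => Strm.split h
      ex := fun W h1 h2 => Strm.ex_aux W.length W le_rfl h1 h2
      uniq := fun _ R' _ h h' => Strm.uniq h R' h'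
      out := fun _ _ h => Strm.out h
      len := fun _ _ h => Strm.len h }

end Vale.Agent.P048
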