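import Vale.Agent.P048.Spec

namespace Vale.Agent.P048

theorem stmtT (hS : StmtStr) (hRoot : StmtRoot) : StmtT := by
  classical
  intro V _ _ G k Q W R r C hr hn
  have A := hRoot V G Q W C.qp C.sub
  obtain ⟨Rt, hRt, hc⟩ := A.card
  let D := Finset.univ.filter (M2 G W r)
  have mD : ∀ v, v ∈ D ↔ M2 G W r v := fun v => by simp [D]
  have hD : Clq G D := fun u hu v hv e => by
    by_contra h
    exact hn ⟨u, v, (mD u).1 hu, (mD v).1 hv, e, h⟩
  have cD := C.base.om D hD
  have hsub : Rt ⊆ W.toFinset := fun v hv => List.mem_toFinset.2 ((hRt v).1 hv).mem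
  have cN := Finset.card_sdiff_add_card_eq_card hsub
  rw [List.toFinset_card_of_nodup C.qp.1, hc] at cN
  have key : ∀ u, M1 G W r u → ∀ N : Finset V, (∀ z ∈ W, ¬ Root Q W z → G.Adj u z → z ∈ N) →
      k ≤ D.card + N.card := fun u hu N hN => by
    have := C.base.p2.deg u (insert r (D ∪ N)) (by simp [mD, hu.m2]) fun v hv => by
      by_cases c : v ∈ W
      · by_cases c' : Root Q W v
        · by_cases e : r = v
          · simp [e]
          · rcases C.main r v [u] hr c' e ⟨by simp, by simp, by simpa using hu.1,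
              ⟨u, by simp, hu.2⟩, u, by simp, hv⟩ (by simp) with h | h
            · simpa using h.2.2.2.1
            · simpa using h.2.1
        · simp [hN v c c' hv]
      · simp [(mD v).2 ⟨c, Or.inr ⟨u, hu.1, hu.2, hv⟩⟩]
    have h1 := Finset.card_insert_le r (D ∪ N)
    have h2 := Finset.card_union_le D N
    omega
  obtain ⟨u, hu⟩ := m1_ex C.base.p2 C.len hr.mem
  have k1 := key u hu (W.toFinset \ Rt) fun z hz hz' _ => by simp [hz, hRt, hz']
  have hl := C.len
  have hW : W.length = k := by omega
  have adj : ∀ u, M1 G W r u → ∀ z ∈ W, ¬ Root Q W z → G.Adj u z := fun u hu z hz hz' => by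
    by_contra h
    have hm : z ∈ W.toFinset \ Rt := by simp [hz, hRt, hz']
    have := key u hu ((W.toFinset \ Rt).erase z) fun v hv hv' e => by
      have : v ≠ z := fun c => h (c ▸ e)
      simp [hv, hRt, hv', this]
    have := Finset.card_erase_add_one hm
    omega
  refine ⟨hW, by_contra fun h => ?_, fun l hl => by_contra fun h => ?_, by_contra fun h => ?_, adj⟩
  · obtain ⟨B, z, E, e⟩ := A.succ r hr.mem h
    exact ins C.base.nocyc C.base.clq C.qp hW e hu.1 hu.2
      (adj u hu z (by simp [e]) (A.non B r z E e h))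
  · obtain ⟨R1, R2, rfl⟩ := List.append_of_mem hl
    obtain ⟨W1, P, W2, e, -, hP, rfl, s2⟩ := (hS V Q).split R1 l R2 W C.str
    obtain ⟨z, hz, -⟩ := (hS V Q).head _ _ s2
    match P, hP, h, e with
    | [], _, h, _ => simp at h
    | [_], _, h, _ => simp at h
    | a1 :: a2 :: P, hP, _, e =>
      obtain ⟨z, E, e'⟩ : ∃ z E, P ++ W2 = z :: E := by
        cases P with
        | nil => cases W2 with
          | nil => simp at hz
          | cons z E => exact ⟨z, E, rfl⟩
        | cons z E => exact ⟨z, _, rfl⟩
      have e1 : W = W1 ++ a1 :: a2 :: (z :: E) := by simp [e, e']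
      have e2 : W = (W1 ++ [a1]) ++ a2 :: z :: E := by simp [e1]
      exact ins C.base.nocyc C.base.clq C.qp hW e2 hu.1
        (adj u hu a2 (by simp [e1]) (A.non _ _ _ _ e1 (hP a1 (by simp)))).symm
        (adj u hu z (by simp [e1]) (A.non _ _ _ _ e2 (hP a2 (by simp))))
  · push Not at h
    have hr' : r ∉ D := fun c => ((mD r).1 c).1 hr.mem
    have := C.base.om (insert r D) fun a ha b hb e => by
      rcases Finset.mem_insert.1 ha with rfl | ha <;> rcases Finset.mem_insert.1 hb with rfl | hb
      · exact absurd rfl e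
      · exact h b ((mD b).1 hb)
      · exact (h a ((mD a).1 ha)).symm
      · exact hD a ha b hb e
    rw [Finset.card_insert_of_notMem hr'] at this
    omega

end Vale.Agent.P048
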