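import Vale.Agent.P048.Spec

namespace Vale.Agent.P048

namespace T2m

variable {V : Type} [Fintype V] [DecidableEq V] {G : SimpleGraph V} {k : ℕ} {Q : Finset V}
  {W : List V} {R : List ℕ}

theorem nb (h : Ctx G k Q W R) {r u : V} (hr : Root Q W r) (hn : ¬ NC2 G W r)
    (hu : M1 G W r u) : ∃ D : Finset V, D.card ≤ Q.card ∧ u ∈ D ∧
      ∀ v, G.Adj u v → v ∈ D ∨ v = r ∨ (v ∈ W ∧ ¬ Root Q W v) := by
  classical
  refine ⟨Finset.univ.filter (M2 G W r), h.base.om _ fun a ha b hb e => ?_, by simpa using hu.m2,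
    fun v hv => ?_⟩
  · by_contra c
    exact hn ⟨a, b, by simpa using ha, by simpa using hb, e, c⟩
  · by_cases c : v ∈ W
    · refine Or.inr (or_iff_not_imp_left.2 fun e => ⟨c, fun hv' => ?_⟩)
      rcases h.main r v [u] hr hv' (Ne.symm e) ⟨by simp, by simp, by simpa using hu.1,
        ⟨u, by simp, hu.2⟩, u, by simp, hv⟩ (by simp) with c | c
      · have := c.2.2.2.1
        simp at this
      · have := c.2.1
        simp at this
    · exact Or.inl (by simpa using ⟨c, Or.inr ⟨u, hu.1, hu.2, hv⟩⟩)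

end T2m

theorem stmtT2 (hEar : StmtEar) (hRoot : StmtRoot) (hShort : StmtShort) (hT : StmtT) :
    StmtT2 := by
  intro V _ _ G k Q W R r r' h hr hr' e hn hn'
  classical
  obtain ⟨hl, rQ, h1, -, h2⟩ := hT V G k Q W R r h hr hn
  obtain ⟨-, rQ', -, -, h2'⟩ := hT V G k Q W R r' h hr' hn'
  have hA := hRoot V G Q W h.qp h.sub
  have hN : ¬ Near G W r r' 2 := by
    rintro ⟨E, hE, hE2⟩
    obtain ⟨E', a1, a2, -⟩ := hShort V G W r r' E hE
    rcases h.main r r' E' hr hr' e a1 (by omega) with c | c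
    · obtain ⟨-, -, -, c1, c2, c3, -⟩ := c
      obtain ⟨l, hl⟩ := List.exists_mem_of_length_pos (show 0 < (nz R).length from c3)
      simp only [nz, List.mem_filter, decide_eq_true_eq] at hl
      have := h1 l hl.1
      have := c2 l hl.1
      omega
    · have := c.2.1
      omega
  obtain ⟨u, hu⟩ := m1_ex h.base.p2 h.len hr.mem
  obtain ⟨u', hu'⟩ := m1_ex h.base.p2 h.len hr'.mem
  have e1 : u ≠ u' := fun c => hN (near11 hu hu' (Or.inl c))
  have e2 : ¬ G.Adj u u' := fun c => hN (near11 hu hu' (Or.inr c))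
  have hlt := h.base.lt
  have h4 := h.base.four
  by_cases c : Q.card + 1 = k
  · have : 0 < outer Q W := by have := hA.len; omega
    obtain ⟨p, hp, hpQ⟩ := List.countP_pos_iff.1 this
    have hpQ' : p ∉ Q := by simpa using hpQ
    obtain ⟨A, z, C, eW⟩ := hA.succ p hp hpQ'
    have hz := hA.non A p z C eW hpQ'
    have hzW : z ∈ W := by simp [eW]
    have uQ : u ∉ Q := fun c => hu.1 (h.sub _ c)
    have uQ' : u' ∉ Q := fun c => hu'.1 (h.sub _ c)
    have n1 : r ≠ z := fun c => hz (c ▸ hr)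
    have n2 : z ≠ r' := fun c => hz (c ▸ hr')
    have n3 : r ≠ u := fun c => hu.1 (c ▸ hr.mem)
    have n4 : r ≠ u' := fun c => hu'.1 (c ▸ hr.mem)
    have n5 : u ≠ z := fun c => hu.1 (c ▸ hzW)
    have n6 : u ≠ r' := fun c => hu.1 (c ▸ hr'.mem)
    have n7 : z ≠ u' := fun c => hu'.1 (c ▸ hzW)
    have n8 : u' ≠ r' := fun c => hu'.1 (c ▸ hr'.mem)
    refine hEar V G k Q [r, u, z, u', r'] (by omega) h.base.nocyc h.base.clq
      ⟨by simp [*], ?_, ⟨r, by simp, rQ⟩, r', by simp, rQ'⟩ (by simp; omega) ?_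
    · simp [hu.2, h2 u hu z hzW hz, (h2' u' hu' z hzW hz).symm, hu'.2.symm]
    · simp only [outer, List.countP_cons, uQ, uQ', not_false_eq_true, decide_true, if_true]
      omega
  · obtain ⟨D, d1, d2, d3⟩ := T2m.nb h hr hn hu
    obtain ⟨D', d1', d2', d3'⟩ := T2m.nb h hr' hn' hu'
    obtain ⟨Rt, t1, t2⟩ := hA.card
    have hc : (W.toFinset \ Rt).card + Q.card = k := by
      rw [← t2, Finset.card_sdiff_add_card_eq_card (fun x hx => by
        simpa using ((t1 x).1 hx).mem), List.toFinset_card_of_nodup h.qp.1, hl]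
    have := h.base.p2 {u, u'} (D ∪ D' ∪ {r, r'} ∪ (W.toFinset \ Rt)) (by simp) (ind_pair e2)
      (by intro x hx; simp at hx; rcases hx with rfl | rfl <;> simp [*]) (by
        intro x hx v hv
        simp only [Finset.mem_insert, Finset.mem_singleton] at hx
        rcases hx with rfl | rfl
        · rcases d3 v hv with c | c | c <;> simp [c, t1]
        · rcases d3' v hv with c | c | c <;> simp [c, t1])
    rw [Finset.card_pair e1] at this
    have b1 := Finset.card_union_le (D ∪ D' ∪ {r, r'}) (W.toFinset \ Rt)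
    have b2 := Finset.card_union_le (D ∪ D') {r, r'}
    have b3 := Finset.card_union_le D D'
    rw [Finset.card_pair e] at b2
    omega

end Vale.Agent.P048
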