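import Vale.Agent.P048.Spec

namespace Vale.Agent.P048

namespace Thetam

variable {V : Type} {G : SimpleGraph V} {H : Finset V} {n y : ℕ} {f : ℤ → V} {col : V → Bool}

theorem path (hc : Cyc G n f) (hH : ∀ i, f i ∈ H) (hm : Mono G H y col) (φ : ℕ → ℤ) (lo : ℤ)
    (adj : ∀ t, t < y → G.Adj (f (φ t)) (f (φ (t + 1))))
    (bd : ∀ t, t ≤ y → lo ≤ φ t ∧ φ t < lo + n)
    (inj : ∀ t, t ≤ y → ∀ t', t' ≤ y → φ t = φ t' → t = t') :
    col (f (φ 0)) = col (f (φ y)) := by
  refine hm (fun t => f (φ t)) ⟨adj, fun i _ => hH _, fun i hi j hj e => inj i hi j hj ?_⟩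
  have h1 := (hc.2 _ _).1 e
  have h2 := bd i hi
  have h3 := bd j hj
  have : φ i - φ j = 0 := Int.eq_zero_of_abs_lt_dvd h1 (by rw [abs_lt]; constructor <;> omega)
  omega

theorem per_y (hc : Cyc G n f) (hH : ∀ i, f i ∈ H) (hm : Mono G H y col) (hy : y < n) (i : ℤ) :
    col (f (i + y)) = col (f i) := by
  have := path hc hH hm (fun t => i + t) i
    (fun t _ => by
      have := hc.1 (i + t)
      rwa [show i + (t : ℤ) + 1 = i + ((t + 1 : ℕ) : ℤ) by push_cast; ring] at this)
    (fun t ht => by constructor <;> omega) (fun t _ t' _ e => by omega)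
  simpa using this.symm

theorem per_n (hc : Cyc G n f) (i : ℤ) : f (i + n) = f i := (hc.2 _ _).2 (by simp)

theorem ext2 {a b : ℤ → Bool} {g : ℤ} (hg : 0 < g) (ha : ∀ j, a (j + g) = a j)
    (hb : ∀ j, b (j + g) = b j) (i0 : ℤ) (h : ∀ i, i0 ≤ i → i < i0 + g → a i = b i) (i : ℤ) :
    a i = b i := by
  have pa : Function.Periodic a g := ha
  have pb : Function.Periodic b g := hb
  have e : i = (i0 + (i - i0) % g) + ((i - i0) / g) * g := by
    have := Int.emod_add_ediv_mul (i - i0) g
    linarith
  have h1 := Int.emod_nonneg (i - i0) hg.ne'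
  have h2 := Int.emod_lt_of_pos (i - i0) hg
  have q1 := pa.int_mul ((i - i0) / g) (i0 + (i - i0) % g)
  have q2 := pb.int_mul ((i - i0) / g) (i0 + (i - i0) % g)
  simp only [Int.cast_id] at q1 q2
  rw [← e] at q1 q2
  rw [q1, q2]
  exact h _ (by omega) (by omega)

theorem lemA (hc : Cyc G n f) (hH : ∀ i, f i ∈ H) (hm : Mono G H y col) {d g : ℤ}
    (hd : G.Adj (f 0) (f d)) (hg : 0 < g) (hp : ∀ j, col (f (j + g)) = col (f j))
    (h1 : g ≤ y) (h2 : g + y ≤ n) (h3 : 1 ≤ d) (h4 : d < g) (j : ℤ) :
    col (f (j + (d - 1))) = col (f j) := by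
  have hy : y < n := by omega
  refine ext2 (a := fun j => col (f (j + (d - 1)))) (b := fun j => col (f j)) hg
    (fun j => by
      show col (f (j + g + (d - 1))) = _
      rw [show j + g + (d - 1) = j + (d - 1) + g by ring, hp]) hp (1 - g) ?_ j
  intro i hi1 hi2
  have := path hc hH hm (fun t => if (t : ℤ) + i ≤ 0 then t + i else t + i + (d - 1)) i
    (fun t ht => by
      push_cast
      split_ifs with c1 c2 c2
      · have := hc.1 (t + i)
        rwa [show (t : ℤ) + i + 1 = t + 1 + i by ring] at this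
      · rw [show (t : ℤ) + i = 0 by omega, show (t : ℤ) + 1 + i + (d - 1) = d by omega]
        exact hd
      · omega
      · have := hc.1 (t + i + (d - 1))
        rwa [show (t : ℤ) + i + (d - 1) + 1 = t + 1 + i + (d - 1) by ring] at this)
    (fun t ht => by split_ifs <;> constructor <;> omega)
    (fun t _ t' _ e => by split_ifs at e <;> omega)
  rw [if_pos (by omega), if_neg (by omega)] at this
  show col (f (i + (d - 1))) = col (f i)
  rw [← per_y hc hH hm hy (i + (d - 1)), show i + (d - 1) + (y : ℤ) = y + i + (d - 1) by ring,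
    ← this]
  simp

theorem lemC (hc : Cyc G n f) (hH : ∀ i, f i ∈ H) (hm : Mono G H y col) {d g : ℤ}
    (hd : G.Adj (f 0) (f d)) (hg : 0 < g) (hp : ∀ j, col (f (j + g)) = col (f j))
    (h1 : g ≤ y) (h2 : g + y ≤ n) (h3 : g ≤ d) (h4 : g + d ≤ n) (j : ℤ) :
    col (f j) = col (f (d - 1 - j)) := by
  have hy : y < n := by omega
  refine ext2 (a := fun j => col (f j)) (b := fun j => col (f (d - 1 - j))) hg hp
    (fun j => by
      show col (f (d - 1 - (j + g))) = col (f (d - 1 - j))
      rw [← hp (d - 1 - (j + g)), show d - 1 - (j + g) + g = d - 1 - j by ring])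
    (max 0 (d + y - n)) ?_ j
  intro i hi1 hi2
  have a1 : 0 ≤ i := le_trans (le_max_left _ _) hi1
  have a2 : d + y - n ≤ i := le_trans (le_max_right _ _) hi1
  have a3 : i < d ∧ i < y := by
    rcases le_total 0 (d + y - n) with c | c
    · rw [max_eq_right c] at hi2; omega
    · rw [max_eq_left c] at hi2; omega
  have := path hc hH hm (fun t => if (t : ℤ) ≤ i then i - t else t - i + (d - 1)) 0
    (fun t ht => by
      push_cast
      split_ifs with c1 c2 c2
      · have := (hc.1 (i - (t + 1))).symm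
        rwa [show i - ((t : ℤ) + 1) + 1 = i - t by ring] at this
      · rw [show i - (t : ℤ) = 0 by omega, show (t : ℤ) + 1 - i + (d - 1) = d by omega]
        exact hd
      · omega
      · have := hc.1 (t - i + (d - 1))
        rwa [show (t : ℤ) - i + (d - 1) + 1 = t + 1 - i + (d - 1) by ring] at this)
    (fun t ht => by split_ifs <;> constructor <;> omega)
    (fun t _ t' _ e => by split_ifs at e <;> omega)
  rw [if_pos (by omega), if_neg (by omega)] at this
  show col (f i) = col (f (d - 1 - i))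
  rw [← per_y hc hH hm hy (d - 1 - i), show d - 1 - i + (y : ℤ) = y - i + (d - 1) by ring,
    ← this]
  simp

theorem cyc_shift (hc : Cyc G n f) (p : ℤ) : Cyc G n (fun i => f (p + i)) :=
  ⟨fun i => by have := hc.1 (p + i); rwa [add_assoc] at this,
   fun i j => by rw [hc.2]; simp⟩

theorem cyc_refl (hc : Cyc G n f) (p : ℤ) : Cyc G n (fun i => f (p - i)) :=
  ⟨fun i => by
    have := (hc.1 (p - (i + 1))).symm
    rwa [show p - (i + 1) + 1 = p - i by ring] at this,
   fun i j => by
    rw [hc.2, show p - i - (p - j) = -(i - j) by ring, dvd_neg]⟩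

end Thetam

open Thetam in
theorem stmtTheta : StmtTheta := by
  intro V G H n y f col hc hH hy1 hyn hm hcase i
  have py := per_y hc hH hm hyn
  rcases hcase with h2 | ⟨p, d, hd1, hd2, hadj⟩
  · obtain rfl | rfl : y = 1 ∨ y = 2 := by omega
    · have a := py i
      have b := py (i + 1)
      simp only [Nat.cast_one] at a b
      rw [← a, ← b, show i + 1 + 1 = i + 2 by ring]
    · simpa using py i
  classical
  have hex : ∃ g : ℕ, 0 < g ∧ ∀ j, col (f (j + g)) = col (f j) := ⟨y, hy1, py⟩
  obtain ⟨g0, hp⟩ := Nat.find_spec hex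
  have hmin : ∀ c : ℤ, 0 < c → (∀ j, col (f (j + c)) = col (f j)) → (Nat.find hex : ℤ) ≤ c := by
    intro c hc0 hcp
    have : Nat.find hex ≤ c.toNat := Nat.find_min' hex ⟨by omega, by
      rw [Int.toNat_of_nonneg hc0.le]; exact hcp⟩
    omega
  generalize Nat.find hex = g at g0 hp hmin
  have hg : (0 : ℤ) < g := by omega
  have g1 : (g : ℤ) ≤ y := hmin y (by omega) py
  have g2 : (g : ℤ) + y ≤ n := by
    have := hmin (n - y) (by omega) (fun j => by
      rw [← py (j + (n - y)), show j + ((n : ℤ) - y) + y = j + n by ring, per_n hc])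
    omega
  have c1 := cyc_shift hc p
  have c2 := cyc_refl hc p
  have d1 : G.Adj ((fun i => f (p + i)) 0) ((fun i => f (p + i)) d) := by simpa using hadj
  have d2 : G.Adj ((fun i => f (p - i)) 0) ((fun i => f (p - i)) (n - d)) := by
    show G.Adj (f (p - 0)) (f (p - (n - d)))
    rw [← per_n hc (p - (n - d)), show p - ((n : ℤ) - d) + n = p + d by ring, sub_zero]
    exact hadj
  have p1 : ∀ j, col ((fun i => f (p + i)) (j + g)) = col ((fun i => f (p + i)) j) := fun j => by
    show col (f (p + (j + g))) = col (f (p + j))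
    rw [← add_assoc, hp]
  have p2 : ∀ j, col ((fun i => f (p - i)) (j + g)) = col ((fun i => f (p - i)) j) := fun j => by
    show col (f (p - (j + g))) = col (f (p - j))
    rw [← hp (p - (j + g)), show p - (j + g) + g = p - j by ring]
  by_cases ha : d < g
  · have := hmin (d - 1) (by omega) (fun j => by
      have := lemA c1 (fun _ => hH _) hm d1 hg p1 g1 g2 (by omega) ha (j - p)
      rwa [show p + (j - p + (d - 1)) = j + (d - 1) by ring, show p + (j - p) = j by ring] at this)
    omega
  by_cases hb : n - d < g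
  · have := hmin (n - d - 1) (by omega) (fun j => by
      have := lemA c2 (fun _ => hH _) hm d2 hg p2 g1 g2 (by omega) hb (p - j - (n - d - 1))
      rw [show p - (p - j - (n - d - 1) + (n - d - 1)) = j by ring,
        show p - (p - j - (n - d - 1)) = j + (n - d - 1) by ring] at this
      exact this.symm)
    omega
  have e1 := lemC c1 (fun _ => hH _) hm d1 hg p1 g1 g2 (by omega) (by omega) (i - p)
  have e2 := lemC c2 (fun _ => hH _) hm d2 hg p2 g1 g2 (by omega) (by omega) (p - (i + 2))
  rw [show p + (i - p) = i by ring] at e1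
  rw [show p - (p - (i + 2)) = i + 2 by ring] at e2
  rw [e1, e2, ← per_n hc (p - (n - d - 1 - (p - (i + 2))))]
  congr 2
  ring

end Vale.Agent.P048
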