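import Vale.Agent.P048.Spec

namespace Vale.Agent.P048

namespace Treem

variable {V : Type} {G : SimpleGraph V}

theorem par_ex (v u : V) : ∃ p, G.dist v u ≠ 0 → G.Adj p u ∧ G.dist v p + 1 = G.dist v u := by
  by_cases h : G.dist v u = 0
  · exact ⟨u, fun c => absurd h c⟩
  rw [G.dist_comm] at h
  obtain ⟨p, hp⟩ := SimpleGraph.exists_walk_of_dist_ne_zero h
  cases p with
  | nil => simp at h
  | @cons _ w _ a q =>
    refine ⟨w, fun _ => ⟨a.symm, ?_⟩⟩
    obtain ⟨q', hq'⟩ := q.reachable.exists_walk_length_eq_dist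
    have h1 := SimpleGraph.dist_le q
    have h2 := SimpleGraph.dist_le (SimpleGraph.Walk.cons a q')
    rw [SimpleGraph.Walk.length_cons] at hp h2
    rw [G.dist_comm (u := v), G.dist_comm (u := v)]
    omega

theorem nocyc_fun {k : ℕ} (h : NoCyc G k) (c : ℕ → V) (h1 : ∀ j, j < k → G.Adj (c j) (c (j + 1)))
    (h2 : ∀ j, j ≤ k → ∀ j', j' ≤ k → c j = c j' → j = j') : ¬ G.Adj (c k) (c 0) := by
  refine h ((List.range (k + 1)).map c) ?_ ?_ (by simp) _ (by simp [List.range_succ_eq_map]) _
    (by simp [List.range_succ])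
  · refine List.Nodup.map_on (fun j hj j' hj' => h2 j ?_ j' ?_) List.nodup_range
    · exact Nat.lt_succ_iff.1 (List.mem_range.1 hj)
    · exact Nat.lt_succ_iff.1 (List.mem_range.1 hj')
  · rw [List.isChain_map, List.isChain_range_succ]
    exact h1

end Treem

open Treem in
theorem stmtTree : StmtTree := by
  intro V _ G k i v H hn hi hH hc
  choose par hpar using par_ex (G := G) v
  have A2 : ∀ u ∈ H, ∀ t, t ≤ i → G.dist v (par^[t] u) + t = i := fun u hu t => by
    induction t with
    | zero => exact fun _ => hH u hu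
    | succ t ih =>
      intro ht
      have h1 := ih (by omega)
      have h2 := (hpar (par^[t] u) (by omega)).2
      rw [Function.iterate_succ_apply']
      omega
  have A1 : ∀ u ∈ H, ∀ t, t < i → G.Adj (par^[t + 1] u) (par^[t] u) := fun u hu t ht => by
    have h1 := A2 u hu t ht.le
    rw [Function.iterate_succ_apply']
    exact (hpar _ (by omega)).1
  have A3 : ∀ a b t t', par^[t] a = par^[t] b → t ≤ t' → par^[t'] a = par^[t'] b := by
    intro a b t t' e ht
    obtain ⟨d, rfl⟩ := Nat.exists_eq_add_of_le' ht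
    rw [Function.iterate_add_apply, Function.iterate_add_apply, e]
  have A4 : ∀ u ∈ H, par^[i] u = v := fun u hu => by
    have r : ∀ t, t ≤ i → G.Reachable (par^[t] u) u := fun t => by
      induction t with
      | zero => exact fun _ => .refl _
      | succ t ih => exact fun ht => (A1 u hu t ht).reachable.trans (ih (by omega))
    have r0 : G.Reachable v u := SimpleGraph.Reachable.of_dist_ne_zero (by rw [hH u hu]; omega)
    have h1 := A2 u hu i le_rfl
    exact ((r0.trans (r i le_rfl).symm).dist_eq_zero_iff.1 (by omega)).symm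
  have ex : ∃ t, ∀ a ∈ H, ∀ b ∈ H, par^[t] a = par^[t] b :=
    ⟨i, fun a ha b hb => by rw [A4 a ha, A4 b hb]⟩
  classical
  have hs := Nat.find_spec ex
  have hle : Nat.find ex ≤ i := Nat.find_min' ex fun a ha b hb => by rw [A4 a ha, A4 b hb]
  have hmin := fun t => Nat.find_min ex (m := t)
  generalize Nat.find ex = h at hs hle hmin
  obtain ⟨a0, ha0, b0, hb0, hab⟩ := Finset.one_lt_card.1 hc
  obtain _ | h := h
  · exact absurd (hs a0 ha0 b0 hb0) hab
  refine ⟨h + 1, by omega, hle, fun e => ⟨par a0, fun u hu => ?_⟩,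
    fun u => decide (par^[h] u = par^[h] a0), ?_, fun y hy e g hg => ?_⟩
  · have h1 := A1 u hu 0 hi
    have h2 := hs a0 ha0 u hu
    rw [e] at h2
    rwa [← h2] at h1
  · by_contra c
    push Not at c
    refine hmin h h.lt_succ_self fun a ha b hb => ?_
    have h1 := c a ha a0 ha0
    have h2 := c b hb a0 ha0
    simp only [decide_true, decide_eq_true_eq] at h1 h2
    rw [h1, h2]
  by_contra c
  have ne : par^[h] (g 0) ≠ par^[h] (g y) := fun e => c (by simp only [e])
  have g0 := hg.2.1 0 y.zero_le
  have gy := hg.2.1 y le_rfl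
  let t : ℕ → ℕ := fun j => if j ≤ y then 0 else if j ≤ y + h then j - y else y + 2 * (h + 1) - j
  let u : ℕ → V := fun j => if j ≤ y then g j else if j ≤ y + h then g y else g 0
  have hu : ∀ j, u j ∈ H := fun j => by
    simp only [u]
    split_ifs with c1
    exacts [hg.2.1 j c1, gy, g0]
  refine nocyc_fun hn (fun j => par^[t j] (u j)) (fun j hj => ?_) (fun j hj j' hj' e' => ?_) ?_
  · by_cases c1 : j < y
    · simpa [t, u, c1.le, Nat.succ_le_of_lt c1] using hg.1 j c1
    by_cases c2 : j ≤ y + h
    · have e1 : par^[t j] (u j) = par^[j - y] (g y) := by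
        simp only [t, u]
        split_ifs with c3
        · obtain rfl : j = y := by omega
          simp
        · rfl
      have e2 : par^[t (j + 1)] (u (j + 1)) = par^[j - y + 1] (g y) := by
        simp only [t, u, if_neg (show ¬j + 1 ≤ y by omega)]
        split_ifs with c3
        · rw [show j + 1 - y = j - y + 1 by omega]
        · rw [show y + 2 * (h + 1) - (j + 1) = h + 1 by omega, show j - y + 1 = h + 1 by omega]
          exact hs _ g0 _ gy
      simp only [e1, e2]
      exact (A1 _ gy _ (by omega)).symm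
    · simp only [t, u, if_neg (show ¬j + 1 ≤ y by omega), if_neg (show ¬j ≤ y by omega), if_neg c2,
        if_neg (show ¬j + 1 ≤ y + h by omega)]
      rw [show y + 2 * (h + 1) - j = y + 2 * (h + 1) - (j + 1) + 1 by omega]
      exact A1 _ g0 _ (by omega)
  · have l1 : ∀ j, j ≤ k → t j ≤ i := fun j hj => by
      simp only [t]
      split_ifs <;> omega
    have h1 := A2 _ (hu j) _ (l1 j hj)
    have h2 := A2 _ (hu j') _ (l1 j' hj')
    have e1 : t j = t j' := by rw [e'] at h1; omega
    rw [← e1] at e'
    simp only [t, u] at e' e1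
    split_ifs at e' e1 with c1 c2 c3 c4 c5 c6 c7 c8
    any_goals omega
    · exact hg.2.2 j c1 j' c2 e'
    · exact absurd (A3 _ _ _ h e' (by omega)).symm ne
    · exact absurd (A3 _ _ _ h e' (by omega)) ne
  · have e1 : par^[t k] (u k) = par^[1] (g 0) := by
      simp only [t, u, if_neg (show ¬k ≤ y by omega), if_neg (show ¬k ≤ y + h by omega)]
      rw [show y + 2 * (h + 1) - k = 1 by omega]
    simp only [e1]
    simpa [t, u] using A1 _ g0 0 hi

end Vale.Agent.P048
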