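import Vale.Agent.P048.Spec

namespace Vale.Agent.P048

namespace Two4m

variable {V : Type} {G : SimpleGraph V}

theorem sum_nz (R : List ℕ) : (nz R).sum = R.sum := by
  induction R with
  | nil => rfl
  | cons a R ih =>
    by_cases c : a = 0
    · simpa [nz, c] using ih
    · simpa [nz, c] using ih

theorem single {R : List ℕ} (h : tc R = 1) : ∃ R1 R2, R = R1 ++ R.sum :: R2 := by
  obtain ⟨l, hl⟩ := List.length_eq_one_iff.1 h
  have h1 : R.sum = l := by rw [← sum_nz, hl]; simp
  have h2 : l ∈ nz R := by rw [hl]; simp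
  rw [h1]
  exact List.append_of_mem (List.mem_filter.1 h2).1

theorem notE {k : ℕ} {Q : Finset V} {P : List V} {e q b w w' : V} (hk : 1 ≤ k) (hn : NoCyc G k)
    (hQ : Clq G Q) (hq : q ∈ Q) (hb : b ∈ Q) (hP : ∀ p ∈ P, p ∉ Q) (hl : P.length + 4 = k)
    (n1 : (e :: (P ++ [q])).Nodup) (c1 : (e :: (P ++ [q])).IsChain G.Adj)
    (hw : w ∉ e :: (P ++ [q])) (hw' : w' ∉ e :: (P ++ [q])) (hwQ : w ∉ Q) (hwQ' : w' ∉ Q)
    (hbe : b ≠ e) (hbq : b ≠ q) (h1 : G.Adj e w) (h2 : G.Adj w w') (h3 : G.Adj w' b) : False := by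
  refine qp_cyc (W := (e :: (P ++ [q])).reverse ++ [w, w', b]) hk hn hQ
    ⟨?_, ?_, ⟨q, by simp, hq⟩, b, by rw [List.getLast?_append]; simp, hb⟩ (by simp; omega)
  · rw [List.nodup_append]
    refine ⟨List.nodup_reverse.2 n1, ?_, ?_⟩
    · have a1 : w ≠ b := fun c => hwQ (c ▸ hb)
      have a2 : w' ≠ b := fun c => hwQ' (c ▸ hb)
      simp [h2.ne, a1, a2]
    · intro x hx y hy c
      subst c
      rw [List.mem_reverse] at hx
      simp only [List.mem_cons, List.not_mem_nil, or_false] at hy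
      rcases hy with rfl | rfl | rfl
      · exact hw hx
      · exact hw' hx
      · simp only [List.mem_cons, List.mem_append, List.not_mem_nil, or_false] at hx
        rcases hx with c | c | c
        exacts [hbe c, hP _ c hb, hbq c]
  · rw [List.isChain_append]
    refine ⟨List.isChain_reverse.2 (c1.imp fun _ _ h => h.symm), by simp [h2, h3], ?_⟩
    rw [List.getLast?_reverse]
    simpa using h1

end Two4m

open Two4m in
theorem stmtTwo4 (hS : StmtStr) (hRoot : StmtRoot) (h6 : StmtCfg6) (h7 : StmtCfg7) : StmtTwo4 := by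
  intro V _ _ G k Q W R a b w w' hC h4 ha hb hab hE
  have hB := hC.base
  have api := hS V Q
  have rt := hRoot V G Q W hC.qp hC.sub
  obtain ⟨haQ, hbQ, hl, -, -, t1, -, t2⟩ : Exc k Q W R a b 2 :=
    (hC.main a b [w, w'] ha hb hab hE (by simp)).resolve_right fun h => by
      have := h.2.1
      simp at this
  have hk := hB.big
  have ht : tc R = 1 := by omega
  have hs : R.sum + 4 = k := by
    have := rt.len
    have := api.out R W hC.str
    omega
  obtain ⟨R1, R2, hR⟩ := single ht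
  obtain ⟨W1, P, W2, hW, s1, hP, hPl, s2⟩ := api.split R1 R.sum R2 W (hR ▸ hC.str)
  obtain ⟨e, he, heQ⟩ := api.last _ _ s1
  obtain ⟨q, hq, hqQ⟩ := api.head _ _ s2
  obtain ⟨A, rfl⟩ : ∃ A, W1 = A ++ [e] := ⟨_, (List.dropLast_append_getLast? e he).symm⟩
  obtain ⟨C, rfl⟩ : ∃ C, W2 = q :: C := ⟨_, (List.cons_head?_tail hq).symm⟩
  have inf : (e :: (P ++ [q])) <:+: W := ⟨A, C, by simp [hW]⟩
  have n1 : (e :: (P ++ [q])).Nodup := hC.qp.1.sublist inf.sublist
  have c1 : (e :: (P ++ [q])).IsChain G.Adj := by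
    have c0 : (A ++ (e :: (P ++ [q])) ++ C).IsChain G.Adj := by
      have := hC.qp.2.1
      rw [hW] at this
      simpa using this
    exact c0.left_of_append.right_of_append
  have hq0 : ¬ Root Q W q := by
    obtain ⟨P0, p, rfl⟩ : ∃ P0 p, P = P0 ++ [p] := by
      rcases List.eq_nil_or_concat P with c | ⟨P0, p, c⟩
      · rw [c] at hPl
        simp at hPl
        omega
      · exact ⟨P0, p, by simpa using c⟩
    exact rt.non (A ++ e :: P0) p q C (by simp [hW]) (hP p (by simp))
  have haq : a ≠ q := fun c => hq0 (c ▸ ha)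
  have hbq : b ≠ q := fun c => hq0 (c ▸ hb)
  obtain ⟨n2, c2, o2, ⟨x, hx, h1⟩, y, hy, h3⟩ := hE
  obtain rfl : w = x := by simpa using hx
  obtain rfl : w' = y := by simpa using hy
  clear hx hy
  have h2 : G.Adj w w' := by simpa using c2
  have hw : w ∉ W := o2 w (by simp)
  have hw' : w' ∉ W := o2 w' (by simp)
  have hwP : w ∉ e :: (P ++ [q]) := fun c => hw (inf.subset c)
  have hwP' : w' ∉ e :: (P ++ [q]) := fun c => hw' (inf.subset c)
  have hwQ : w ∉ Q := fun c => hw (hC.sub _ c)
  have hwQ' : w' ∉ Q := fun c => hw' (hC.sub _ c)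
  have hae : a ≠ e := fun c => notE (by omega) hB.nocyc hB.clq hqQ hbQ hP (by omega) n1 c1 hwP hwP'
    hwQ hwQ' (c ▸ hab.symm) hbq (c ▸ h1) h2 h3
  have hbe : b ≠ e := fun c => notE (by omega) hB.nocyc hB.clq hqQ haQ hP (by omega) n1 c1 hwP' hwP
    hwQ' hwQ hae haq (c ▸ h3.symm) h2.symm h1.symm
  have heq : e ≠ q := fun c => (List.nodup_cons.1 n1).1 (by simp [c])
  have hQ : Q = {e, q, a, b} := by
    refine (Finset.eq_of_subset_of_card_le (fun z hz => ?_) ?_).symm
    · simp only [Finset.mem_insert, Finset.mem_singleton] at hz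
      rcases hz with rfl | rfl | rfl | rfl <;> assumption
    · rw [h4, Finset.card_eq_four.2 ⟨e, q, a, b, heq, hae.symm, hbe.symm, haq.symm, hbq.symm, hab,
        rfl⟩]
  have n3 : ((e :: (P ++ [q])) ++ [a, w, w', b]).Nodup := by
    rw [List.nodup_append]
    refine ⟨n1, ?_, ?_⟩
    · have a1 : w ≠ b := fun c => hwQ (c ▸ hbQ)
      have a2 : w' ≠ b := fun c => hwQ' (c ▸ hbQ)
      have a3 : a ≠ w' := fun c => hwQ' (c ▸ haQ)
      simp [h2.ne, a1, a2, a3, h1.ne, hab]
    · have b1 : a ∉ e :: (P ++ [q]) := fun hx => by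
        simp only [List.mem_cons, List.mem_append, List.not_mem_nil, or_false] at hx
        rcases hx with c | c | c
        exacts [hae c, hP _ c haQ, haq c]
      have b2 : b ∉ e :: (P ++ [q]) := fun hx => by
        simp only [List.mem_cons, List.mem_append, List.not_mem_nil, or_false] at hx
        rcases hx with c | c | c
        exacts [hbe c, hP _ c hbQ, hbq c]
      intro x hx y hy c
      simp only [List.mem_cons, List.not_mem_nil, or_false] at hy
      rcases hy with d | d | d | d <;> rw [c, d] at hx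
      exacts [b1 hx, hwP hx, hwP' hx, b2 hx]
  have c3 : ((e :: (P ++ [q])) ++ [a, w, w', b]).IsChain G.Adj := by
    rw [List.isChain_append]
    refine ⟨c1, by simp [h1, h2, h3], ?_⟩
    have : (e :: (P ++ [q])).getLast? = some q := by
      rw [← List.cons_append, List.getLast?_append]
      simp
    rw [this]
    simpa using hB.clq q hqQ a haQ haq.symm
  obtain rfl | rfl : k = 6 ∨ k = 7 := by omega
  · obtain ⟨a1, a2, rfl⟩ := List.length_eq_two.1 (by omega : P.length = 2)
    exact h6 V G e q a b a1 a2 w w' (hQ ▸ hB) n3 c3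
  · obtain ⟨a1, a2, a3, rfl⟩ := List.length_eq_three.1 (by omega : P.length = 3)
    exact h7 V G e q a b a1 a2 a3 w w' (hQ ▸ hB) n3 c3

end Vale.Agent.P048
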