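import Vale.Agent.P048.Spec

namespace Vale.Agent.P048

theorem stmtUp (hI : StmtInd) : StmtUp := by
  classical
  intro m n hm hn hnm G
  by_contra hc
  rw [not_or] at hc
  obtain ⟨h1, h2⟩ := hc
  obtain ⟨k, rfl⟩ : ∃ k, m = k + 2 := ⟨m - 2, by omega⟩
  have key := hI (k + 1) (n - 1) (by omega) (by omega) _ G (by
    intro l hnd hch hl a ha b hb hab
    apply h1
    have step : ∀ i : Fin (k + 2), G.Adj (l[i.1]'(by omega)) (l[(i + 1).1]'(by
        have := (i + 1).2; omega)) := by
      intro i
      by_cases hi : i.1 + 1 < k + 2
      · have e : (i + 1).1 = i.1 + 1 := by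
          rw [Fin.val_add_one_of_lt (by rw [Fin.lt_def]; simp; omega)]
        simp only [e]
        exact List.isChain_iff_getElem.1 hch i.1 (by omega)
      · have e1 : i = Fin.last (k + 1) := by
          ext
          simp
          omega
        subst e1
        have ea : l[0]'(by omega) = a := by
          rw [List.head?_eq_getElem?, Option.mem_def, List.getElem?_eq_getElem (by omega)] at ha
          exact Option.some.inj ha
        have eb : l[k + 1]'(by omega) = b := by
          rw [List.getLast?_eq_getElem?, Option.mem_def, hl,
            List.getElem?_eq_getElem (by omega)] at hb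
          exact Option.some.inj hb
        simpa [ea, eb] using hab
    refine ⟨⟨⟨fun i => l[i.1]'(by omega), ?_⟩, ?_⟩⟩
    · intro i j hij
      rw [SimpleGraph.cycleGraph_adj] at hij
      rcases hij with h | h
      · have : i = j + 1 := by rw [← h]; simp
        subst this
        exact (step j).symm
      · have : j = i + 1 := by rw [← h]; simp
        subst this
        exact step i
    · intro i j hij
      exact Fin.ext ((List.Nodup.getElem_inj_iff hnd).1 hij)) (by
    intro I hI'
    by_contra hlt
    apply h2
    obtain ⟨J, hJ, hJc⟩ := Finset.exists_subset_card_eq (s := I) (n := n) (by omega)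
    let f := J.orderEmbOfFin hJc
    refine ⟨⟨⟨f, ?_⟩, f.injective⟩⟩
    intro i j hij
    rw [SimpleGraph.compl_adj]
    exact ⟨fun e => hij.ne (f.injective e),
      hI' _ (hJ (J.orderEmbOfFin_mem hJc i)) _ (hJ (J.orderEmbOfFin_mem hJc j))⟩)
  simp at key

end Vale.Agent.P048
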