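import Vale.Agent.P048.Spec

namespace Vale.Agent.P048

namespace Zm

theorem spl (R : List ℕ) (n : ℕ) (h : n + 1 ≤ tc R) :
    ∃ R1 l R2, R = R1 ++ l :: R2 ∧ l ≠ 0 ∧ n ≤ tc R2 := by
  induction R with
  | nil => simp [tc, nz] at h
  | cons a R ih =>
    by_cases ha : a = 0
    · obtain ⟨R1, l, R2, e, h1, h2⟩ := ih (by simpa [tc, nz, ha] using h)
      exact ⟨a :: R1, l, R2, by simp [e], h1, h2⟩
    · exact ⟨[], a, R, rfl, ha, by simpa [tc, nz, ha] using h⟩

theorem miss {V : Type} [DecidableEq V] {G : SimpleGraph V} {k : ℕ} {Q : Finset V} {W : List V}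
    (hn : NoCyc G k) (hQ : Clq G Q) (hW : QP G Q W) (hl : W.length = k) (ra : RootApi Q W)
    {w : V} (hw : w ∉ W) {A P C : List V} (e : W = A ++ (P ++ C)) (hP : ∀ p ∈ P, p ∉ Q)
    (h2 : 2 ≤ P.length) {c : V} (hc : c ∈ C.head?) :
    ∃ x, (x ∈ P ∨ x = c) ∧ ¬ Root Q W x ∧ ¬ G.Adj w x := by
  match P, h2, C, hc with
  | a :: b :: P', _, c' :: C', hc =>
    obtain rfl : c' = c := by simpa using hc
    have hb : ¬ Root Q W b := ra.non A a b (P' ++ c' :: C') (by simp [e]) (hP a (by simp))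
    obtain ⟨z, T, e', hz⟩ : ∃ z T, P' ++ c' :: C' = z :: T ∧ (z ∈ P' ∨ z = c') := by
      cases P' with
      | nil => exact ⟨c', C', rfl, Or.inr rfl⟩
      | cons z P'' => exact ⟨z, P'' ++ c' :: C', rfl, Or.inl (by simp)⟩
    have e2 : W = (A ++ [a]) ++ b :: z :: T := by rw [e, ← e']; simp
    have hz' : ¬ Root Q W z := ra.non _ b z T e2 (hP b (by simp))
    by_cases h : G.Adj w b
    · refine ⟨z, hz.imp (fun h => by simp [h]) id, hz', fun h' => ?_⟩
      exact ins hn hQ hW hl e2 hw h.symm h'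
    · exact ⟨b, Or.inl (by simp), hb, h⟩

end Zm

theorem stmtZ (hS : StmtStr) (hRoot : StmtRoot) : StmtZ := by
  intro V _ _ G k Q W R r w w' c hl ht hR hr hw
  classical
  have sa := hS V Q
  have ra := hRoot V G Q W c.qp c.sub
  by_contra hc
  push Not at hc
  obtain ⟨R1, l1, R', e1, n1, ht'⟩ := Zm.spl R 1 ht
  obtain ⟨R2, l2, R3, e2, n2, -⟩ := Zm.spl R' 0 ht'
  have g1 : 2 ≤ l1 := (hR l1 (by simp [e1])).resolve_left n1
  have g2 : 2 ≤ l2 := (hR l2 (by simp [e1, e2])).resolve_left n2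
  obtain ⟨W1, P1, W', f1, -, p1, q1, s1⟩ := sa.split R1 l1 R' W (e1 ▸ c.str)
  obtain ⟨W2, P2, W3, f2, s2, p2, q2, s3⟩ := sa.split R2 l2 R3 W' (e2 ▸ s1)
  obtain ⟨a, ha, -⟩ := sa.head _ _ s2
  obtain ⟨b, hb, -⟩ := sa.head _ _ s3
  have ha' : a ∈ W'.head? := by
    rw [f2]
    cases W2 with
    | nil => simp at ha
    | cons x t => simpa using ha
  have f3 : W = (W1 ++ (P1 ++ W2)) ++ (P2 ++ W3) := by rw [f1, f2]; simp
  obtain ⟨x, hx, x1, x2⟩ := Zm.miss c.base.nocyc c.base.clq c.qp hl ra hw.1 f1 p1 (q1 ▸ g1) ha'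
  obtain ⟨y, hy, y1, y2⟩ := Zm.miss c.base.nocyc c.base.clq c.qp hl ra hw.1 f3 p2 (q2 ▸ g2) hb
  have hx' : x ∈ W1 ++ (P1 ++ W2) := by
    rcases hx with h | rfl
    · simp [h]
    · simp [List.mem_of_mem_head? ha]
  have hy' : y ∈ P2 ++ W3 := by
    rcases hy with h | rfl
    · simp [h]
    · simp [List.mem_of_mem_head? hb]
  have hxy : x ≠ y := by
    have := c.qp.1
    rw [f3, List.nodup_append] at this
    exact this.2.2 x hx' y hy'
  obtain ⟨Rt, hRt, cRt⟩ := ra.card
  let Z : Finset V := Finset.univ.filter fun z => z ∉ W ∧ z ≠ w' ∧ G.Adj w z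
  have hZ : ∀ z, z ∈ Z ↔ z ∉ W ∧ z ≠ w' ∧ G.Adj w z := fun z => by simp [Z]
  have cZ : Z.card + 1 ≤ Q.card := by
    have := c.base.om (insert w Z) fun u hu v hv huv => by
      rcases Finset.mem_insert.1 hu with rfl | hu
      · exact ((hZ v).1 ((Finset.mem_insert.1 hv).resolve_left huv.symm)).2.2
      rcases Finset.mem_insert.1 hv with rfl | hv
      · exact ((hZ u).1 hu).2.2.symm
      obtain ⟨u1, u2, u3⟩ := (hZ u).1 hu
      obtain ⟨v1, v2, v3⟩ := (hZ v).1 hv
      exact hc u v u1 v1 u2 v2 u3 v3 huv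
    rwa [Finset.card_insert_of_notMem fun h => G.irrefl ((hZ w).1 h).2.2] at this
  let N : Finset V := W.toFinset \ Rt
  have cN : N.card + Q.card = k := by
    rw [← cRt, Finset.card_sdiff_add_card_eq_card fun v hv => by
      simpa using ((hRt v).1 hv).mem, List.toFinset_card_of_nodup c.qp.1, hl]
  have xN : x ∈ N := by
    simp only [N, Finset.mem_sdiff, List.mem_toFinset, hRt]
    exact ⟨by rw [f3]; exact List.mem_append_left _ hx', x1⟩
  have yN : y ∈ N.erase x := by
    simp only [N, Finset.mem_erase, Finset.mem_sdiff, List.mem_toFinset, hRt]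
    exact ⟨hxy.symm, by rw [f3]; exact List.mem_append_right _ hy', y1⟩
  have k1 := Finset.card_erase_add_one xN
  have k2 := Finset.card_erase_add_one yN
  have := c.base.p2.deg w (insert w (insert w' (insert r (Z ∪ (N.erase x).erase y)))) (by simp)
    fun v hv => by
      simp only [Finset.mem_insert, Finset.mem_union, hZ, Finset.mem_erase, N, Finset.mem_sdiff,
        List.mem_toFinset, hRt]
      by_cases h1 : v ∈ W
      · by_cases h2 : Root Q W v
        · by_cases h3 : r = v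
          · exact Or.inr (Or.inr (Or.inl h3.symm))
          · have := c.main r v [w] hr h2 h3
              ⟨by simp, by simp, by simpa using hw.1, ⟨w, by simp, hw.2⟩, w, by simp, hv⟩ (by simp)
            rcases this with h | h
            · have := h.2.2.2.1; simp at this
            · have := h.2.1; simp at this
        · exact Or.inr (Or.inr (Or.inr (Or.inr ⟨fun h => y2 (h ▸ hv), fun h => x2 (h ▸ hv), h1, h2⟩)))
      · by_cases h2 : v = w'
        · exact Or.inr (Or.inl h2)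
        · exact Or.inr (Or.inr (Or.inr (Or.inl ⟨h1, h2, hv⟩)))
  have k3 := Finset.card_insert_le w (insert w' (insert r (Z ∪ (N.erase x).erase y)))
  have k4 := Finset.card_insert_le w' (insert r (Z ∪ (N.erase x).erase y))
  have k5 := Finset.card_insert_le r (Z ∪ (N.erase x).erase y)
  have k6 := Finset.card_union_le Z ((N.erase x).erase y)
  omega

end Vale.Agent.P048
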