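import Vale.Agent.P048.AB
import Vale.Agent.P048.BFS
import Vale.Agent.P048.C34
import Vale.Agent.P048.C7
import Vale.Agent.P048.Cfg6
import Vale.Agent.P048.Cfg7
import Vale.Agent.P048.Comp
import Vale.Agent.P048.Core
import Vale.Agent.P048.Cyc
import Vale.Agent.P048.Del
import Vale.Agent.P048.Ear
import Vale.Agent.P048.Free
import Vale.Agent.P048.Full
import Vale.Agent.P048.Ind
import Vale.Agent.P048.K3
import Vale.Agent.P048.K4
import Vale.Agent.P048.Layer0
import Vale.Agent.P048.Layer1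
import Vale.Agent.P048.Long
import Vale.Agent.P048.Low
import Vale.Agent.P048.M
import Vale.Agent.P048.Min
import Vale.Agent.P048.Miss1
import Vale.Agent.P048.Miss2
import Vale.Agent.P048.No2
import Vale.Agent.P048.Root
import Vale.Agent.P048.Rot
import Vale.Agent.P048.Short
import Vale.Agent.P048.Small
import Vale.Agent.P048.Str
import Vale.Agent.P048.T
import Vale.Agent.P048.T2
import Vale.Agent.P048.Theta
import Vale.Agent.P048.Tree
import Vale.Agent.P048.Two4
import Vale.Agent.P048.Two5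
import Vale.Agent.P048.Up
import Vale.Agent.P048.Z

namespace Vale.Agent.P048

theorem core : StmtCore :=
  have hRot := stmtRot stmtStr
  have hT := stmtT stmtStr stmtRoot
  stmtCore
    (stmtSmall (stmtLayer0 stmtMin (stmtCyc stmtLong) stmtTheta stmtAB stmtTree)
      (stmtLayer1 stmtMin stmtLong) stmtBFS)
    stmtEar stmtShort
    (stmtM stmtEar stmtStr stmtRoot hRot (stmtDel stmtStr) (stmtComp stmtStr))
    (stmtNo2 stmtRoot stmtShort hT (stmtT2 stmtEar stmtRoot stmtShort hT)
      (stmtC34 stmtEar (stmtMiss1 stmtEar stmtStr stmtRoot) (stmtMiss2 stmtEar stmtStr stmtRoot))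
      (stmtC7 stmtEar stmtStr stmtRoot))
    (stmtTwo5 stmtStr stmtRoot stmtShort hRot stmtFree hT (stmtZ stmtStr stmtRoot))
    (stmtTwo4 stmtStr stmtRoot (stmtCfg6 stmtEar) (stmtCfg7 stmtEar))
    (stmtFull stmtEar stmtShort) stmtK4 stmtK3

theorem main (m n : ℕ) (hn : 3 ≤ n) (hnm : n ≤ m) (h : ¬ (m = 3 ∧ n = 3)) :
    IsLeast {N : ℕ | Arrows m n N} ((m - 1) * (n - 1) + 1) :=
  ⟨stmtUp (stmtInd core) m n (by omega) (by omega) hnm,
    fun N hN => stmtLow m n N (by omega) (by omega) hN⟩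

end Vale.Agent.P048
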