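import Vale.Agent.P048.Defs

namespace Vale.Agent.P048

section defs
variable {V : Type}

/-- no cycle with exactly `k+1` vertices (list form) -/
def NoCyc (G : SimpleGraph V) (k : ℕ) : Prop :=
  ∀ l : List V, l.Nodup → l.IsChain G.Adj → l.length = k + 1 →
    ∀ a ∈ l.head?, ∀ b ∈ l.getLast?, ¬ G.Adj b a

def Ind (G : SimpleGraph V) (I : Finset V) : Prop := ∀ u ∈ I, ∀ v ∈ I, ¬ G.Adj u v

def Clq (G : SimpleGraph V) (K : Finset V) : Prop := ∀ u ∈ K, ∀ v ∈ K, u ≠ v → G.Adj u v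

/-- expansion of independent sets: closed neighbourhood has at least `k|I|+1` vertices -/
def P2 (G : SimpleGraph V) (k : ℕ) : Prop :=
  ∀ I U : Finset V, I.Nonempty → Ind G I → I ⊆ U → (∀ u ∈ I, ∀ v, G.Adj u v → v ∈ U) →
    k * I.card + 1 ≤ U.card

def Big (G : SimpleGraph V) (k : ℕ) : Prop := ∃ I : Finset V, Ind G I ∧ k + 1 ≤ I.card

def Om (G : SimpleGraph V) (s : ℕ) : Prop := ∀ K : Finset V, Clq G K → K.card ≤ s

def OmIn (G : SimpleGraph V) (S : Finset V) (s : ℕ) : Prop :=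
  ∀ K : Finset V, K ⊆ S → Clq G K → K.card ≤ s

structure Tight (G : SimpleGraph V) (H : Finset V) (ρ c : ℕ) : Prop where
  ne : H.Nonempty
  exp : ∀ I U : Finset V, I.Nonempty → I ⊆ H → Ind G I → I ⊆ U →
    (∀ u ∈ I, ∀ v ∈ H, G.Adj u v → v ∈ U) → ρ * I.card + 1 ≤ U.card + c
  conn : ∀ A : Finset V, A ⊆ H → A.Nonempty → (∀ a ∈ A, ∀ b ∈ H, G.Adj a b → b ∈ A) → H ⊆ A
  rat : ∀ I : Finset V, I ⊆ H → Ind G I → ρ * I.card + 1 ≤ H.card + c

/-- a cycle with `n` vertices as a periodic function -/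
def Cyc (G : SimpleGraph V) (n : ℕ) (f : ℤ → V) : Prop :=
  (∀ i, G.Adj (f i) (f (i + 1))) ∧ ∀ i j, f i = f j ↔ (n : ℤ) ∣ i - j

/-- a path with `y` edges inside `H` -/
def Pth (G : SimpleGraph V) (H : Finset V) (y : ℕ) (g : ℕ → V) : Prop :=
  (∀ i, i < y → G.Adj (g i) (g (i + 1))) ∧ (∀ i, i ≤ y → g i ∈ H) ∧
    ∀ i, i ≤ y → ∀ j, j ≤ y → g i = g j → i = j

def Mono (G : SimpleGraph V) (H : Finset V) (y : ℕ) (col : V → Bool) : Prop :=
  ∀ g, Pth G H y g → col (g 0) = col (g y)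

noncomputable def layer [Fintype V] (G : SimpleGraph V) (v : V) (i : ℕ) : Finset V :=
  Finset.univ.filter (fun u => G.dist v u = i)

/-- a path whose two ends lie in `Q` -/
def QP (G : SimpleGraph V) (Q : Finset V) (W : List V) : Prop :=
  W.Nodup ∧ W.IsChain G.Adj ∧ (∃ a ∈ W.head?, a ∈ Q) ∧ ∃ b ∈ W.getLast?, b ∈ Q

def outer [DecidableEq V] (Q : Finset V) (W : List V) : ℕ := W.countP (fun v => decide (v ∉ Q))

/-- `Str Q R W`: `W` starts and ends in `Q`; `R` lists the lengths of the runs outside `Q`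
between consecutive vertices of `Q` (zeros included). -/
inductive Str (Q : Finset V) : List ℕ → List V → Prop
  | one (q : V) : q ∈ Q → Str Q [] [q]
  | cons (q : V) (P : List V) (R : List ℕ) (W : List V) :
      q ∈ Q → (∀ p ∈ P, p ∉ Q) → Str Q R W → Str Q (P.length :: R) (q :: (P ++ W))

/-- nonzero entries -/
def nz (R : List ℕ) : List ℕ := R.filter (fun l => decide (l ≠ 0))

/-- number of nonzero runs -/
def tc (R : List ℕ) : ℕ := (nz R).length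

/-- first vertex of `W`, or successor on `W` of a vertex of `Q` -/
def Root (Q : Finset V) (W : List V) (r : V) : Prop :=
  ∃ A C : List V, W = A ++ r :: C ∧ ∀ q ∈ A.getLast?, q ∈ Q

/-- a nonempty walk outside `W` joining `r` to `r'` -/
def Wk (G : SimpleGraph V) (W : List V) (r r' : V) (E : List V) : Prop :=
  E.IsChain G.Adj ∧ (∀ e ∈ E, e ∉ W) ∧ (∃ a ∈ E.head?, G.Adj r a) ∧ ∃ b ∈ E.getLast?, G.Adj b r'

def Ear (G : SimpleGraph V) (W : List V) (r r' : V) (E : List V) : Prop :=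
  E.Nodup ∧ Wk G W r r' E

def Near (G : SimpleGraph V) (W : List V) (r r' : V) (x : ℕ) : Prop :=
  ∃ E, Wk G W r r' E ∧ E.length ≤ x

def M1 (G : SimpleGraph V) (W : List V) (r u : V) : Prop := u ∉ W ∧ G.Adj r u

def M2 (G : SimpleGraph V) (W : List V) (r u : V) : Prop :=
  u ∉ W ∧ (G.Adj r u ∨ ∃ w, w ∉ W ∧ G.Adj r w ∧ G.Adj w u)

def NC1 (G : SimpleGraph V) (W : List V) (r : V) : Prop :=
  ∃ u u', M1 G W r u ∧ M1 G W r u' ∧ u ≠ u' ∧ ¬ G.Adj u u'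

def NC2 (G : SimpleGraph V) (W : List V) (r : V) : Prop :=
  ∃ u u', M2 G W r u ∧ M2 G W r u' ∧ u ≠ u' ∧ ¬ G.Adj u u'

structure Base (G : SimpleGraph V) (k : ℕ) (Q : Finset V) : Prop where
  nocyc : NoCyc G k
  p2 : P2 G k
  clq : Clq G Q
  om : Om G Q.card
  big : k + 1 ≤ 2 * Q.card
  lt : Q.card < k
  four : 4 ≤ Q.card

def Exc (k : ℕ) (Q : Finset V) (W : List V) (R : List ℕ) (r r' : V) (x : ℕ) : Prop :=
  r ∈ Q ∧ r' ∈ Q ∧ W.length = k ∧ 2 ≤ x ∧ (∀ l ∈ R, l = 0 ∨ x ≤ l) ∧ 1 ≤ tc R ∧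
    Q.card ≤ x + 2 * tc R ∧ x * tc R + Q.card ≤ k

def Exc0 (k : ℕ) (Q : Finset V) (W : List V) (r r' : V) (x : ℕ) : Prop :=
  Q.card = 4 ∧ x = 4 ∧ W.length = k ∧ ∀ p, Root Q W p → p ∉ Q → p = r ∨ p = r'

structure Ctx (G : SimpleGraph V) (k : ℕ) (Q : Finset V) (W : List V) (R : List ℕ) : Prop where
  base : Base G k Q
  qp : QP G Q W
  sub : ∀ q ∈ Q, q ∈ W
  str : Str Q R W
  len : W.length ≤ k
  main : ∀ r r' E, Root Q W r → Root Q W r' → r ≠ r' → Ear G W r r' E → E.length ≤ 4 →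
    Exc k Q W R r r' E.length ∨ Exc0 k Q W r r' E.length

/-- no two distinct roots are joined by an outside walk with at most two vertices -/
def No2 (G : SimpleGraph V) (Q : Finset V) (W : List V) : Prop :=
  ∀ a b, Root Q W a → Root Q W b → a ≠ b → ¬ Near G W a b 2

structure StrApi [DecidableEq V] (Q : Finset V) : Prop where
  head : ∀ R W, Str Q R W → ∃ a ∈ W.head?, a ∈ Q
  last : ∀ R W, Str Q R W → ∃ b ∈ W.getLast?, b ∈ Q
  app : ∀ R1 W1 P R2 W2, Str Q R1 W1 → (∀ p ∈ P, p ∉ Q) → Str Q R2 W2 →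
    Str Q (R1 ++ P.length :: R2) (W1 ++ (P ++ W2))
  rev : ∀ R W, Str Q R W → Str Q R.reverse W.reverse
  split : ∀ R1 l R2 W, Str Q (R1 ++ l :: R2) W → ∃ W1 P W2 : List V, W = W1 ++ (P ++ W2) ∧
    Str Q R1 W1 ∧ (∀ p ∈ P, p ∉ Q) ∧ P.length = l ∧ Str Q R2 W2
  ex : ∀ W : List V, (∃ a ∈ W.head?, a ∈ Q) → (∃ b ∈ W.getLast?, b ∈ Q) → ∃ R, Str Q R W
  uniq : ∀ R R' W, Str Q R W → Str Q R' W → R = R'
  out : ∀ R W, Str Q R W → outer Q W = R.sum
  len : ∀ R W, Str Q R W → W.length = R.sum + R.length + 1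

structure RootApi [DecidableEq V] (Q : Finset V) (W : List V) : Prop where
  card : ∃ Rt : Finset V, (∀ r, r ∈ Rt ↔ Root Q W r) ∧ Rt.card = Q.card
  non : ∀ A p z C, W = A ++ p :: z :: C → p ∉ Q → ¬ Root Q W z
  succ : ∀ p ∈ W, p ∉ Q → ∃ A z C, W = A ++ p :: z :: C
  pred : ∀ p, Root Q W p → p ∉ Q → ∃ A q C, W = A ++ q :: p :: C ∧ q ∈ Q
  first : ∀ p ∈ W, p ∉ Q → ∃ p', Root Q W p' ∧ p' ∉ Q
  len : W.length = outer Q W + Q.card

end defs

/-! ## Small clique number: breadth-first layers -/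

def StmtMin : Prop := ∀ (V : Type) [DecidableEq V] (G : SimpleGraph V) (S : Finset V) (ρ c : ℕ),
  S.Nonempty → (∀ I : Finset V, I ⊆ S → Ind G I → ρ * I.card + 1 ≤ S.card + c) →
  ∃ H, H ⊆ S ∧ Tight G H ρ c

def StmtLong : Prop := ∀ (V : Type) [DecidableEq V] (G : SimpleGraph V) (H : Finset V) (ρ c : ℕ),
  Tight G H ρ c → c + 1 ≤ ρ → OmIn G H (ρ - c) →
  ∃ l : List V, l.Nodup ∧ l.IsChain G.Adj ∧ (∀ v ∈ l, v ∈ H) ∧ 2 * ρ + 1 ≤ l.length + c ∧
    (∃ a ∈ l.head?, ∃ b ∈ l.getLast?, G.Adj b a) ∧ ∃ e ∈ l, ∀ v ∈ H, G.Adj e v → v ∈ l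

def StmtCyc : Prop := ∀ (V : Type) [DecidableEq V] (G : SimpleGraph V) (H : Finset V) (ρ : ℕ),
  Tight G H ρ 0 → 2 ≤ ρ → OmIn G H ρ →
  ∃ (n : ℕ) (f : ℤ → V), 2 * ρ + 1 ≤ n ∧ Cyc G n f ∧ (∀ i, f i ∈ H) ∧
    (3 ≤ ρ → ∃ p d : ℤ, 2 ≤ d ∧ d + 2 ≤ n ∧ G.Adj (f p) (f (p + d)))

def StmtTheta : Prop := ∀ (V : Type) (G : SimpleGraph V) (H : Finset V) (n y : ℕ) (f : ℤ → V)
  (col : V → Bool), Cyc G n f → (∀ i, f i ∈ H) → 1 ≤ y → y < n → Mono G H y col →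
  (y ≤ 2 ∨ ∃ p d : ℤ, 2 ≤ d ∧ d + 2 ≤ n ∧ G.Adj (f p) (f (p + d))) →
  ∀ i, col (f (i + 2)) = col (f i)

def StmtAB : Prop := ∀ (V : Type) [DecidableEq V] (G : SimpleGraph V) (H : Finset V)
  (ρ n y : ℕ) (f : ℤ → V) (col : V → Bool), Tight G H ρ 0 → 2 ≤ ρ → 3 ≤ n → Cyc G n f →
  (∀ i, f i ∈ H) → 1 ≤ y → y < n → Mono G H y col → (∀ i, col (f (i + 2)) = col (f i)) →
  ∀ u ∈ H, ∀ v ∈ H, col u = col v

def StmtTree : Prop := ∀ (V : Type) [DecidableEq V] (G : SimpleGraph V) (k i : ℕ) (v : V)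
  (H : Finset V), NoCyc G k → 1 ≤ i → (∀ u ∈ H, G.dist v u = i) → 2 ≤ H.card →
  ∃ h, 1 ≤ h ∧ h ≤ i ∧ (h = 1 → ∃ z, ∀ u ∈ H, G.Adj z u) ∧
    ∃ col : V → Bool, (∃ a ∈ H, ∃ b ∈ H, col a ≠ col b) ∧
      ∀ y, 1 ≤ y → y + 2 * h = k + 1 → Mono G H y col

def StmtLayer0 : Prop := ∀ (V : Type) [DecidableEq V] (G : SimpleGraph V) (k i : ℕ) (v : V)
  (S : Finset V), 4 ≤ k → NoCyc G k → 1 ≤ i → i ≤ k / 2 → (∀ u ∈ S, G.dist v u = i) →
  OmIn G S (k / 2) → ∃ I, I ⊆ S ∧ Ind G I ∧ S.card ≤ k / 2 * I.card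

def StmtLayer1 : Prop := ∀ (V : Type) [DecidableEq V] (G : SimpleGraph V) (k : ℕ) (v : V)
  (S : Finset V), 4 ≤ k → k % 2 = 0 → NoCyc G k → S.Nonempty → (∀ u ∈ S, G.Adj v u) →
  OmIn G S (k / 2 - 1) → ∃ I, I ⊆ S ∧ Ind G I ∧ S.card + 1 ≤ k / 2 * I.card

def StmtBFS : Prop := ∀ (V : Type) [Fintype V] [DecidableEq V] (G : SimpleGraph V) (k : ℕ) (v : V),
  4 ≤ k → P2 G k →
  (∀ i, 1 ≤ i → i ≤ k / 2 → ∃ I, I ⊆ layer G v i ∧ Ind G I ∧
    (layer G v i).card ≤ k / 2 * I.card ∧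
    (i = 1 → k % 2 = 0 → (layer G v i).card + 1 ≤ k / 2 * I.card)) → Big G k

def StmtSmall : Prop := ∀ (V : Type) [Fintype V] [DecidableEq V] (G : SimpleGraph V) (k : ℕ)
  (v : V), 4 ≤ k → NoCyc G k → P2 G k → (Om G (k / 2) ∨ (k = 5 ∧ Om G 3)) → Big G k

/-! ## Large clique number -/

def StmtEar : Prop := ∀ (V : Type) [DecidableEq V] (G : SimpleGraph V) (k : ℕ) (Q : Finset V)
  (W : List V), 1 ≤ k → NoCyc G k → Clq G Q → QP G Q W → W.length ≤ k + 1 →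
  k + 1 ≤ outer Q W + Q.card → False

def StmtStr : Prop := ∀ (V : Type) [DecidableEq V] (Q : Finset V), StrApi Q

def StmtRoot : Prop := ∀ (V : Type) [DecidableEq V] (G : SimpleGraph V) (Q : Finset V)
  (W : List V), QP G Q W → (∀ q ∈ Q, q ∈ W) → RootApi Q W

def StmtShort : Prop := ∀ (V : Type) (G : SimpleGraph V) (W : List V) (r r' : V) (E : List V),
  Wk G W r r' E → ∃ E', Ear G W r r' E' ∧ E'.length ≤ E.length ∧ E'.head? = E.head?

def StmtRot : Prop := ∀ (V : Type) [DecidableEq V] (G : SimpleGraph V) (Q : Finset V)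
  (W : List V) (R : List ℕ) (r r' : V) (E : List V), Clq G Q → QP G Q W → Str Q R W →
  Root Q W r → Root Q W r' → r ≠ r' → Ear G W r r' E → (∀ e ∈ E, e ∉ Q) →
  ∃ (W' : List V) (R' R0 : List ℕ) (l1 l2 : ℕ), QP G Q W' ∧ W'.Perm (W ++ E) ∧ Str Q R' W' ∧
    (nz R).Perm (nz (l1 :: l2 :: R0)) ∧ (nz R').Perm (nz ((l1 + E.length + l2) :: R0)) ∧
    (l1 = 0 → l2 = 0 → r ∈ Q ∧ r' ∈ Q) ∧
    ((∀ l ∈ R0, l = 0) → ∀ p, Root Q W p → p ∉ Q → p = r ∨ p = r')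

def StmtDel : Prop := ∀ (V : Type) [DecidableEq V] (G : SimpleGraph V) (Q : Finset V)
  (W : List V) (R : List ℕ) (ν : ℕ), Clq G Q → QP G Q W → Str Q R W →
  ∃ W' : List V, QP G Q W' ∧ (∀ q ∈ Q, q ∈ W → q ∈ W') ∧
    Str Q (R.map fun l => if ν ≤ l then l else 0) W'

def StmtComp : Prop := ∀ (V : Type) [DecidableEq V] (G : SimpleGraph V) (Q : Finset V)
  (W : List V) (R : List ℕ), Clq G Q → QP G Q W → Str Q R W → 1 ≤ tc R →
  ∃ W' : List V, QP G Q W' ∧ outer Q W' = R.sum ∧ W'.length ≤ R.sum + 2 * tc R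

def StmtFree : Prop := ∀ (V : Type) [DecidableEq V] (G : SimpleGraph V) (Q : Finset V)
  (W : List V) (R : List ℕ), Clq G Q → QP G Q W → Str Q R W → 2 * tc R < R.length + 1 →
  ∃ φ, φ ∈ Q ∧ Root Q W φ ∧ ∀ r r', Root Q W r → Root Q W r' → r ≠ φ → r' ≠ φ →
    ∃ W' : List V, QP G Q W' ∧ W.Perm (φ :: W') ∧ Root Q W' r ∧ Root Q W' r'

def StmtM : Prop := ∀ (V : Type) [Fintype V] [DecidableEq V] (G : SimpleGraph V) (k : ℕ)
  (Q : Finset V), Base G k Q → ∃ W R, Ctx G k Q W R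

def StmtT : Prop := ∀ (V : Type) [Fintype V] [DecidableEq V] (G : SimpleGraph V) (k : ℕ)
  (Q : Finset V) (W : List V) (R : List ℕ) (r : V), Ctx G k Q W R → Root Q W r → ¬ NC2 G W r →
  W.length = k ∧ r ∈ Q ∧ (∀ l ∈ R, l ≤ 1) ∧ (∃ d, M2 G W r d ∧ ¬ G.Adj r d) ∧
    ∀ u, M1 G W r u → ∀ z ∈ W, ¬ Root Q W z → G.Adj u z

def StmtT2 : Prop := ∀ (V : Type) [Fintype V] [DecidableEq V] (G : SimpleGraph V) (k : ℕ)
  (Q : Finset V) (W : List V) (R : List ℕ) (r r' : V), Ctx G k Q W R → Root Q W r →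
  Root Q W r' → r ≠ r' → ¬ NC2 G W r → ¬ NC2 G W r' → False

def StmtMiss1 : Prop := ∀ (V : Type) [DecidableEq V] (G : SimpleGraph V) (k : ℕ)
  (Q : Finset V) (W : List V) (R : List ℕ) (r r' : V) (E : List V), Ctx G k Q W R →
  Root Q W r → Root Q W r' → r ≠ r' → Ear G W r r' E → 3 ≤ E.length →
  Exc k Q W R r r' E.length → tc R = 1 →
  ∃ a ∈ W, ∃ a' ∈ W, a ∉ Q ∧ a' ∉ Q ∧ a ≠ a' ∧ ¬ G.Adj r a ∧ ¬ G.Adj r a'

def StmtMiss2 : Prop := ∀ (V : Type) [DecidableEq V] (G : SimpleGraph V)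
  (Q : Finset V) (W : List V) (R : List ℕ) (r r' : V) (E : List V), Ctx G 13 Q W R →
  Root Q W r → Root Q W r' → r ≠ r' → Ear G W r r' E → E.length = 3 →
  Exc 13 Q W R r r' 3 → tc R = 2 → Q.card = 7 → ∃ a ∈ W, a ∉ Q ∧ ¬ G.Adj r a

def StmtC34 : Prop := ∀ (V : Type) [Fintype V] [DecidableEq V] (G : SimpleGraph V) (k : ℕ)
  (Q : Finset V) (W : List V) (R : List ℕ) (r r' : V) (E : List V), Ctx G k Q W R →
  No2 G Q W → Root Q W r → Root Q W r' → r ≠ r' → Ear G W r r' E → E.length ≤ 4 →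
  Exc k Q W R r r' E.length → NC1 G W r

def StmtC7 : Prop := ∀ (V : Type) [Fintype V] [DecidableEq V] (G : SimpleGraph V)
  (Q : Finset V) (W : List V) (R : List ℕ) (p r : V) (E : List V), Ctx G 7 Q W R →
  Root Q W p → p ∉ Q → Root Q W r → p ≠ r → Ear G W p r E → E.length = 4 →
  Exc0 7 Q W p r 4 → NC1 G W p

def StmtNo2 : Prop := ∀ (V : Type) [Fintype V] [DecidableEq V] (G : SimpleGraph V) (k : ℕ)
  (Q : Finset V) (W : List V) (R : List ℕ), Ctx G k Q W R → No2 G Q W → Big G k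

/-- second neighbourhood bound used when a two-vertex ear exists -/
def StmtZ : Prop := ∀ (V : Type) [Fintype V] [DecidableEq V] (G : SimpleGraph V) (k : ℕ)
  (Q : Finset V) (W : List V) (R : List ℕ) (r w w' : V), Ctx G k Q W R → W.length = k →
  2 ≤ tc R → (∀ l ∈ R, l = 0 ∨ 2 ≤ l) → Root Q W r → M1 G W r w →
  ∃ z z', z ∉ W ∧ z' ∉ W ∧ z ≠ w' ∧ z' ≠ w' ∧ G.Adj w z ∧ G.Adj w z' ∧ z ≠ z' ∧ ¬ G.Adj z z'

def StmtTwo5 : Prop := ∀ (V : Type) [Fintype V] [DecidableEq V] (G : SimpleGraph V) (k : ℕ)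
  (Q : Finset V) (W : List V) (R : List ℕ) (a b w w' : V), Ctx G k Q W R → 5 ≤ Q.card →
  Root Q W a → Root Q W b → a ≠ b → Ear G W a b [w, w'] → Big G k

def StmtCfg6 : Prop := ∀ (V : Type) [Fintype V] [DecidableEq V] (G : SimpleGraph V)
  (e q φ φ' a1 a2 w w' : V), Base G 6 {e, q, φ, φ'} → [e, a1, a2, q, φ, w, w', φ'].Nodup →
  [e, a1, a2, q, φ, w, w', φ'].IsChain G.Adj → Big G 6

def StmtCfg7 : Prop := ∀ (V : Type) [Fintype V] [DecidableEq V] (G : SimpleGraph V)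
  (e q φ φ' a1 a2 a3 w w' : V), Base G 7 {e, q, φ, φ'} →
  [e, a1, a2, a3, q, φ, w, w', φ'].Nodup →
  [e, a1, a2, a3, q, φ, w, w', φ'].IsChain G.Adj → Big G 7

def StmtTwo4 : Prop := ∀ (V : Type) [Fintype V] [DecidableEq V] (G : SimpleGraph V) (k : ℕ)
  (Q : Finset V) (W : List V) (R : List ℕ) (a b w w' : V), Ctx G k Q W R → Q.card = 4 →
  Root Q W a → Root Q W b → a ≠ b → Ear G W a b [w, w'] → Big G k

def StmtFull : Prop := ∀ (V : Type) [Fintype V] [DecidableEq V] (G : SimpleGraph V) (k : ℕ)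
  (Q : Finset V), 4 ≤ k → NoCyc G k → P2 G k → Clq G Q → Om G k → Q.card = k → Big G k

def StmtK4 : Prop := ∀ (V : Type) [Fintype V] [DecidableEq V] (G : SimpleGraph V) (x y z : V),
  NoCyc G 4 → P2 G 4 → Om G 3 → G.Adj x y → G.Adj y z → G.Adj x z → Big G 4

def StmtK3 : Prop := ∀ (V : Type) [Fintype V] [DecidableEq V] (G : SimpleGraph V) (v : V),
  NoCyc G 3 → P2 G 3 → Big G 3

/-! ## Assembly -/

def StmtCore : Prop := ∀ (V : Type) [Fintype V] [DecidableEq V] (G : SimpleGraph V) (k : ℕ)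
  (v : V), 3 ≤ k → NoCyc G k → P2 G k → Big G k

def StmtInd : Prop := ∀ (k a : ℕ), 3 ≤ k → a ≤ k → ∀ (V : Type) [Fintype V] [DecidableEq V]
  (G : SimpleGraph V), NoCyc G k → (∀ I : Finset V, Ind G I → I.card ≤ a) →
  Fintype.card V ≤ k * a

def StmtUp : Prop := ∀ m n : ℕ, 4 ≤ m → 1 ≤ n → n ≤ m → Arrows m n ((m - 1) * (n - 1) + 1)

def StmtLow : Prop := ∀ m n N : ℕ, 3 ≤ m → 1 ≤ n → Arrows m n N → (m - 1) * (n - 1) + 1 ≤ N

/-! ## Proved helpers -/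

section helpers
variable {V : Type} {G : SimpleGraph V}

theorem P2.deg {k : ℕ} (h : P2 G k) (v : V) (U : Finset V) (hv : v ∈ U)
    (hU : ∀ w, G.Adj v w → w ∈ U) : k + 1 ≤ U.card := by
  have := h {v} U ⟨v, by simp⟩ (by intro a ha b hb; simp at ha hb; subst ha hb; simp)
    (by simpa using hv) (by intro u hu w hw; simp at hu; subst hu; exact hU w hw)
  simpa using this

theorem Root.mem {Q : Finset V} {W : List V} {r : V} (h : Root Q W r) : r ∈ W := by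
  obtain ⟨A, C, rfl, -⟩ := h
  simp

theorem Wk.rev {W : List V} {r r' : V} {E : List V} (h : Wk G W r r' E) :
    Wk G W r' r E.reverse := by
  obtain ⟨h1, h2, ⟨a, ha, hra⟩, b, hb, hbr⟩ := h
  refine ⟨?_, by simpa using h2, ⟨b, by simpa using hb, hbr.symm⟩, a, by simpa using ha, hra.symm⟩
  rw [List.isChain_reverse]
  exact h1.imp fun _ _ h => h.symm

theorem Ear.rev {W : List V} {r r' : V} {E : List V} (h : Ear G W r r' E) :
    Ear G W r' r E.reverse := ⟨by simpa using h.1, h.2.rev⟩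

theorem Ear.pos {W : List V} {r r' : V} {E : List V} (h : Ear G W r r' E) : 1 ≤ E.length := by
  obtain ⟨-, -, -, ⟨a, ha, -⟩, -⟩ := h
  cases E with
  | nil => simp at ha
  | cons x xs => simp

theorem Near.symm {W : List V} {r r' : V} {x : ℕ} (h : Near G W r r' x) : Near G W r' r x := by
  obtain ⟨E, hE, hl⟩ := h
  exact ⟨E.reverse, hE.rev, by simpa using hl⟩

theorem Near.mono {W : List V} {r r' : V} {x y : ℕ} (h : Near G W r r' x) (hxy : x ≤ y) :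
    Near G W r r' y := by
  obtain ⟨E, hE, hl⟩ := h
  exact ⟨E, hE, hl.trans hxy⟩

theorem M1.m2 {W : List V} {r u : V} (h : M1 G W r u) : M2 G W r u := ⟨h.1, Or.inl h.2⟩

theorem near1 {W : List V} {r r' u : V} (h : M1 G W r u) (h' : G.Adj u r') : Near G W r r' 1 :=
  ⟨[u], ⟨by simp, by simpa using h.1, ⟨u, by simp, h.2⟩, u, by simp, h'⟩, by simp⟩

theorem near20 {W : List V} {r r' u : V} (h : M2 G W r u) (h' : G.Adj u r') :
    Near G W r r' 2 := by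
  obtain ⟨hu, h | ⟨w, hw, h1, h2⟩⟩ := h
  · exact (near1 ⟨hu, h⟩ h').mono (by norm_num)
  · exact ⟨[w, u], ⟨by simpa using h2, by simp [hw, hu], ⟨w, by simp, h1⟩, u, by simp, h'⟩, by simp⟩

theorem near11 {W : List V} {r r' u u' : V} (h : M1 G W r u) (h' : M1 G W r' u')
    (hh : u = u' ∨ G.Adj u u') : Near G W r r' 2 := by
  rcases hh with rfl | hh
  · exact near20 h.m2 h'.2.symm
  · exact near20 ⟨h'.1, Or.inr ⟨u, h.1, h.2, hh⟩⟩ h'.2.symm

theorem near21 {W : List V} {r r' u u' : V} (h : M2 G W r u) (h' : M1 G W r' u')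
    (hh : u = u' ∨ G.Adj u u') : Near G W r r' 3 := by
  rcases hh with rfl | hh
  · exact (near20 h h'.2.symm).mono (by norm_num)
  · obtain ⟨hu, h | ⟨w, hw, h1, h2⟩⟩ := h
    · exact (near11 ⟨hu, h⟩ h' (Or.inr hh)).mono (by norm_num)
    · exact ⟨[w, u, u'], ⟨by simp [h2, hh], by simp [hw, hu, h'.1], ⟨w, by simp, h1⟩, u',
        by simp, h'.2.symm⟩, by simp⟩

theorem near22 {W : List V} {r r' u u' : V} (h : M2 G W r u) (h' : M2 G W r' u')
    (hh : u = u' ∨ G.Adj u u') : Near G W r r' 4 := by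
  obtain ⟨hu', h' | ⟨w', hw', h1', h2'⟩⟩ := h'
  · exact (near21 h ⟨hu', h'⟩ hh).mono (by norm_num)
  · rcases hh with rfl | hh
    · exact (near21 h ⟨hw', h1'⟩ (Or.inr h2'.symm)).mono (by norm_num)
    · obtain ⟨hu, h | ⟨w, hw, h1, h2⟩⟩ := h
      · exact ((near21 ⟨hu', Or.inr ⟨w', hw', h1', h2'⟩⟩ ⟨hu, h⟩ (Or.inr hh.symm)).symm).mono
          (by norm_num)
      · exact ⟨[w, u, u', w'], ⟨by simp [h2, hh, h2'.symm], by simp [hw, hu, hu', hw'],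
          ⟨w, by simp, h1⟩, w', by simp, h1'.symm⟩, by simp⟩

/-- every vertex of a list with at most `k` vertices has a neighbour outside -/
theorem m1_ex [DecidableEq V] {k : ℕ} (h : P2 G k) {W : List V} (hW : W.length ≤ k) {r : V}
    (hr : r ∈ W) : ∃ u, M1 G W r u := by
  by_contra hc
  push Not at hc
  have := h.deg r W.toFinset (by simpa using hr) (by
    intro w hw
    by_contra hn
    exact hc w ⟨by simpa using hn, hw⟩)
  have := List.toFinset_card_le W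
  omega

/-- union of pairwise separated independent sets -/
theorem asm [DecidableEq V] {ι : Type} [DecidableEq ι] (T : Finset ι) (D : ι → Finset V)
    (h1 : ∀ r ∈ T, Ind G (D r))
    (h2 : ∀ r ∈ T, ∀ r' ∈ T, r ≠ r' → ∀ u ∈ D r, ∀ u' ∈ D r', u ≠ u' ∧ ¬ G.Adj u u') :
    ∃ I : Finset V, Ind G I ∧ I.card = ∑ r ∈ T, (D r).card := by
  refine ⟨T.biUnion D, ?_, Finset.card_biUnion ?_⟩
  · intro u hu v hv
    simp only [Finset.mem_biUnion] at hu hv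
    obtain ⟨r, hr, hu⟩ := hu
    obtain ⟨r', hr', hv⟩ := hv
    by_cases e : r = r'
    · subst e; exact h1 r hr u hu v hv
    · exact (h2 r hr r' hr' e u hu v hv).2
  · intro r hr r' hr' e
    rw [Function.onFun, Finset.disjoint_left]
    intro u hu hu'
    exact (h2 r hr r' hr' e u hu u hu').1 rfl

theorem ind_pair [DecidableEq V] {u u' : V} (h : ¬ G.Adj u u') : Ind G {u, u'} := by
  intro a ha b hb
  simp only [Finset.mem_insert, Finset.mem_singleton] at ha hb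
  rcases ha with rfl | rfl <;> rcases hb with rfl | rfl
  · exact G.irrefl
  · exact h
  · exact fun e => h e.symm
  · exact G.irrefl

/-- a path with `k+1` vertices and both ends in the clique closes up -/
theorem qp_cyc {k : ℕ} {Q : Finset V} {W : List V} (hk : 1 ≤ k) (hn : NoCyc G k) (hQ : Clq G Q)
    (hW : QP G Q W) (hl : W.length = k + 1) : False := by
  obtain ⟨h1, h2, ⟨a, ha, haQ⟩, b, hb, hbQ⟩ := hW
  refine hn W h1 h2 hl a ha b hb (hQ b hbQ a haQ ?_)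
  rintro rfl
  match W, h1, hl, ha, hb with
  | [], _, hl, _, _ => simp at hl
  | [x], _, hl, _, _ => simp at hl; omega
  | x :: y :: t, h1, _, ha, hb =>
    simp only [List.head?_cons, Option.mem_def, Option.some.injEq] at ha
    subst ha
    have : x ∈ y :: t := List.mem_of_getLast? (by simpa using hb)
    exact (List.nodup_cons.1 h1).1 this

/-- an outside vertex cannot be inserted between consecutive vertices when `W` has `k` vertices -/
theorem ins {k : ℕ} {Q : Finset V} {W A C : List V} {p z u : V} (hn : NoCyc G k) (hQ : Clq G Q)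
    (hW : QP G Q W) (hl : W.length = k) (e : W = A ++ p :: z :: C) (hu : u ∉ W)
    (h1 : G.Adj p u) (h2 : G.Adj u z) : False := by
  subst e
  obtain ⟨n1, n2, ⟨a, ha, haQ⟩, b, hb, hbQ⟩ := hW
  refine qp_cyc (W := A ++ p :: u :: z :: C) (by simp at hl; omega) hn hQ
    ⟨?_, ?_, ⟨a, ?_, haQ⟩, b, ?_, hbQ⟩ (by simp at hl ⊢; omega)
  · have : (A ++ p :: u :: z :: C).Perm (u :: (A ++ p :: z :: C)) := by
      have := List.perm_middle (a := u) (l₁ := A ++ [p]) (l₂ := z :: C)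
      simpa using this
    rw [this.nodup_iff]
    exact List.nodup_cons.2 ⟨hu, n1⟩
  · rw [List.isChain_append_cons_cons] at n2 ⊢
    exact ⟨n2.1, h1, List.isChain_cons_cons.2 ⟨h2, n2.2.2⟩⟩
  · cases A <;> simpa using ha
  · simpa [List.getLast?_append] using hb

end helpers

end Vale.Agent.P048
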