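import Vale.Agent.P048.Spec

namespace Vale.Agent.P048

namespace Two5m

variable {V : Type} {G : SimpleGraph V}

theorem wk_cons {W E : List V} {r r' w : V} (h : Wk G W w r' E) (hw : M1 G W r w) :
    Wk G W r r' (w :: E) := by
  obtain ⟨h1, h2, ⟨a, ha, h3⟩, b, hb, h4⟩ := h
  obtain _ | ⟨x, E⟩ := E
  · simp at ha
  obtain rfl : x = a := by simpa using ha
  exact ⟨List.isChain_cons_cons.2 ⟨h3, h1⟩, fun e he => (List.mem_cons.1 he).elim
    (fun c => c ▸ hw.1) (h2 e), ⟨w, by simp, hw.2⟩, b, by simpa using hb, h4⟩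

end Two5m

open Two5m in
theorem stmtTwo5 (hS : StmtStr) (hRoot : StmtRoot) (hShort : StmtShort) (hRot : StmtRot)
    (hFree : StmtFree) (hT : StmtT) (hZ : StmtZ) : StmtTwo5 := by
  intro V _ _ G k Q W R a b w w' hC h5 ha hb hab hE
  have hB := hC.base
  have big := hB.big
  obtain ⟨-, -, hk, -, hR, t1, t2, t3⟩ : Exc k Q W R a b 2 :=
    (hC.main a b _ ha hb hab hE (by simp)).resolve_right fun c => by have := c.1; omega
  have two : ∀ r r' E, Root Q W r → Root Q W r' → r ≠ r' → Ear G W r r' E → E.length ≤ 4 →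
      E.length = 2 := fun r r' E h1 h2 h3 h4 h6 => by
    obtain ⟨-, -, -, x1, -, -, x2, x3⟩ :=
      (hC.main r r' E h1 h2 h3 h4 h6).resolve_right fun c => by have := c.1; omega
    by_contra c
    have := Nat.mul_le_mul_right (tc R) (show 3 ≤ E.length by omega)
    omega
  have rt := hRoot V G Q W hC.qp hC.sub
  obtain ⟨φ, -, hφ, fr⟩ := hFree V G Q W R hB.clq hC.qp hC.str (by
    have := (hS V Q).len R W hC.str
    have := (hS V Q).out R W hC.str
    have := rt.len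
    omega)
  have far : ∀ r r', Root Q W r → Root Q W r' → r ≠ r' → r ≠ φ → r' ≠ φ → ¬ Near G W r r' 4 := by
    rintro r r' h1 h2 h3 h4 h6 ⟨E0, hE0, hl⟩
    obtain ⟨E, e1, e2, -⟩ := hShort V G W r r' E0 hE0
    have e3 := two r r' E h1 h2 h3 e1 (by omega)
    obtain ⟨W', q1, q2, q3, q4⟩ := fr r r' h1 h2 h4 h6
    obtain ⟨R', q5⟩ := (hS V Q).ex W' q1.2.2.1 q1.2.2.2
    obtain ⟨W'', -, -, -, -, p1, p2, -⟩ := hRot V G Q W' R' r r' E hB.clq q1 q5 q3 q4 h3
      ⟨e1.1, e1.2.1, fun e he c => e1.2.2.1 e he (q2.mem_iff.2 (List.mem_cons_of_mem _ c)),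
        e1.2.2.2⟩ fun e he c => e1.2.2.1 e he (hC.sub e c)
    have l1 := p2.length_eq
    have l2 := q2.length_eq
    simp only [List.length_append, List.length_cons] at l1 l2
    exact qp_cyc (by omega) hB.nocyc hB.clq p1 (by omega)
  suffices H : ∀ b w w', Root Q W b → φ ≠ b → Ear G W φ b [w, w'] → Big G k by
    by_cases e : a = φ
    · subst e
      exact H b w w' hb hab hE
    by_cases e' : b = φ
    · subst e'
      exact H a w' w ha hab.symm hE.rev
    · exact absurd ⟨_, hE.2, by simp⟩ (far a b ha hb hab e e')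
  clear hE hab hb ha a b w w'
  intro b w w' hb hab hE
  obtain ⟨n1, n2, n3, n4, n5⟩ := hE
  simp only [List.nodup_cons, List.isChain_cons_cons, List.mem_cons,
    forall_eq_or_imp, List.head?_cons, Option.mem_def, Option.some.injEq, exists_eq_left',
    List.getLast?_cons_cons, List.getLast?_singleton, List.not_mem_nil, or_false,
    forall_eq] at n1 n2 n3 n4 n5
  have m1 : M1 G W φ w := ⟨n3.1, n4⟩
  have m2 : M1 G W b w' := ⟨n3.2, n5.symm⟩
  let P : V → V → Prop := fun r u => (r = φ → M1 G W w u ∧ u ≠ w') ∧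
    (r = b → M1 G W w' u ∧ u ≠ w) ∧ (r ≠ φ → M2 G W r u)
  have ex : ∀ r, ∃ u u', Root Q W r → u ≠ u' ∧ ¬ G.Adj u u' ∧ P r u ∧ P r u' := fun r => by
    by_cases e : r = φ
    · subst e
      obtain ⟨z, z', z1, z2, z3, z4, z5, z6, z7, z8⟩ :=
        hZ V G k Q W R r w w' hC hk (by omega) hR hφ m1
      exact ⟨z, z', fun _ => ⟨z7, z8, ⟨fun _ => ⟨⟨z1, z5⟩, z3⟩, fun c => absurd c hab,
        fun c => absurd rfl c⟩, fun _ => ⟨⟨z2, z6⟩, z4⟩, fun c => absurd c hab,
        fun c => absurd rfl c⟩⟩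
    by_cases e' : r = b
    · subst e'
      obtain ⟨z, z', z1, z2, z3, z4, z5, z6, z7, z8⟩ :=
        hZ V G k Q W R r w' w hC hk (by omega) hR hb m2
      exact ⟨z, z', fun _ => ⟨z7, z8, ⟨fun c => absurd c e, fun _ => ⟨⟨z1, z5⟩, z3⟩,
        fun _ => ⟨z1, Or.inr ⟨w', m2.1, m2.2, z5⟩⟩⟩, fun c => absurd c e, fun _ => ⟨⟨z2, z6⟩, z4⟩,
        fun _ => ⟨z2, Or.inr ⟨w', m2.1, m2.2, z6⟩⟩⟩⟩
    by_cases hr : Root Q W r
    swap
    · exact ⟨r, r, fun c => absurd c hr⟩
    have nc : NC2 G W r := by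
      by_contra c
      have h1 := (hT V G k Q W R r hC hr c).2.2.1
      obtain ⟨l, hl⟩ := List.exists_mem_of_length_pos (show 0 < (nz R).length from t1)
      simp only [nz, List.mem_filter, decide_eq_true_eq] at hl
      have := hR l hl.1
      have := h1 l hl.1
      omega
    obtain ⟨u, u', u1, u2, u3, u4⟩ := nc
    exact ⟨u, u', fun _ => ⟨u3, u4, ⟨fun c => absurd c e, fun c => absurd c e', fun _ => u1⟩,
      fun c => absurd c e, fun c => absurd c e', fun _ => u2⟩⟩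
  have sep1 : ∀ r, Root Q W r → r ≠ φ → ∀ z u, P φ z → P r u → ¬(z = u ∨ G.Adj z u) := by
    intro r hr e z u hz hu c
    obtain ⟨z1, z2⟩ := hz.1 rfl
    by_cases e' : r = b
    · obtain ⟨u1, u2⟩ := hu.2.1 e'
      rcases c with rfl | c
      · have := two φ b [w, z, w'] hφ hb hab ⟨by simp [z1.2.ne, z2, n1.1],
          by simp [z1.2, u1.2.symm], by simp [n3, z1.1], ⟨w, by simp, n4⟩, w', by simp, n5⟩
          (by simp)
        simp at this
      · have := two φ b [w, z, u, w'] hφ hb hab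
          ⟨by simp [z1.2.ne, z2, n1.1, u2.symm, c.ne, u1.2.ne'],
          by simp [z1.2, u1.2.symm, c], by simp [n3, z1.1, u1.1], ⟨w, by simp, n4⟩, w', by simp, n5⟩
          (by simp)
        simp at this
    · obtain ⟨E0, hE0, hl⟩ := (near21 (hu.2.2 e) z1 (c.imp Eq.symm fun c => c.symm)).symm
      obtain ⟨E, e1, e2, e3⟩ := hShort V G W φ r _ (wk_cons hE0 m1)
      have e4 := two φ r E hφ hr (Ne.symm e) e1 (by simp only [List.length_cons] at e2; omega)
      refine far b r hb hr (Ne.symm e') (Ne.symm hab) e ⟨w' :: E, wk_cons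
        ⟨e1.2.1, e1.2.2.1, ⟨w, by simpa using e3, n2.1.symm⟩, e1.2.2.2.2⟩ m2, ?_⟩
      simp only [List.length_cons]
      omega
  have sep : ∀ r r', Root Q W r → Root Q W r' → r ≠ r' → ∀ u u', P r u → P r' u' →
      ¬(u = u' ∨ G.Adj u u') := by
    intro r r' hr hr' e u u' hu hu' c
    by_cases e1 : r = φ
    · exact sep1 r' hr' (e1 ▸ e.symm) u u' (e1 ▸ hu) hu' c
    by_cases e2 : r' = φ
    · exact sep1 r hr e1 u' u (e2 ▸ hu') hu (c.imp Eq.symm fun c => c.symm)
    · exact far r r' hr hr' e e1 e2 (near22 (hu.2.2 e1) (hu'.2.2 e2) c)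
  choose u u' hu using ex
  obtain ⟨Rt, r1, r2⟩ := rt.card
  obtain ⟨I, i1, i2⟩ := asm (G := G) Rt (fun r => {u r, u' r})
    (fun r hr => ind_pair (hu r ((r1 r).1 hr)).2.1) fun r hr r' hr' e x hx x' hx' => by
      have h1 := hu r ((r1 r).1 hr)
      have h2 := hu r' ((r1 r').1 hr')
      simp only [Finset.mem_insert, Finset.mem_singleton] at hx hx'
      exact not_or.1 (sep r r' ((r1 r).1 hr) ((r1 r').1 hr') e x x'
        (hx.elim (· ▸ h1.2.2.1) (· ▸ h1.2.2.2)) (hx'.elim (· ▸ h2.2.2.1) (· ▸ h2.2.2.2)))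
  refine ⟨I, i1, ?_⟩
  rw [i2, Finset.sum_congr rfl fun r hr => Finset.card_pair (hu r ((r1 r).1 hr)).1]
  simp only [Finset.sum_const, smul_eq_mul]
  omega

end Vale.Agent.P048
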